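import Crest.Agent.R227.Ev

/-!
# R227/Compl: adic completeness of power series rings, quotients, dual numbers; Taylor expansion
and congruence properties of `ev`; fixed points of contractions (helper51)
-/

set_option autoImplicit false

namespace Crest.Agent.R227

open MvPowerSeries

/-! ## Generalities -/

section general

variable {S T : Type*} [CommRing S] [CommRing T]

/-- `𝔟` is closed for the `I`-adic topology. -/
def ClosedFor (I 𝔟 : Ideal S) : Prop := ∀ x, (∀ N, x ∈ 𝔟 ⊔ I ^ N) → x ∈ 𝔟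

theorem radical_le_jacobson_bot (I : Ideal S) [IsAdicComplete I S] :
    I.radical ≤ Ideal.jacobson ⊥ :=
  (Ideal.radical_mono (IsAdicComplete.le_jacobson_bot I)).trans (Ideal.isRadical_jacobson _)

theorem isUnit_one_add_of_mem_radical (I : Ideal S) [IsAdicComplete I S] {x : S}
    (hx : x ∈ I.radical) : IsUnit (1 + x) :=
  Ideal.isUnit_of_sub_one_mem_jacobson_bot (1 + x) (by simpa using radical_le_jacobson_bot I hx)

theorem isUnit_of_sub_mem_radical (I : Ideal S) [IsAdicComplete I S] {u x : S} (hu : IsUnit u)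
    (hx : x - u ∈ I.radical) : IsUnit x := by
  obtain ⟨u, rfl⟩ := hu
  have h := isUnit_one_add_of_mem_radical I (I.radical.mul_mem_left (↑u⁻¹ : S) hx)
  have h2 : x = u * (1 + (↑u⁻¹ : S) * (x - u)) := by
    rw [mul_add, ← mul_assoc, Units.mul_inv]; ring
  rw [h2]; exact u.isUnit.mul h

theorem closedFor_iff_isHausdorff (I 𝔟 : Ideal S) :
    ClosedFor I 𝔟 ↔ IsHausdorff (I.map (Ideal.Quotient.mk 𝔟)) (S ⧸ 𝔟) := by
  have key : ∀ (x : S) (N : ℕ), Ideal.Quotient.mk 𝔟 x ∈ I.map (Ideal.Quotient.mk 𝔟) ^ N ↔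
      x ∈ 𝔟 ⊔ I ^ N := fun x N => by
    rw [← Ideal.map_pow, ← Ideal.mem_comap, Ideal.comap_map_of_surjective _
      Ideal.Quotient.mk_surjective, ← RingHom.ker_eq_comap_bot, Ideal.mk_ker, sup_comm]
  constructor
  · intro h
    refine isHausdorff_of _ fun x hx => ?_
    obtain ⟨x, rfl⟩ := Ideal.Quotient.mk_surjective x
    exact Ideal.Quotient.eq_zero_iff_mem.mpr (h x fun N => (key x N).mp (hx N))
  · intro h x hx
    exact Ideal.Quotient.eq_zero_iff_mem.mp (haus _ fun N => (key x N).mpr (hx N))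

/-- Krull's intersection theorem. -/
theorem closedFor_of_le_jacobson [IsNoetherianRing S] {I : Ideal S} (hI : I ≤ Ideal.jacobson ⊥)
    (𝔟 : Ideal S) : ClosedFor I 𝔟 := by
  intro x hx
  have h := IsHausdorff.of_le_jacobson I (S ⧸ 𝔟) hI
  rw [← Ideal.Quotient.eq_zero_iff_mem]
  refine h.haus _ fun N => ?_
  rw [SModEq.zero]
  obtain ⟨b, hb, y, hy, rfl⟩ := Submodule.mem_sup.mp (hx N)
  rw [map_add, Ideal.Quotient.eq_zero_iff_mem.mpr hb, zero_add]
  have : Ideal.Quotient.mk 𝔟 y = y • (1 : S ⧸ 𝔟) := by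
    rw [Algebra.smul_def, mul_one]; rfl
  rw [this]
  exact Submodule.smul_mem_smul hy Submodule.mem_top

theorem closedFor_of_isLocalRing [IsNoetherianRing S] [IsLocalRing S] (𝔟 : Ideal S) :
    ClosedFor (IsLocalRing.maximalIdeal S) 𝔟 :=
  closedFor_of_le_jacobson (IsLocalRing.maximalIdeal_le_jacobson _) 𝔟

theorem closedFor_of_complete [IsNoetherianRing S] (I : Ideal S) [IsAdicComplete I S]
    (𝔟 : Ideal S) : ClosedFor I 𝔟 :=
  closedFor_of_le_jacobson (IsAdicComplete.le_jacobson_bot I) 𝔟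

theorem closedFor_of_pow_le {I 𝔟 : Ideal S} {k : ℕ} (h : I ^ k ≤ 𝔟) : ClosedFor I 𝔟 :=
  fun _ hx => (sup_le le_rfl h) (hx k)

theorem closedFor_ker (I : Ideal S) (J : Ideal T) [IsHausdorff J T] (ρ : S →+* T) {k : ℕ}
    (hρ : ∀ x ∈ I ^ k, ρ x ∈ J) : ClosedFor I (RingHom.ker ρ) := by
  intro x hx
  refine haus J fun N => ?_
  obtain ⟨b, hb, y, hy, rfl⟩ := Submodule.mem_sup.mp (hx (k * N))
  rw [map_add, (RingHom.mem_ker).mp hb, zero_add]
  have h1 : (I ^ k).map ρ ≤ J := Ideal.map_le_iff_le_comap.mpr hρ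
  have h2 : (I ^ (k * N)).map ρ ≤ J ^ N := by
    rw [pow_mul, Ideal.map_pow]; exact Ideal.pow_right_mono h1 N
  exact h2 (Ideal.mem_map_of_mem ρ hy)

theorem isHausdorff_of_pow_le (I J : Ideal S) [IsHausdorff I S] {k : ℕ} (h : J ^ k ≤ I) :
    IsHausdorff J S :=
  isHausdorff_of J fun x hx => haus I fun N => by
    have := hx (k * N)
    rw [pow_mul] at this
    exact Ideal.pow_right_mono h N this

theorem isHausdorff_of_le (I J : Ideal S) [IsHausdorff I S] (h : J ≤ I) : IsHausdorff J S :=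
  isHausdorff_of_pow_le I J (k := 1) (by rwa [pow_one])

/-- Ideals defining the same topology. -/
theorem isAdicComplete_of_pow_le (I J : Ideal S) [IsAdicComplete I S] {k l : ℕ} (h : J ^ k ≤ I)
    (h' : I ^ l ≤ J) : IsAdicComplete J S := by
  have := isHausdorff_of_pow_le I J h
  refine isAdicComplete_of J (fun x hx => haus J hx) fun f hf => ?_
  obtain ⟨L, hL⟩ := exists_Lim I f fun N => ⟨k * N, fun n hn => by
    have := Ideal.pow_le_pow_right hn (hf n)
    rw [pow_mul] at this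
    exact Ideal.pow_right_mono h N this⟩
  refine ⟨L, fun n => ?_⟩
  obtain ⟨a, ha⟩ := hL (l * n)
  have h1 := ha (max a n) (le_max_left _ _)
  rw [pow_mul] at h1
  have h2 := sub_mem_of_succ (pow_antitone J) hf (le_max_right a n)
  have := (J ^ n).add_mem (Ideal.pow_right_mono h' n h1) h2
  rwa [sub_add_sub_cancel] at this

theorem isPrecomplete_map (I : Ideal S) [IsPrecomplete I S] (ρ : S →+* T)
    (hρ : Function.Surjective ρ) : IsPrecomplete (I.map ρ) T := by
  refine isPrecomplete_of _ fun f hf => ?_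
  have h1 : ∀ n, ∃ y ∈ I ^ n, ρ y = f (n + 1) - f n := fun n => by
    have := hf n
    rwa [← Ideal.map_pow, Ideal.mem_map_iff_of_surjective ρ hρ] at this
  choose y hy hy' using h1
  obtain ⟨x0, hx0⟩ := hρ (f 0)
  have h2 : ∀ n, ρ (x0 + ∑ i ∈ Finset.range n, y i) = f n := fun n => by
    induction n with
    | zero => simpa using hx0
    | succ n ih => rw [Finset.sum_range_succ, ← add_assoc, map_add, ih, hy']; ring
  obtain ⟨L, hL⟩ := exists_lim I (fun n => x0 + ∑ i ∈ Finset.range n, y i) fun n => by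
    simpa [Finset.sum_range_succ] using hy n
  refine ⟨ρ L, fun n => ?_⟩
  rw [← h2, ← map_sub, ← Ideal.map_pow]
  exact Ideal.mem_map_of_mem _ (hL n)

theorem isAdicComplete_quotient (I 𝔟 : Ideal S) [IsAdicComplete I S] (h : ClosedFor I 𝔟) :
    IsAdicComplete (I.map (Ideal.Quotient.mk 𝔟)) (S ⧸ 𝔟) :=
  { (closedFor_iff_isHausdorff I 𝔟).mp h, isPrecomplete_map I _ Ideal.Quotient.mk_surjective with }

/-- A ring with a nilpotent ideal is complete. -/
theorem isAdicComplete_of_pow_eq_bot (I : Ideal S) {k : ℕ} (h : I ^ k = ⊥) : IsAdicComplete I S :=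
  isAdicComplete_of_pow_le ⊥ I h.le (l := 1) (by simp)

/-- `S / I ^ k` (or any quotient by an ideal containing a power of `I`) is complete. -/
theorem isAdicComplete_quotient_of_pow_le (I 𝔟 : Ideal S) {k : ℕ} (h : I ^ k ≤ 𝔟) :
    IsAdicComplete (I.map (Ideal.Quotient.mk 𝔟)) (S ⧸ 𝔟) :=
  isAdicComplete_of_pow_eq_bot _ (k := k) (by
    rw [← Ideal.map_pow]; exact Ideal.map_mk_eq_bot_of_le h)

/-- Stacks 090T: completeness passes to finitely generated ideals of the radical. -/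
theorem isAdicComplete_of_fg (I J : Ideal S) [IsAdicComplete I S] (hJ : J.FG)
    (h : J ≤ I.radical) : IsAdicComplete J S := by
  obtain ⟨k, hk⟩ := Ideal.exists_pow_le_of_le_radical_of_fg h hJ
  have := isHausdorff_of_pow_le I J hk
  obtain ⟨n, t, ht⟩ := Submodule.fg_iff_exists_fin_generating_family.mp hJ
  have ht' : ∀ i, t i ∈ I.radical := fun i => h (ht ▸ Ideal.subset_span ⟨i, rfl⟩)
  have hsurj : Function.Surjective (ev (RingHom.id S) t) := fun x => ⟨C x, by simp⟩
  have h1 := isPrecomplete_map (XI (Fin n) S) (ev (RingHom.id S) t) hsurj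
  rw [map_XI] at h1
  simp_rw [ev_X I _ ht'] at h1
  have h2 : Ideal.span (Set.range fun i => t i) = J := ht
  rw [h2] at h1
  exact { this, h1 with }

theorem isAdicComplete_span_singleton (I : Ideal S) [IsAdicComplete I S] {x : S}
    (hx : x ∈ I.radical) : IsAdicComplete (Ideal.span {x}) S :=
  isAdicComplete_of_fg I _ (Submodule.fg_span_singleton x)
    ((Ideal.span_singleton_le_iff_mem _).mpr hx)

theorem isAdicComplete_of_le [IsNoetherianRing S] (I J : Ideal S) [IsAdicComplete I S]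
    (h : J ≤ I.radical) : IsAdicComplete J S :=
  isAdicComplete_of_fg I J (IsNoetherian.noetherian J) h

/-- Sums `∑ a_n` with `a_n → 0` exist. -/
theorem exists_Lim_sum (I : Ideal S) [IsPrecomplete I S] (a : ℕ → S)
    (h : ∀ N, ∃ n₀, ∀ n, n₀ ≤ n → a n ∈ I ^ N) :
    ∃ L, Lim I (fun n => ∑ i ∈ Finset.range n, a i) L :=
  exists_Lim I _ fun N => by simpa [Finset.sum_range_succ] using h N

/-- Fixed points of contractions, for families. -/
theorem exists_fixed {ι : Type*} (I : Ideal S) [IsAdicComplete I S] (A : Set (ι → S))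
    (hA : ∀ x : ι → S, (∀ N, ∃ y ∈ A, ∀ i, x i - y i ∈ I ^ N) → x ∈ A)
    (F : (ι → S) → (ι → S)) (hF : ∀ x ∈ A, F x ∈ A)
    (hc : ∀ N, ∀ x ∈ A, ∀ y ∈ A, (∀ i, x i - y i ∈ I ^ N) → ∀ i, F x i - F y i ∈ I ^ (N + 1))
    {x₀ : ι → S} (h₀ : x₀ ∈ A) : ∃ x ∈ A, F x = x := by
  have h1 : ∀ n, F^[n] x₀ ∈ A := fun n => by
    induction n with
    | zero => exact h₀
    | succ n ih => rw [Function.iterate_succ_apply']; exact hF _ ih
  have h2 : ∀ n i, F^[n + 1] x₀ i - F^[n] x₀ i ∈ I ^ n := fun n => by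
    induction n with
    | zero => simp
    | succ n ih =>
      intro i
      have := hc n _ (h1 (n + 1)) _ (h1 n) ih i
      rwa [← Function.iterate_succ_apply' F (n + 1), ← Function.iterate_succ_apply' F n] at this
  choose L hL using fun i => exists_lim I (fun n => F^[n] x₀ i) (fun n => h2 n i)
  have hLA : L ∈ A := hA L fun N => ⟨_, h1 N, fun i => hL i N⟩
  refine ⟨L, hLA, funext fun i => haus_eq I fun N => ?_⟩
  have h3 := hc N L hLA _ (h1 N) (fun i => hL i N) i
  rw [← Function.iterate_succ_apply' F N] at h3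
  have := (I ^ (N + 1)).sub_mem h3 (hL i (N + 1))
  rw [sub_sub_sub_cancel_right] at this
  exact Ideal.pow_le_pow_right (Nat.le_succ N) this

theorem fixed_unique {ι : Type*} (I : Ideal S) [IsHausdorff I S] (A : Set (ι → S))
    (F : (ι → S) → (ι → S))
    (hc : ∀ N, ∀ x ∈ A, ∀ y ∈ A, (∀ i, x i - y i ∈ I ^ N) → ∀ i, F x i - F y i ∈ I ^ (N + 1))
    {x y : ι → S} (hx : x ∈ A) (hy : y ∈ A) (hx' : F x = x) (hy' : F y = y) : x = y := by
  have : ∀ N i, x i - y i ∈ I ^ N := fun N => by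
    induction N with
    | zero => simp
    | succ N ih => intro i; simpa [hx', hy'] using hc N x hx y hy ih i
  exact funext fun i => haus_eq I fun N => this N i

/-- Fixed points of contractions. -/
theorem exists_fixed1 (I : Ideal S) [IsAdicComplete I S] (A : Set S)
    (hA : ∀ x, (∀ N, ∃ y ∈ A, x - y ∈ I ^ N) → x ∈ A) (F : S → S) (hF : ∀ x ∈ A, F x ∈ A)
    (hc : ∀ N, ∀ x ∈ A, ∀ y ∈ A, x - y ∈ I ^ N → F x - F y ∈ I ^ (N + 1))
    {x₀ : S} (h₀ : x₀ ∈ A) : ∃ x ∈ A, F x = x := by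
  obtain ⟨x, hx, hx'⟩ := exists_fixed (ι := Unit) I {x | x () ∈ A}
    (fun x h => hA _ fun N => by obtain ⟨y, hy, hy'⟩ := h N; exact ⟨y (), hy, hy' ()⟩)
    (fun x _ => F (x ())) (fun x hx => hF _ hx)
    (fun N x hx y hy h _ => hc N _ hx _ hy (h ())) (x₀ := fun _ => x₀) h₀
  exact ⟨x (), hx, congrFun hx' ()⟩

end general

/-! ## Power series rings -/

section PI

variable {σ : Type*} {S : Type*} [CommRing S]

/-- The ideal `(I, X₁, …, X_n)` of the power series ring. -/
noncomputable abbrev PI (σ : Type*) (I : Ideal S) : Ideal (MvPowerSeries σ S) :=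
  I.comap (constantCoeff : MvPowerSeries σ S →+* S)

theorem mem_PI {I : Ideal S} {f : MvPowerSeries σ S} : f ∈ PI σ I ↔ constantCoeff f ∈ I := Iff.rfl

theorem mem_PI_radical {I : Ideal S} {f : MvPowerSeries σ S} :
    f ∈ (PI σ I).radical ↔ constantCoeff f ∈ I.radical := by
  rw [← Ideal.comap_radical]; rfl

theorem X_mem_PI (I : Ideal S) (i : σ) : (X i : MvPowerSeries σ S) ∈ PI σ I := by simp

theorem X_mem_PI_radical (I : Ideal S) (i : σ) : (X i : MvPowerSeries σ S) ∈ (PI σ I).radical :=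
  Ideal.le_radical (X_mem_PI I i)

theorem C_mem_PI_radical {I : Ideal S} {x : S} (hx : x ∈ I.radical) :
    (C x : MvPowerSeries σ S) ∈ (PI σ I).radical := by simpa [mem_PI_radical] using hx

theorem XI_le_PI (I : Ideal S) : XI σ S ≤ PI σ I := by
  rw [Ideal.span_le]; rintro _ ⟨i, rfl⟩; exact X_mem_PI I i

theorem map_C_le_PI (I : Ideal S) : I.map (C : S →+* MvPowerSeries σ S) ≤ PI σ I := by
  rw [Ideal.map_le_iff_le_comap]; intro x hx; simpa [mem_PI] using hx

theorem C_mem_PI_pow {I : Ideal S} {k : ℕ} {x : S} (hx : x ∈ I ^ k) :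
    (C x : MvPowerSeries σ S) ∈ PI σ I ^ k := by
  refine Ideal.pow_right_mono (map_C_le_PI I) k ?_
  rw [← Ideal.map_pow]; exact Ideal.mem_map_of_mem _ hx

theorem PI_eq [Finite σ] (I : Ideal S) :
    PI σ I = I.map (C : S →+* MvPowerSeries σ S) ⊔ XI σ S := by
  refine le_antisymm (fun f hf => ?_) (sup_le (map_C_le_PI I) (XI_le_PI I))
  have := Ideal.add_mem _ (Ideal.mem_sup_left (T := XI σ S) (Ideal.mem_map_of_mem C hf))
    (Ideal.mem_sup_right (sub_C_mem_XI f))
  simpa using this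

theorem PI_bot [Finite σ] : PI σ (⊥ : Ideal S) = XI σ S := by simp [PI_eq]

theorem coeff_mem_of_mem_PI_pow {I : Ideal S} {k : ℕ} {f : MvPowerSeries σ S}
    (hf : f ∈ PI σ I ^ k) (d : σ →₀ ℕ) : coeff d f ∈ I ^ (k - d.degree) := by
  classical
  induction k generalizing f d with
  | zero => simp
  | succ k ih =>
    rw [pow_succ] at hf
    refine Submodule.mul_induction_on hf ?_ ?_
    · intro a ha b hb
      rw [coeff_mul]
      refine Ideal.sum_mem _ fun x hx => ?_
      rw [Finset.HasAntidiagonal.mem_antidiagonal] at hx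
      have hd : d.degree = x.1.degree + x.2.degree := by rw [← hx, map_add]
      by_cases h : x.2 = 0
      · have h1 : coeff x.2 b ∈ I := by rw [h]; exact hb
        have h2 := Ideal.mul_mem_mul (ih ha x.1) h1
        rw [← pow_succ] at h2
        exact Ideal.pow_le_pow_right (by omega) h2
      · have h1 : x.2.degree ≠ 0 := by rwa [Ne, Finsupp.degree_eq_zero_iff]
        exact Ideal.mul_mem_right _ _ (Ideal.pow_le_pow_right (by omega) (ih ha x.1))
    · intro a b ha hb
      rw [map_add]; exact Ideal.add_mem _ ha hb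

theorem mem_PI_pow [Finite σ] {I : Ideal S} {k : ℕ} {f : MvPowerSeries σ S} :
    f ∈ PI σ I ^ k ↔ ∀ d : σ →₀ ℕ, coeff d f ∈ I ^ (k - d.degree) := by
  refine ⟨coeff_mem_of_mem_PI_pow, ?_⟩
  have := Fintype.ofFinite σ
  induction k generalizing f with
  | zero => simp
  | succ k ih =>
    intro hf
    obtain ⟨g, hg, hg'⟩ := exists_split f
    rw [hg]
    refine Ideal.add_mem _ (C_mem_PI_pow (by simpa using hf 0)) ?_
    rw [pow_succ']
    refine Ideal.sum_mem _ fun i _ => Ideal.mul_mem_mul (X_mem_PI I i) (ih fun e => ?_)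
    rcases hg' i e with h | h
    · have := hf (e + Finsupp.single i 1)
      rw [map_add, Finsupp.degree_single, Nat.add_sub_add_right] at this
      rwa [h]
    · rw [h]; exact Ideal.zero_mem _

instance isHausdorff_PI (I : Ideal S) [IsHausdorff I S] :
    IsHausdorff (PI σ I) (MvPowerSeries σ S) :=
  isHausdorff_of _ fun f hf => by
    ext d
    refine haus I fun N => ?_
    simpa using coeff_mem_of_mem_PI_pow (hf (N + d.degree)) d

instance isAdicComplete_PI [Finite σ] (I : Ideal S) [IsAdicComplete I S] :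
    IsAdicComplete (PI σ I) (MvPowerSeries σ S) := by
  refine isAdicComplete_of _ (fun f hf => haus _ hf) fun f hf => ?_
  choose L hL using fun d : σ →₀ ℕ => exists_lim I (fun n => coeff d (f (n + d.degree)))
    (fun n => by
      have := coeff_mem_of_mem_PI_pow (hf (n + d.degree)) d
      rw [map_sub, Nat.add_sub_cancel] at this
      rwa [add_right_comm])
  refine ⟨L, fun n => mem_PI_pow.mpr fun d => ?_⟩
  by_cases h : d.degree ≤ n
  · have := hL d (n - d.degree)
    rw [Nat.sub_add_cancel h] at this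
    rw [map_sub]; exact this
  · rw [Nat.sub_eq_zero_of_le (by omega)]; simp

theorem coeff_mem_of_mem_map_C {I : Ideal S} {f : MvPowerSeries σ S}
    (hf : f ∈ I.map (C : S →+* MvPowerSeries σ S)) (d : σ →₀ ℕ) : coeff d f ∈ I := by
  have : I.map (C : S →+* MvPowerSeries σ S) ≤ RingHom.ker (map (Ideal.Quotient.mk I)) := by
    rw [Ideal.map_le_iff_le_comap]
    intro x hx
    rw [Ideal.mem_comap, RingHom.mem_ker, map_C, Ideal.Quotient.eq_zero_iff_mem.mpr hx, map_zero]
  have h := congrArg (coeff d) ((RingHom.mem_ker).mp (this hf))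
  rwa [coeff_map, map_zero, Ideal.Quotient.eq_zero_iff_mem] at h

theorem mem_map_C_iff {I : Ideal S} (hI : I.FG) {f : MvPowerSeries σ S} :
    f ∈ I.map (C : S →+* MvPowerSeries σ S) ↔ ∀ d, coeff d f ∈ I := by
  refine ⟨coeff_mem_of_mem_map_C, fun h => ?_⟩
  obtain ⟨n, t, ht⟩ := Submodule.fg_iff_exists_fin_generating_family.mp hI
  have h1 : ∀ d, ∃ c : Fin n → S, ∑ i, c i * t i = coeff d f := fun d => by
    have := h d
    rw [← ht, Submodule.mem_span_range_iff_exists_fun] at this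
    simpa using this
  choose c hc using h1
  let g : Fin n → MvPowerSeries σ S := fun i d => c d i
  have hg : ∀ i d, coeff d (g i) = c d i := fun _ _ => rfl
  have : f = ∑ i, C (t i) * g i := by
    ext d
    simp only [map_sum, coeff_C_mul, hg, ← hc, mul_comm]
  rw [this]
  exact Ideal.sum_mem _ fun i _ => Ideal.mul_mem_right _ _
    (Ideal.mem_map_of_mem _ (ht ▸ Ideal.subset_span ⟨i, rfl⟩))

theorem ker_map_mk {I : Ideal S} (hI : I.FG) :
    RingHom.ker (map (Ideal.Quotient.mk I) : MvPowerSeries σ S →+* _) = I.map C := by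
  ext f
  rw [mem_map_C_iff hI, RingHom.mem_ker, MvPowerSeries.ext_iff]
  simp [Ideal.Quotient.eq_zero_iff_mem]

theorem C_dvd_iff {x : S} {f : MvPowerSeries σ S} : C x ∣ f ↔ ∀ d, x ∣ coeff d f := by
  have := mem_map_C_iff (σ := σ) (Submodule.fg_span_singleton x) (f := f)
  rw [show (Submodule.span S {x} : Ideal S) = Ideal.span {x} from rfl, Ideal.map_span,
    Set.image_singleton] at this
  simpa only [Ideal.mem_span_singleton] using this

theorem isAdicComplete_map_C [Finite σ] (I : Ideal S) [IsAdicComplete I S] (hI : I.FG) :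
    IsAdicComplete (I.map (C : S →+* MvPowerSeries σ S)) (MvPowerSeries σ S) :=
  isAdicComplete_of_fg (PI σ I) _ (hI.map _) ((map_C_le_PI I).trans Ideal.le_radical)

theorem maximalIdeal_mvPowerSeries [IsLocalRing S] :
    IsLocalRing.maximalIdeal (MvPowerSeries σ S) = PI σ (IsLocalRing.maximalIdeal S) := by
  ext f
  rw [mem_PI, IsLocalRing.mem_maximalIdeal, IsLocalRing.mem_maximalIdeal, mem_nonunits_iff,
    mem_nonunits_iff, isUnit_iff_constantCoeff]

instance isAdicComplete_maximalIdeal_mvPowerSeries [Finite σ] [IsLocalRing S]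
    [IsAdicComplete (IsLocalRing.maximalIdeal S) S] :
    IsAdicComplete (IsLocalRing.maximalIdeal (MvPowerSeries σ S)) (MvPowerSeries σ S) := by
  rw [maximalIdeal_mvPowerSeries]; infer_instance

end PI

/-! ## Dual numbers -/

section dual

open TrivSqZeroExt DualNumber

variable {S : Type*} [CommRing S]

/-- The projection `S[ε] → S` as a ring hom. -/
def dfst (S : Type*) [CommRing S] : DualNumber S →+* S := (TrivSqZeroExt.fstHom S S S).toRingHom

@[simp] theorem dfst_apply (x : DualNumber S) : dfst S x = x.fst := rfl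

/-- The inclusion `S → S[ε]` as a ring hom. -/
def dinl (S : Type*) [CommRing S] : S →+* DualNumber S := TrivSqZeroExt.inlHom S S

@[simp] theorem dinl_apply (x : S) : dinl S x = inl x := rfl

/-- The ideal `(I, ε)` of the dual numbers. -/
abbrev DI (I : Ideal S) : Ideal (DualNumber S) := I.comap (dfst S)

theorem mem_DI_radical {I : Ideal S} {x : DualNumber S} :
    x ∈ (DI I).radical ↔ x.fst ∈ I.radical := by
  rw [← Ideal.comap_radical]; rfl

theorem mem_DI_pow {I : Ideal S} {k : ℕ} {x : DualNumber S} :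
    x ∈ DI I ^ k ↔ x.fst ∈ I ^ k ∧ x.snd ∈ I ^ (k - 1) := by
  constructor
  · intro hx
    induction k generalizing x with
    | zero => simp
    | succ k ih =>
      rw [Submodule.pow_succ] at hx
      refine Submodule.mul_induction_on hx ?_ ?_
      · intro a ha b hb
        obtain ⟨h1, h2⟩ := ih ha
        have hb' : b.fst ∈ I := hb
        refine ⟨by rw [fst_mul, pow_succ]; exact Ideal.mul_mem_mul h1 hb', ?_⟩
        rw [DualNumber.snd_mul, Nat.add_sub_cancel]
        refine Ideal.add_mem _ (Ideal.mul_mem_right _ _ h1) ?_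
        have := Ideal.mul_mem_mul h2 hb'
        rw [← pow_succ] at this
        exact Ideal.pow_le_pow_right (by omega) this
      · intro a b ha hb
        exact ⟨Ideal.add_mem _ ha.1 hb.1, Ideal.add_mem _ ha.2 hb.2⟩
  · rintro ⟨h1, h2⟩
    have key : ∀ (k : ℕ) (y : S), y ∈ I ^ k → (inl y : DualNumber S) ∈ DI I ^ k := fun k y hy => by
      have h : I.map (dinl S) ≤ DI I := by
        rw [Ideal.map_le_iff_le_comap]; intro z hz; simpa using hz
      refine Ideal.pow_right_mono h k ?_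
      rw [← Ideal.map_pow]; exact Ideal.mem_map_of_mem (dinl S) hy
    rcases k with _ | k
    · simp
    · have hx : x = inl x.fst + inl x.snd * ε := by ext <;> simp
      rw [hx]
      refine Ideal.add_mem _ (key _ _ h1) ?_
      rw [Submodule.pow_succ]
      exact Ideal.mul_mem_mul (key _ _ h2) (by simp)

instance isHausdorff_DI (I : Ideal S) [IsHausdorff I S] : IsHausdorff (DI I) (DualNumber S) :=
  isHausdorff_of _ fun _ hx => TrivSqZeroExt.ext (haus I fun N => (mem_DI_pow.mp (hx N)).1)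
    (haus I fun N => (mem_DI_pow.mp (hx (N + 1))).2)

instance isAdicComplete_DI (I : Ideal S) [IsAdicComplete I S] :
    IsAdicComplete (DI I) (DualNumber S) := by
  refine isAdicComplete_of _ (fun x hx => haus _ hx) fun f hf => ?_
  obtain ⟨a, ha⟩ := exists_lim I (fun n => (f n).fst) fun n => (mem_DI_pow.mp (hf n)).1
  obtain ⟨b, hb⟩ := exists_lim I (fun n => (f (n + 1)).snd) fun n => (mem_DI_pow.mp (hf (n + 1))).2
  refine ⟨inl a + inr b, fun n => mem_DI_pow.mpr ⟨by simpa using ha n, ?_⟩⟩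
  rcases n with _ | n
  · simp
  · simpa using hb n

variable {σ R : Type*} [CommRing R]

theorem fst_ev [Finite σ] (I : Ideal S) [IsAdicComplete I S] (φ : R →+* DualNumber S)
    {a : σ → DualNumber S} (ha : ∀ i, (a i).fst ∈ I.radical) (f : MvPowerSeries σ R) :
    (ev φ a f).fst = ev ((dfst S).comp φ) (fun i => (a i).fst) f :=
  map_ev (DI I) I φ (fun i => mem_DI_radical.mpr (ha i)) (dfst S) ha f

/-- First-order expansion with dual numbers. -/
theorem snd_ev [Fintype σ] (I : Ideal S) [IsAdicComplete I S] (φ : R →+* S)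
    {a : σ → DualNumber S} (ha : ∀ i, (a i).fst ∈ I.radical) (f : MvPowerSeries σ R) :
    (ev ((dinl S).comp φ) a f).snd =
      ∑ i, ev φ (fun i => (a i).fst) (pderiv R i f) * (a i).snd := by
  have h1 : ∀ g, (ev ((dinl S).comp φ) a g).fst = ev φ (fun i => (a i).fst) g := fun g =>
    fst_ev I _ ha g
  have := der_eq_sum I (ev φ (fun i => (a i).fst)) (fun i => by rw [ev_X I φ ha]; exact ha i)
    ((TrivSqZeroExt.sndHom S S).toAddMonoidHom.comp (ev ((dinl S).comp φ) a).toAddMonoidHom)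
    (fun f g => by simp [h1, mul_comm]) (fun r => by simp) f
  simpa [ev_X (DI I) _ (fun i => mem_DI_radical.mpr (ha i))] using this

theorem fst_ev1 (I : Ideal S) [IsAdicComplete I S] (φ : R →+* DualNumber S)
    {x : DualNumber S} (hx : x.fst ∈ I.radical) (f : PowerSeries R) :
    (ev1 φ x f).fst = ev1 ((dfst S).comp φ) x.fst f :=
  fst_ev I φ (fun _ => hx) f

theorem snd_ev1 (I : Ideal S) [IsAdicComplete I S] (φ : R →+* S)
    {x : DualNumber S} (hx : x.fst ∈ I.radical) (f : PowerSeries R) :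
    (ev1 ((dinl S).comp φ) x f).snd = ev1 φ x.fst (PowerSeries.derivative R f) * x.snd := by
  have := snd_ev I φ (a := fun _ : Unit => x) (fun _ => hx) f
  rw [Fintype.sum_unique] at this
  exact this

end dual

/-! ## Taylor expansion and congruences -/

section taylor

variable {σ : Type*} {R S : Type*} [CommRing R] [CommRing S]

theorem sub_linear_mem_XI_sq [Fintype σ] (g : MvPowerSeries σ R) :
    g - C (constantCoeff g) - ∑ i, C (coeff (Finsupp.single i 1) g) * X i ∈ XI σ R ^ 2 := by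
  classical
  rw [mem_XI_pow]
  intro d hd
  simp only [map_sub, map_sum, coeff_C_mul, coeff_C, coeff_X]
  by_cases h0 : d = 0
  · subst h0
    simp [Finsupp.single_eq_zero, eq_comm (a := (0 : σ →₀ ℕ))]
  · have h1 : d.degree = 1 := by
      have : d.degree ≠ 0 := by rwa [Ne, Finsupp.degree_eq_zero_iff]
      omega
    obtain ⟨j, rfl⟩ : ∃ j, d = Finsupp.single j 1 := by
      obtain ⟨j, hj⟩ : ∃ j, d j ≠ 0 := by
        by_contra h; push Not at h; exact h0 (Finsupp.ext h)
      refine ⟨j, ?_⟩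
      have hle : Finsupp.single j 1 ≤ d := by rw [Finsupp.single_le_iff]; omega
      obtain ⟨e, rfl⟩ := exists_add_of_le hle
      rw [map_add, Finsupp.degree_single] at h1
      have : e = 0 := by rw [← Finsupp.degree_eq_zero_iff]; omega
      simp [this]
    rw [if_neg h0, Finset.sum_eq_single j]
    · simp
    · intro i _ hi
      rw [if_neg, mul_zero]
      intro h
      exact hi ((Finsupp.single_left_inj one_ne_zero).mp h).symm
    · simp

theorem constantCoeff_pderiv (i : σ) (g : MvPowerSeries σ R) :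
    constantCoeff (pderiv R i g) = coeff (Finsupp.single i 1) g := by
  rw [← coeff_zero_eq_constantCoeff_apply, coeff_pderiv]; simp

/-- `f ↦ f(a + X)`. -/
noncomputable def taylor (φ : R →+* S) (a : σ → S) : MvPowerSeries σ R →+* MvPowerSeries σ S :=
  ev ((C : S →+* MvPowerSeries σ S).comp φ) (fun i => C (a i) + X i)

theorem C_add_X_mem {I : Ideal S} {a : σ → S} (ha : ∀ i, a i ∈ I.radical) (i : σ) :
    (C (a i) + X i : MvPowerSeries σ S) ∈ (PI σ I).radical := by
  simpa [mem_PI_radical] using ha i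

variable [Finite σ]

theorem constantCoeff_taylor (I : Ideal S) [IsAdicComplete I S] (φ : R →+* S) {a : σ → S}
    (ha : ∀ i, a i ∈ I.radical) (f : MvPowerSeries σ R) :
    constantCoeff (taylor φ a f) = ev φ a f := by
  rw [taylor, map_ev (PI σ I) I _ (C_add_X_mem ha) constantCoeff (fun i => by simpa using ha i)]
  congr 2
  ext i; simp

theorem ev_taylor (I : Ideal S) [IsAdicComplete I S] (φ : R →+* S) {a δ : σ → S}
    (ha : ∀ i, a i ∈ I.radical) (hδ : ∀ i, δ i ∈ I.radical) (f : MvPowerSeries σ R) :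
    ev (RingHom.id S) δ (taylor φ a f) = ev φ (fun i => a i + δ i) f := by
  have h : ∀ i, ev (RingHom.id S) δ (C (a i) + X i) = a i + δ i := fun i => by
    simp [ev_X I _ hδ]
  rw [taylor, map_ev (PI σ I) I _ (C_add_X_mem ha) _
    (fun i => by rw [h]; exact Ideal.add_mem _ (ha i) (hδ i))]
  congr 2
  · ext r; simp
  · ext i; exact h i

theorem pderiv_taylor (I : Ideal S) [IsAdicComplete I S] (φ : R →+* S) {a : σ → S}
    (ha : ∀ i, a i ∈ I.radical) (i : σ) (f : MvPowerSeries σ R) :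
    pderiv S i (taylor φ a f) = taylor φ a (pderiv R i f) := by
  classical
  have := Fintype.ofFinite σ
  have h := der_ev (PI σ I) ((C : S →+* MvPowerSeries σ S).comp φ) (C_add_X_mem ha)
    (pderiv S i).toLinearMap.toAddMonoidHom (fun x y => by simp) (fun r => by simp) f
  rw [Finset.sum_eq_single i] at h
  · simpa [taylor] using h
  · intro j _ hj
    simp [pderiv_X_of_ne hj]
  · simp

theorem coeff_single_taylor (I : Ideal S) [IsAdicComplete I S] (φ : R →+* S) {a : σ → S}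
    (ha : ∀ i, a i ∈ I.radical) (i : σ) (f : MvPowerSeries σ R) :
    coeff (Finsupp.single i 1) (taylor φ a f) = ev φ a (pderiv R i f) := by
  rw [← constantCoeff_pderiv, pderiv_taylor I φ ha, constantCoeff_taylor I φ ha]

/-- **Congruence**: `a ≡ a' mod 𝔟` implies `f(a) ≡ f(a') mod 𝔟` (any ideal `𝔟`). -/
theorem ev_sub_ev_mem (I : Ideal S) [IsAdicComplete I S] (φ : R →+* S) {a a' : σ → S}
    (ha : ∀ i, a i ∈ I.radical) (ha' : ∀ i, a' i ∈ I.radical) {𝔟 : Ideal S}
    (h : ∀ i, a i - a' i ∈ 𝔟) (f : MvPowerSeries σ R) : ev φ a f - ev φ a' f ∈ 𝔟 := by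
  have hδ : ∀ i, a i - a' i ∈ I.radical := fun i => Ideal.sub_mem _ (ha i) (ha' i)
  have := ev_sub_const_mem I (RingHom.id S) hδ h (taylor φ a' f)
  rw [ev_taylor I φ ha' hδ, constantCoeff_taylor I φ ha'] at this
  simpa using this

/-- Second-order Taylor expansion. -/
theorem ev_sub_taylor_mem {σ : Type*} [Fintype σ] (I : Ideal S) [IsAdicComplete I S] (φ : R →+* S)
    {a a' : σ → S} (ha : ∀ i, a i ∈ I.radical) (ha' : ∀ i, a' i ∈ I.radical) {𝔟 : Ideal S}
    (h : ∀ i, a i - a' i ∈ 𝔟) (f : MvPowerSeries σ R) :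
    ev φ a f - ev φ a' f - ∑ i, ev φ a' (pderiv R i f) * (a i - a' i) ∈ 𝔟 ^ 2 := by
  have hδ : ∀ i, a i - a' i ∈ I.radical := fun i => Ideal.sub_mem _ (ha i) (ha' i)
  have := ev_mem_pow I (RingHom.id S) hδ h (sub_linear_mem_XI_sq (taylor φ a' f))
  rw [map_sub, map_sub, ev_taylor I φ ha' hδ, constantCoeff_taylor I φ ha', map_sum] at this
  simpa [coeff_single_taylor I φ ha', ev_X I _ hδ] using this

omit [Finite σ] in
theorem hom_sub_mem_pow_mul {A : Type*} [CommRing A] (ε ε' : A →+* S) {𝔓 : Ideal A}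
    {𝔞 𝔟 : Ideal S} (h : ∀ f ∈ 𝔓, ε f - ε' f ∈ 𝔟) (h1 : ∀ f ∈ 𝔓, ε f ∈ 𝔞)
    (h2 : ∀ f ∈ 𝔓, ε' f ∈ 𝔞) {k : ℕ} {f : A} (hf : f ∈ 𝔓 ^ (k + 1)) :
    ε f - ε' f ∈ 𝔞 ^ k * 𝔟 := by
  induction k generalizing f with
  | zero => simpa using h f (by simpa using hf)
  | succ k ih =>
    rw [pow_succ] at hf
    refine Submodule.mul_induction_on hf ?_ ?_
    · intro u hu v hv
      have e : ε (u * v) - ε' (u * v) = ε u * (ε v - ε' v) + ε' v * (ε u - ε' u) := by
        simp only [map_mul]; ring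
      rw [e]
      refine Ideal.add_mem _ (Ideal.mul_mem_mul ?_ (h v hv)) ?_
      · have h3 : 𝔓.map ε ≤ 𝔞 := Ideal.map_le_iff_le_comap.mpr h1
        refine Ideal.pow_right_mono h3 _ ?_
        rw [← Ideal.map_pow]; exact Ideal.mem_map_of_mem _ hu
      · rw [pow_succ', mul_assoc]
        exact Ideal.mul_mem_mul (h2 v hv) (ih hu)
    · intro u v hu hv
      have e : ε (u + v) - ε' (u + v) = (ε u - ε' u) + (ε v - ε' v) := by
        simp only [map_add]; ring
      rw [e]; exact Ideal.add_mem _ hu hv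

/-- Improved congruence for series of order `≥ k + 1`. -/
theorem ev_sub_ev_mem_mul (I : Ideal S) [IsAdicComplete I S] (φ : R →+* S) {a a' : σ → S}
    (ha : ∀ i, a i ∈ I.radical) (ha' : ∀ i, a' i ∈ I.radical) {𝔞 𝔟 : Ideal S}
    (h1 : ∀ i, a i ∈ 𝔞) (h2 : ∀ i, a' i ∈ 𝔞) (h : ∀ i, a i - a' i ∈ 𝔟) {k : ℕ}
    {f : MvPowerSeries σ R} (hf : f ∈ XI σ R ^ (k + 1)) : ev φ a f - ev φ a' f ∈ 𝔞 ^ k * 𝔟 :=
  hom_sub_mem_pow_mul _ _ (fun f _ => ev_sub_ev_mem I φ ha ha' h f)
    (fun _ hf => ev_mem I φ ha h1 (mem_XI.mp hf)) (fun _ hf => ev_mem I φ ha' h2 (mem_XI.mp hf)) hf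

/-- If all coefficients go into the finitely generated ideal `𝔟`, so does the value. -/
theorem ev_mem_of_coeff (I : Ideal S) [IsAdicComplete I S] (φ : R →+* S) {a : σ → S}
    (ha : ∀ i, a i ∈ I.radical) {𝔟 : Ideal S} (hb : 𝔟.FG) {f : MvPowerSeries σ R}
    (hf : ∀ d, φ (coeff d f) ∈ 𝔟) : ev φ a f ∈ 𝔟 := by
  have h1 : map φ f ∈ 𝔟.map (C : S →+* MvPowerSeries σ S) :=
    (mem_map_C_iff hb).mpr fun d => by simpa using hf d
  have h2 := Ideal.mem_map_of_mem (ev (RingHom.id S) a) h1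
  rwa [Ideal.map_map, ev_comp_C, Ideal.map_id, ev_map I φ _ ha] at h2

theorem ev_sub_ev_mem_of_coeff {R' : Type*} [CommRing R'] (I : Ideal S) [IsAdicComplete I S]
    (φ : R →+* S) (φ' : R' →+* S) {a : σ → S} (ha : ∀ i, a i ∈ I.radical) {𝔟 : Ideal S}
    (hb : 𝔟.FG) {f : MvPowerSeries σ R} {f' : MvPowerSeries σ R'}
    (hf : ∀ d, φ (coeff d f) - φ' (coeff d f') ∈ 𝔟) : ev φ a f - ev φ' a f' ∈ 𝔟 := by
  have := ev_mem_of_coeff I (RingHom.id S) ha hb (f := map φ f - map φ' f')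
    (fun d => by simpa using hf d)
  rwa [map_sub, ev_map I φ _ ha, ev_map I φ' _ ha] at this

/-- Closed-ideal version of `ev_mem_of_coeff`. -/
theorem ev_mem_of_coeff_closed (I : Ideal S) [IsAdicComplete I S] (φ : R →+* S) {a : σ → S}
    (ha : ∀ i, a i ∈ I.radical) {𝔟 : Ideal S} (hb : ClosedFor I 𝔟) {f : MvPowerSeries σ R}
    (hf : ∀ d, φ (coeff d f) ∈ 𝔟) : ev φ a f ∈ 𝔟 := by
  have := isAdicComplete_quotient I 𝔟 hb
  have hr : ∀ i, Ideal.Quotient.mk 𝔟 (a i) ∈ (I.map (Ideal.Quotient.mk 𝔟)).radical := fun i =>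
    Ideal.map_radical_le _ (Ideal.mem_map_of_mem _ (ha i))
  rw [← Ideal.Quotient.eq_zero_iff_mem, map_ev I (I.map (Ideal.Quotient.mk 𝔟)) φ ha _ hr]
  exact (Submodule.mem_bot _).mp (ev_mem_of_coeff _ _ hr Submodule.fg_bot fun d => by
    simpa [Ideal.Quotient.eq_zero_iff_mem] using hf d)

/-- The value lies in `𝔞 ^ k` if `φ (coeff d f) ∈ 𝔞 ^ (k - |d|)` and the `a i` lie in `𝔞`. -/
theorem ev_mem_pow_of_coeff (I : Ideal S) [IsAdicComplete I S] (φ : R →+* S) {a : σ → S}
    (ha : ∀ i, a i ∈ I.radical) {𝔞 : Ideal S} (h𝔞 : ∀ i, a i ∈ 𝔞) {k : ℕ} {f : MvPowerSeries σ R}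
    (hf : ∀ d, φ (coeff d f) ∈ 𝔞 ^ (k - d.degree)) : ev φ a f ∈ 𝔞 ^ k := by
  have h1 : map φ f ∈ PI σ 𝔞 ^ k := mem_PI_pow.mpr fun d => by simpa using hf d
  have h2 := Ideal.mem_map_of_mem (ev (RingHom.id S) a) h1
  rw [ev_map I φ _ ha, Ideal.map_pow] at h2
  refine Ideal.pow_right_mono ?_ k h2
  rw [Ideal.map_le_iff_le_comap]
  intro g hg
  have := 𝔞.add_mem (ev_sub_const_mem I (RingHom.id S) ha h𝔞 g) hg
  simpa using this

theorem ev1_sub_ev1_mem (I : Ideal S) [IsAdicComplete I S] (φ : R →+* S) {x y : S}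
    (hx : x ∈ I.radical) (hy : y ∈ I.radical) {𝔟 : Ideal S} (h : x - y ∈ 𝔟) (f : PowerSeries R) :
    ev1 φ x f - ev1 φ y f ∈ 𝔟 :=
  ev_sub_ev_mem I φ (fun _ => hx) (fun _ => hy) (fun _ => h) f

theorem sub_dvd_ev1_sub (I : Ideal S) [IsAdicComplete I S] (φ : R →+* S) {x y : S}
    (hx : x ∈ I.radical) (hy : y ∈ I.radical) (f : PowerSeries R) :
    x - y ∣ ev1 φ x f - ev1 φ y f :=
  Ideal.mem_span_singleton.mp (ev1_sub_ev1_mem I φ hx hy (Ideal.mem_span_singleton_self _) f)

theorem ev1_sub_taylor_mem (I : Ideal S) [IsAdicComplete I S] (φ : R →+* S) {x y : S}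
    (hx : x ∈ I.radical) (hy : y ∈ I.radical) {𝔟 : Ideal S} (h : x - y ∈ 𝔟) (f : PowerSeries R) :
    ev1 φ x f - ev1 φ y f - ev1 φ y (PowerSeries.derivative R f) * (x - y) ∈ 𝔟 ^ 2 := by
  have := ev_sub_taylor_mem I φ (a := fun _ : Unit => x) (a' := fun _ : Unit => y) (fun _ => hx)
    (fun _ => hy) (fun _ => h) f
  rw [Fintype.sum_unique] at this
  exact this

theorem ev1_mem_of_coeff (I : Ideal S) [IsAdicComplete I S] (φ : R →+* S) {x : S}
    (hx : x ∈ I.radical) {𝔟 : Ideal S} (hb : 𝔟.FG) {f : PowerSeries R}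
    (hf : ∀ d, φ (PowerSeries.coeff d f) ∈ 𝔟) : ev1 φ x f ∈ 𝔟 :=
  ev_mem_of_coeff I φ (fun _ => hx) hb fun d => by
    rw [← PowerSeries.coeff_def (s := d) rfl]; exact hf _

theorem ev1_sub_ev1_mem_of_coeff {R' : Type*} [CommRing R'] (I : Ideal S) [IsAdicComplete I S]
    (φ : R →+* S) (φ' : R' →+* S) {x : S} (hx : x ∈ I.radical) {𝔟 : Ideal S}
    (hb : 𝔟.FG) {f : PowerSeries R} {f' : PowerSeries R'}
    (hf : ∀ d, φ (PowerSeries.coeff d f) - φ' (PowerSeries.coeff d f') ∈ 𝔟) :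
    ev1 φ x f - ev1 φ' x f' ∈ 𝔟 :=
  ev_sub_ev_mem_of_coeff I φ φ' (fun _ => hx) hb fun d => by
    rw [← PowerSeries.coeff_def (s := d) rfl, ← PowerSeries.coeff_def (s := d) rfl]; exact hf _

end taylor

/-! ## Inverse function theorem on points, Hensel's lemma -/

section hensel

variable {σ : Type*} [Fintype σ] [DecidableEq σ] {R S : Type*} [CommRing R] [CommRing S]

/-- The Jacobian matrix `(∂_j f_i)(a)`. -/
noncomputable def jac {τ : Type*} (φ : R →+* S) (a : σ → S) (f : τ → MvPowerSeries σ R) :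
    Matrix τ σ S :=
  fun i j => ev φ a (pderiv R j (f i))

/-- Multivariable Hensel lemma (existence): if the Jacobian at `a` is invertible and
`f(a) ∈ 𝔟 ⊆ √I`, there is a zero `x ≡ a mod 𝔟`. -/
theorem hensel_exists (I : Ideal S) [IsAdicComplete I S] (φ : R →+* S) {a : σ → S}
    (ha : ∀ i, a i ∈ I.radical) (f : σ → MvPowerSeries σ R) (hJ : IsUnit (jac φ a f))
    {𝔟 : Ideal S} (hb : ∀ i, ev φ a (f i) ∈ 𝔟) (hb' : ∀ i, ev φ a (f i) ∈ I.radical) :
    ∃ x : σ → S, (∀ i, x i ∈ I.radical) ∧ (∀ i, x i - a i ∈ 𝔟) ∧ ∀ i, ev φ x (f i) = 0 := by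
  let J : Ideal S := Ideal.span (Set.range fun i => ev φ a (f i))
  have hJI : J ≤ I.radical := by rw [Ideal.span_le]; rintro _ ⟨i, rfl⟩; exact hb' i
  have hJb : J ≤ 𝔟 := by rw [Ideal.span_le]; rintro _ ⟨i, rfl⟩; exact hb i
  have := isAdicComplete_of_fg I J (Submodule.fg_span (Set.finite_range _)) hJI
  obtain ⟨U, hU⟩ := hJ
  let g : σ → MvPowerSeries σ S := fun i => taylor φ a (f i) - C (constantCoeff (taylor φ a (f i))) -
    ∑ j, C (coeff (Finsupp.single j 1) (taylor φ a (f i))) * X j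
  have hg : ∀ i, g i ∈ XI σ S ^ (1 + 1) := fun i => sub_linear_mem_XI_sq _
  have hev : ∀ δ : σ → S, (∀ i, δ i ∈ J) → ∀ i, ev (RingHom.id S) δ (g i) =
      ev φ (fun i => a i + δ i) (f i) - ev φ a (f i) - ((U : Matrix σ σ S).mulVec δ) i := by
    intro δ hδ i
    have hδ' : ∀ i, δ i ∈ I.radical := fun i => hJI (hδ i)
    simp only [g, map_sub, map_sum, map_mul, ev_C, RingHom.id_apply, ev_taylor I φ ha hδ',
      constantCoeff_taylor I φ ha, coeff_single_taylor I φ ha, ev_X I _ hδ', hU]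
    rfl
  have hmul : ∀ (𝔠 : Ideal S) (M : Matrix σ σ S) (v : σ → S), (∀ i, v i ∈ 𝔠) →
      ∀ i, M.mulVec v i ∈ 𝔠 := fun 𝔠 M v hv i =>
    Ideal.sum_mem _ fun j _ => Ideal.mul_mem_left _ _ (hv j)
  obtain ⟨δ, hδ, hfix⟩ := exists_fixed J {δ : σ → S | ∀ i, δ i ∈ J}
    (fun x hx i => by
      obtain ⟨y, hy, hy'⟩ := hx 1
      have := J.add_mem (by simpa using hy' i) (hy i)
      simpa using this)
    (fun δ => (↑U⁻¹ : Matrix σ σ S).mulVec fun i => -(ev φ a (f i) + ev (RingHom.id S) δ (g i)))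
    (fun δ hδ => hmul _ _ _ fun i => neg_mem (J.add_mem (Ideal.subset_span ⟨i, rfl⟩)
      (Ideal.pow_le_self two_ne_zero (ev_mem_pow I _ (fun i => hJI (hδ i)) hδ (hg i)))))
    (fun N x hx y hy h => by
      intro i
      rw [← Pi.sub_apply, ← Matrix.mulVec_sub]
      refine hmul _ _ _ (fun j => ?_) i
      have := ev_sub_ev_mem_mul I (RingHom.id S) (fun i => hJI (hx i)) (fun i => hJI (hy i))
        hx hy h (hg j)
      rw [pow_one, ← pow_succ'] at this
      have h2 := neg_mem this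
      convert h2 using 1
      simp only [Pi.sub_apply]; ring)
    (x₀ := 0) (fun i => J.zero_mem)
  refine ⟨fun i => a i + δ i, fun i => Ideal.add_mem _ (ha i) (hJI (hδ i)),
    fun i => by simpa using hJb (hδ i), fun i => ?_⟩
  have h1 : (U : Matrix σ σ S).mulVec δ =
      fun i => -(ev φ a (f i) + ev (RingHom.id S) δ (g i)) := by
    conv_lhs => rw [← hfix]
    rw [Matrix.mulVec_mulVec, Units.mul_inv, Matrix.one_mulVec]
  have h2 := hev δ hδ i
  rw [h1] at h2
  linear_combination -h2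

/-- Multivariable Hensel lemma (uniqueness): a map with invertible Jacobian is injective on
points, also modulo any ideal `𝔟`. -/
theorem hensel_unique (I : Ideal S) [IsAdicComplete I S] (φ : R →+* S) {x y : σ → S}
    (hx : ∀ i, x i ∈ I.radical) (hy : ∀ i, y i ∈ I.radical) (f : σ → MvPowerSeries σ R)
    (hJ : IsUnit (jac φ y f)) {𝔟 : Ideal S}
    (h : ∀ i, ev φ x (f i) - ev φ y (f i) ∈ 𝔟) (i : σ) : x i - y i ∈ 𝔟 := by
  obtain ⟨U, hU⟩ := hJ
  obtain ⟨J, hJ⟩ : ∃ J, J = Ideal.span (Set.range (x - y)) := ⟨_, rfl⟩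
  have hmem : ∀ i, x i - y i ∈ J := fun i => hJ ▸ Ideal.subset_span ⟨i, rfl⟩
  have hmul : ∀ (𝔠 : Ideal S) (M : Matrix σ σ S) (v : σ → S), (∀ i, v i ∈ 𝔠) →
      ∀ i, M.mulVec v i ∈ 𝔠 := fun 𝔠 M v hv i =>
    Ideal.sum_mem _ fun j _ => Ideal.mul_mem_left _ _ (hv j)
  have h0 : ∀ i, (x - y) i ∈ 𝔟 ⊔ J ^ 2 := fun i => by
    have h2 : x - y = (↑U⁻¹ : Matrix σ σ S).mulVec ((U : Matrix σ σ S).mulVec (x - y)) := by
      rw [Matrix.mulVec_mulVec, Units.inv_mul, Matrix.one_mulVec]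
    rw [h2]
    refine hmul _ _ _ (fun j => ?_) i
    have h3 := ev_sub_taylor_mem I φ hx hy (𝔟 := J) hmem (f j)
    have h4 := (𝔟 ⊔ J ^ 2).sub_mem (Ideal.mem_sup_left (h j)) (Ideal.mem_sup_right h3)
    rw [sub_sub_cancel] at h4
    rw [hU]; exact h4
  have h1 : J ≤ 𝔟 ⊔ J • J := by
    rw [smul_eq_mul, ← pow_two]
    conv_lhs => rw [hJ]
    rw [Ideal.span_le]
    rintro _ ⟨i, rfl⟩
    exact h0 i
  have hfg : J.FG := hJ ▸ Submodule.fg_span (Set.finite_range _)
  have hjac : J ≤ Ideal.jacobson ⊥ := by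
    refine le_trans ?_ (radical_le_jacobson_bot I)
    rw [hJ, Ideal.span_le]
    rintro _ ⟨i, rfl⟩
    exact Ideal.sub_mem _ (hx i) (hy i)
  exact Submodule.le_of_le_smul_of_le_jacobson_bot hfg hjac h1 (hmem i)

theorem hensel_unique_eq (I : Ideal S) [IsAdicComplete I S] (φ : R →+* S) {x y : σ → S}
    (hx : ∀ i, x i ∈ I.radical) (hy : ∀ i, y i ∈ I.radical) (f : σ → MvPowerSeries σ R)
    (hJ : IsUnit (jac φ y f)) (h : ∀ i, ev φ x (f i) = ev φ y (f i)) : x = y :=
  funext fun i => sub_eq_zero.mp ((Submodule.mem_bot _).mp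
    (hensel_unique I φ hx hy f hJ (𝔟 := ⊥) (fun i => by simp [h i]) i))

/-- Invertibility of the Jacobian does not depend on the point. -/
theorem isUnit_jac_of_isUnit (I : Ideal S) [IsAdicComplete I S] (φ : R →+* S) {x y : σ → S}
    (hx : ∀ i, x i ∈ I.radical) (hy : ∀ i, y i ∈ I.radical) (f : σ → MvPowerSeries σ R)
    (hJ : IsUnit (jac φ y f)) : IsUnit (jac φ x f) := by
  rw [Matrix.isUnit_iff_isUnit_det] at hJ ⊢
  refine isUnit_of_sub_mem_radical I hJ ?_
  rw [← Ideal.Quotient.eq, RingHom.map_det, RingHom.map_det]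
  congr 1
  ext i j
  exact Ideal.Quotient.eq.mpr
    (ev_sub_ev_mem I φ hx hy (fun i => Ideal.sub_mem _ (hx i) (hy i)) _)

/-- One-variable Hensel lemma. -/
theorem hensel1_exists (I : Ideal S) [IsAdicComplete I S] (φ : R →+* S) {a : S}
    (ha : a ∈ I.radical) (f : PowerSeries R)
    (hJ : IsUnit (ev1 φ a (PowerSeries.derivative R f))) (hb : ev1 φ a f ∈ I.radical) :
    ∃ x ∈ I.radical, ev1 φ a f ∣ x - a ∧ ev1 φ x f = 0 := by
  obtain ⟨x, h1, h2, h3⟩ := hensel_exists I φ (a := fun _ : Unit => a) (fun _ => ha) (fun _ => f)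
    (by rw [Matrix.isUnit_iff_isUnit_det, Matrix.det_unique]; exact hJ)
    (𝔟 := Ideal.span {ev1 φ a f}) (fun _ => Ideal.mem_span_singleton_self _) (fun _ => hb)
  exact ⟨x (), h1 (), Ideal.mem_span_singleton.mp (h2 ()), h3 ()⟩

theorem hensel1_unique (I : Ideal S) [IsAdicComplete I S] (φ : R →+* S) {x y : S}
    (hx : x ∈ I.radical) (hy : y ∈ I.radical) (f : PowerSeries R)
    (hJ : IsUnit (ev1 φ y (PowerSeries.derivative R f))) {𝔟 : Ideal S}
    (h : ev1 φ x f - ev1 φ y f ∈ 𝔟) : x - y ∈ 𝔟 :=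
  hensel_unique I φ (x := fun _ : Unit => x) (y := fun _ : Unit => y) (fun _ => hx) (fun _ => hy)
    (fun _ => f) (by rw [Matrix.isUnit_iff_isUnit_det, Matrix.det_unique]; exact hJ)
    (fun _ => h) ()

end hensel

end Crest.Agent.R227
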