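import Crest.Agent.R227.Compl

/-!
# R227/Dim1: one-dimensional quotients avoiding a given element (helper51)
-/

set_option autoImplicit false

namespace Crest.Agent.R227

open IsLocalRing

variable {R : Type*} [CommRing R] [IsNoetherianRing R] [IsLocalRing R]

/-- In a noetherian local domain in which every nonzero prime contains `s ≠ 0`, the only nonzero
prime is the maximal ideal. -/
theorem eq_maximalIdeal_of_forall_mem [IsDomain R] {s : R} (hs : s ≠ 0)
    (h : ∀ Q : Ideal R, Q.IsPrime → Q ≠ ⊥ → s ∈ Q) {Q : Ideal R} (hQ : Q.IsPrime) (hQ0 : Q ≠ ⊥) :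
    Q = maximalIdeal R := by
  classical
  have hfin := Ideal.finite_minimalPrimes_of_isNoetherianRing _ (Ideal.span {s})
  have hle : ∀ Q : Ideal R, Q.IsPrime → Q ≠ ⊥ → Ideal.span {s} ≤ Q := fun Q h1 h2 =>
    (Ideal.span_singleton_le_iff_mem _).mpr (h Q h1 h2)
  by_cases hm : maximalIdeal R ∈ (Ideal.span {s}).minimalPrimes
  · exact le_antisymm (le_maximalIdeal hQ.ne_top)
      (hm.2 ⟨hQ, hle Q hQ hQ0⟩ (le_maximalIdeal hQ.ne_top))
  exfalso
  have hnot : ¬ (maximalIdeal R : Set R) ⊆ ⋃ q ∈ (↑hfin.toFinset : Set (Ideal R)), (q : Set R) := by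
    intro hsub
    obtain ⟨q, hq, hq'⟩ := (Ideal.subset_union_prime (f := id) (⊥ : Ideal R) ⊥
      (fun q hq _ _ => (hfin.mem_toFinset.mp hq).1.1)).mp hsub
    have hq1 := hfin.mem_toFinset.mp hq
    exact hm ((le_antisymm hq' (le_maximalIdeal hq1.1.1.ne_top)) ▸ hq1)
  rw [Set.not_subset] at hnot
  obtain ⟨t, ht, ht'⟩ := hnot
  have ht2 : ∀ q ∈ (Ideal.span {s}).minimalPrimes, t ∉ q := fun q hq htq =>
    ht' (Set.mem_biUnion (hfin.mem_toFinset.mpr hq) htq)
  obtain ⟨q₀, hq₀, -⟩ := Ideal.exists_minimalPrimes_le (hle Q hQ hQ0)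
  have ht0 : t ≠ 0 := fun e => ht2 q₀ hq₀ (e ▸ q₀.zero_mem)
  obtain ⟨Q₁, hQ₁, -⟩ := Ideal.exists_minimalPrimes_le (I := Ideal.span {t})
    (J := maximalIdeal R) ((Ideal.span_singleton_le_iff_mem _).mpr ht)
  have htQ : t ∈ Q₁ := (Ideal.span_singleton_le_iff_mem _).mp hQ₁.1.2
  have hp1 := hQ₁.1.1
  have hheight := Ideal.height_le_one_of_isPrincipal_of_mem_minimalPrimes _ _ hQ₁
  obtain ⟨q, hq, hq'⟩ := Ideal.exists_minimalPrimes_le
    (hle Q₁ hp1 fun e => ht0 (by simpa [e] using htQ))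
  have hp2 := hq.1.1
  have l1 : q < Q₁ := lt_of_le_of_ne hq' fun e => ht2 q hq (e ▸ htQ)
  have l2 : (⊥ : Ideal R) < q := bot_lt_iff_ne_bot.mpr fun e =>
    hs (by simpa [e] using (Ideal.span_singleton_le_iff_mem _).mp hq.1.2)
  have a1 := Ideal.height_add_one_le_of_lt_of_isPrime l1
  have a2 := Ideal.height_add_one_le_of_lt_of_isPrime l2
  have a3 : (1 : ℕ∞) + 1 ≤ 1 := calc
    (1 : ℕ∞) + 1 ≤ (⊥ : Ideal R).height + 1 + 1 := by gcongr; exact le_add_self
    _ ≤ q.height + 1 := by gcongr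
    _ ≤ 1 := a1.trans hheight
  norm_num at a3

/-- Given a prime `P` and `s ∉ P` there is a prime `P' ⊇ P` with `s ∉ P'` such that `R / P'` has
dimension at most one: every `t ∉ P'` generates an `𝔪`-primary (or unit) ideal modulo `P'`. -/
theorem exists_dim_one_quotient {P : Ideal R} (hP : P.IsPrime) {s : R} (hs : s ∉ P) :
    ∃ P' : Ideal R, P'.IsPrime ∧ P ≤ P' ∧ s ∉ P' ∧
      ∀ t ∉ P', ∃ c : ℕ, maximalIdeal R ^ c ≤ P' ⊔ Ideal.span {t} := by
  obtain ⟨P', ⟨hP1, hP2, hP3⟩, hmax⟩ := set_has_maximal_iff_noetherian.mpr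
    (inferInstance : IsNoetherian R R) {Q : Ideal R | Q.IsPrime ∧ P ≤ Q ∧ s ∉ Q} ⟨P, hP, le_rfl, hs⟩
  refine ⟨P', hP1, hP2, hP3, fun t ht => ?_⟩
  refine Ideal.exists_pow_le_of_le_radical_of_fg ?_ (IsNoetherian.noetherian _)
  rw [Ideal.radical_eq_sInf, le_sInf_iff]
  rintro Q ⟨hQ1, hQ2⟩
  let π := Ideal.Quotient.mk P'
  have := Ideal.Quotient.nontrivial_iff.mpr hP1.ne_top
  have := IsLocalRing.of_surjective' π Ideal.Quotient.mk_surjective
  have hker : RingHom.ker π ≤ Q := (Ideal.mk_ker (I := P')).le.trans (le_sup_left.trans hQ1)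
  have h1 := eq_maximalIdeal_of_forall_mem (R := R ⧸ P') (s := π s)
    (fun e => hP3 (Ideal.Quotient.eq_zero_iff_mem.mp e)) (fun q hq hq0 => by
      by_contra hsq
      refine hmax (q.comap π) ⟨Ideal.comap_isPrime π q, hP2.trans ?_, hsq⟩ (lt_of_le_of_ne ?_ ?_)
      · exact (Ideal.mk_ker (I := P')).ge.trans (Ideal.ker_le_comap π)
      · exact (Ideal.mk_ker (I := P')).ge.trans (Ideal.ker_le_comap π)
      · intro e
        apply hq0
        rw [← Ideal.map_comap_of_surjective π Ideal.Quotient.mk_surjective q, ← e]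
        exact Ideal.map_quotient_self P')
    (Ideal.map_isPrime_of_surjective Ideal.Quotient.mk_surjective hker) (fun e => ht (by
      have : π t ∈ Q.map π := Ideal.mem_map_of_mem π
        (hQ1 (Ideal.mem_sup_right (Ideal.mem_span_singleton_self t)))
      rw [e] at this
      exact Ideal.Quotient.eq_zero_iff_mem.mp this))
  intro x hx
  have h2 : π x ∈ Q.map π := by
    rw [h1, ← IsLocalRing.map_maximalIdeal_of_surjective π Ideal.Quotient.mk_surjective]
    exact Ideal.mem_map_of_mem π hx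
  rw [← Ideal.mem_comap, Ideal.comap_map_of_surjective π Ideal.Quotient.mk_surjective] at h2
  exact (sup_le le_rfl hker) h2

end Crest.Agent.R227
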