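import Mathlib

/-!
# R227/Ev: topology-free evaluation of power series in adically complete rings (helper51)

`ev φ a : MvPowerSeries σ R →+* S` is *the* ring hom with `C r ↦ φ r`, `X i ↦ a i`; it exists when
`S` is `I`-adically complete and the `a i` lie in `I.radical`, and it is unique as soon as `S` is
`I`-adically separated (`hom_ext`).  Everything else (naturality, substitution, congruences) is a
formal consequence.
-/

set_option autoImplicit false

namespace Crest.Agent.R227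

open MvPowerSeries

/-! ## Adic completeness in terms of ideal membership -/

section complete

variable {S : Type*} [CommRing S]

theorem haus (I : Ideal S) [IsHausdorff I S] {x : S} (h : ∀ n, x ∈ I ^ n) : x = 0 :=
  IsHausdorff.haus (inferInstance : IsHausdorff I S) x fun n => by
    simpa [SModEq.zero] using h n

theorem haus_eq (I : Ideal S) [IsHausdorff I S] {x y : S} (h : ∀ n, x - y ∈ I ^ n) : x = y :=
  sub_eq_zero.mp (haus I h)

theorem isHausdorff_of (I : Ideal S) (h : ∀ x : S, (∀ n, x ∈ I ^ n) → x = 0) : IsHausdorff I S :=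
  ⟨fun x hx => h x fun n => by simpa [SModEq.zero] using hx n⟩

theorem sub_mem_of_succ {J : ℕ → Ideal S} (hJ : Antitone J) {f : ℕ → S}
    (h : ∀ n, f (n + 1) - f n ∈ J n) {m n : ℕ} (hmn : m ≤ n) : f n - f m ∈ J m := by
  induction n, hmn using Nat.le_induction with
  | base => simp
  | succ n hmn ih =>
    have := (J m).add_mem (hJ hmn (h n)) ih
    rwa [sub_add_sub_cancel] at this

theorem pow_antitone (I : Ideal S) : Antitone fun n : ℕ => I ^ n :=
  fun _ _ h => Ideal.pow_le_pow_right h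

theorem exists_lim (I : Ideal S) [IsPrecomplete I S] (f : ℕ → S)
    (h : ∀ n, f (n + 1) - f n ∈ I ^ n) : ∃ L, ∀ n, L - f n ∈ I ^ n := by
  obtain ⟨L, hL⟩ := IsPrecomplete.prec (inferInstance : IsPrecomplete I S) (f := f)
    (fun {m n} hmn => by
      rw [SModEq.sub_mem, smul_eq_mul, Ideal.mul_top, ← neg_sub]
      exact neg_mem (sub_mem_of_succ (pow_antitone I) h hmn))
  refine ⟨L, fun n => ?_⟩
  have := hL n
  rw [SModEq.sub_mem, smul_eq_mul, Ideal.mul_top] at this
  rw [← neg_sub]; exact neg_mem this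

theorem isPrecomplete_of (I : Ideal S)
    (h : ∀ f : ℕ → S, (∀ n, f (n + 1) - f n ∈ I ^ n) → ∃ L, ∀ n, L - f n ∈ I ^ n) :
    IsPrecomplete I S := by
  refine ⟨fun f hf => ?_⟩
  obtain ⟨L, hL⟩ := h f fun n => by
    have := hf (Nat.le_succ n)
    rw [SModEq.sub_mem, smul_eq_mul, Ideal.mul_top] at this
    rw [← neg_sub]; exact neg_mem this
  refine ⟨L, fun n => ?_⟩
  rw [SModEq.sub_mem, smul_eq_mul, Ideal.mul_top, ← neg_sub]
  exact neg_mem (hL n)

theorem isAdicComplete_of (I : Ideal S) (h1 : ∀ x : S, (∀ n, x ∈ I ^ n) → x = 0)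
    (h2 : ∀ f : ℕ → S, (∀ n, f (n + 1) - f n ∈ I ^ n) → ∃ L, ∀ n, L - f n ∈ I ^ n) :
    IsAdicComplete I S :=
  { isHausdorff_of I h1, isPrecomplete_of I h2 with }

/-- `f n → L` for the `I`-adic topology. -/
def Lim (I : Ideal S) (f : ℕ → S) (L : S) : Prop :=
  ∀ N : ℕ, ∃ n₀, ∀ n, n₀ ≤ n → L - f n ∈ I ^ N

theorem Lim.of_mem {I : Ideal S} {f : ℕ → S} {L : S} (h : ∀ n, L - f n ∈ I ^ n) : Lim I f L :=
  fun N => ⟨N, fun n hn => Ideal.pow_le_pow_right hn (h n)⟩

theorem Lim.unique {I : Ideal S} [IsHausdorff I S] {f : ℕ → S} {L L' : S} (h : Lim I f L)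
    (h' : Lim I f L') : L = L' := by
  refine haus_eq I fun N => ?_
  obtain ⟨a, ha⟩ := h N
  obtain ⟨b, hb⟩ := h' N
  have := (I ^ N).sub_mem (ha _ (le_max_left a b)) (hb _ (le_max_right a b))
  rwa [sub_sub_sub_cancel_right] at this

theorem Lim.const (I : Ideal S) (a : S) : Lim I (fun _ => a) a := fun _ => ⟨0, fun _ _ => by simp⟩

theorem Lim.add {I : Ideal S} {f g : ℕ → S} {L M : S} (h : Lim I f L) (h' : Lim I g M) :
    Lim I (fun n => f n + g n) (L + M) := fun N => by
  obtain ⟨a, ha⟩ := h N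
  obtain ⟨b, hb⟩ := h' N
  refine ⟨max a b, fun n hn => ?_⟩
  have := (I ^ N).add_mem (ha n (le_of_max_le_left hn)) (hb n (le_of_max_le_right hn))
  convert this using 1; ring

theorem Lim.neg {I : Ideal S} {f : ℕ → S} {L : S} (h : Lim I f L) :
    Lim I (fun n => -f n) (-L) := fun N => by
  obtain ⟨a, ha⟩ := h N
  refine ⟨a, fun n hn => ?_⟩
  have := (I ^ N).neg_mem (ha n hn)
  convert this using 1; ring

theorem Lim.sub {I : Ideal S} {f g : ℕ → S} {L M : S} (h : Lim I f L) (h' : Lim I g M) :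
    Lim I (fun n => f n - g n) (L - M) := by
  simpa [sub_eq_add_neg] using h.add h'.neg

theorem Lim.mul {I : Ideal S} {f g : ℕ → S} {L M : S} (h : Lim I f L) (h' : Lim I g M) :
    Lim I (fun n => f n * g n) (L * M) := fun N => by
  obtain ⟨a, ha⟩ := h N
  obtain ⟨b, hb⟩ := h' N
  refine ⟨max a b, fun n hn => ?_⟩
  have := (I ^ N).add_mem ((I ^ N).mul_mem_right M (ha n (le_of_max_le_left hn)))
    ((I ^ N).mul_mem_left (f n) (hb n (le_of_max_le_right hn)))
  convert this using 1; ring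

theorem Lim.comp_tendsto {I : Ideal S} {f : ℕ → S} {L : S} (h : Lim I f L) {u : ℕ → ℕ}
    (hu : Filter.Tendsto u Filter.atTop Filter.atTop) : Lim I (fun n => f (u n)) L := fun N => by
  obtain ⟨a, ha⟩ := h N
  obtain ⟨b, hb⟩ := Filter.tendsto_atTop_atTop.mp hu a
  exact ⟨b, fun n hn => ha _ (hb n hn)⟩

theorem Lim.shift {I : Ideal S} {f : ℕ → S} {L : S} (h : Lim I f L) (k : ℕ) :
    Lim I (fun n => f (n + k)) L :=
  h.comp_tendsto (Filter.tendsto_add_atTop_nat k)

theorem Lim.of_shift {I : Ideal S} {f : ℕ → S} {L : S} {k : ℕ} (h : Lim I (fun n => f (n + k)) L) :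
    Lim I f L := fun N => by
  obtain ⟨a, ha⟩ := h N
  refine ⟨a + k, fun n hn => ?_⟩
  have : L - f (n - k + k) ∈ I ^ N := ha (n - k) (by omega)
  rwa [Nat.sub_add_cancel (by omega)] at this

theorem Lim.congr {I : Ideal S} {f g : ℕ → S} {L : S} (h : Lim I f L)
    (hfg : ∀ N, ∃ n₀, ∀ n, n₀ ≤ n → f n - g n ∈ I ^ N) : Lim I g L := fun N => by
  obtain ⟨a, ha⟩ := h N
  obtain ⟨b, hb⟩ := hfg N
  refine ⟨max a b, fun n hn => ?_⟩
  have := (I ^ N).add_mem (ha n (le_of_max_le_left hn)) (hb n (le_of_max_le_right hn))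
  rwa [sub_add_sub_cancel] at this

/-- A ring hom sending a power of `I` into `J` preserves limits. -/
theorem Lim.map {T : Type*} [CommRing T] {I : Ideal S} {J : Ideal T} (ρ : S →+* T) {k : ℕ}
    (hρ : ∀ x ∈ I ^ k, ρ x ∈ J) {f : ℕ → S} {L : S} (h : Lim I f L) :
    Lim J (fun n => ρ (f n)) (ρ L) := fun N => by
  obtain ⟨a, ha⟩ := h (k * N)
  refine ⟨a, fun n hn => ?_⟩
  rw [← map_sub]
  have h1 : (I ^ k).map ρ ≤ J := Ideal.map_le_iff_le_comap.mpr hρ
  have h2 : (I ^ (k * N)).map ρ ≤ J ^ N := by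
    rw [pow_mul, Ideal.map_pow]; exact Ideal.pow_right_mono h1 N
  exact h2 (Ideal.mem_map_of_mem ρ (ha n hn))

/-- A closed ideal (`𝔟 = ⋂ (𝔟 + I^N)`) contains the limits of its sequences. -/
theorem Lim.mem {I 𝔟 : Ideal S} (h𝔟 : ∀ x, (∀ N, x ∈ 𝔟 ⊔ I ^ N) → x ∈ 𝔟) {f : ℕ → S} {L : S}
    (h : Lim I f L) (hf : ∀ n, f n ∈ 𝔟) : L ∈ 𝔟 := by
  refine h𝔟 L fun N => ?_
  obtain ⟨a, ha⟩ := h N
  have := (𝔟 ⊔ I ^ N).add_mem (Ideal.mem_sup_left (hf a)) (Ideal.mem_sup_right (ha a le_rfl))
  simpa using this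

theorem exists_Lim (I : Ideal S) [IsPrecomplete I S] (f : ℕ → S)
    (h : ∀ N, ∃ n₀, ∀ n, n₀ ≤ n → f (n + 1) - f n ∈ I ^ N) : ∃ L, Lim I f L := by
  choose u hu using h
  have key : ∀ N m n, u N ≤ m → m ≤ n → f n - f m ∈ I ^ N := by
    intro N m n hm hmn
    induction n, hmn using Nat.le_induction with
    | base => simp
    | succ n hmn ih =>
      have := (I ^ N).add_mem (hu N n (hm.trans hmn)) ih
      rwa [sub_add_sub_cancel] at this
  let v : ℕ → ℕ := fun N => (Finset.range (N + 1)).sup u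
  have hv : ∀ N, u N ≤ v N := fun N => Finset.le_sup (f := u) (Finset.self_mem_range_succ N)
  have hvm : ∀ N, v N ≤ v (N + 1) := fun N =>
    Finset.sup_mono (Finset.range_subset_range.mpr (by omega))
  obtain ⟨L, hL⟩ := exists_lim I (fun N => f (v N)) fun N => key N _ _ (hv N) (hvm N)
  refine ⟨L, fun N => ⟨v N, fun n hn => ?_⟩⟩
  have := (I ^ N).sub_mem (hL N) (key N _ _ (hv N) hn)
  rwa [sub_sub_sub_cancel_right] at this

/-- A finite family in the radical spans an ideal a power of which lies in `I`. -/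
theorem exists_span_pow_le {σ : Type*} [Finite σ] {I : Ideal S} {a : σ → S}
    (ha : ∀ i, a i ∈ I.radical) : ∃ k : ℕ, Ideal.span (Set.range a) ^ k ≤ I := by
  refine Ideal.exists_pow_le_of_le_radical_of_fg ?_ (Submodule.fg_span (Set.finite_range a))
  rw [Ideal.span_le]
  rintro _ ⟨i, rfl⟩
  exact ha i

end complete

/-! ## The ideal of the variables -/

section XI

variable {σ : Type*} {R : Type*} [CommRing R]

/-- The ideal generated by the variables. -/
noncomputable abbrev XI (σ : Type*) (R : Type*) [CommRing R] : Ideal (MvPowerSeries σ R) :=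
  Ideal.span (Set.range X)

theorem X_mem_XI (i : σ) : (X i : MvPowerSeries σ R) ∈ XI σ R := Ideal.subset_span ⟨i, rfl⟩

theorem coeff_X_mul' (i : σ) (g : MvPowerSeries σ R) (d : σ →₀ ℕ) [Decidable (d i = 0)] :
    coeff d (X i * g) = if d i = 0 then 0 else coeff (d - Finsupp.single i 1) g := by
  classical
  rw [X_def, coeff_monomial_mul]
  by_cases h : d i = 0
  · rw [if_pos h, if_neg]
    rw [Finsupp.single_le_iff]; omega
  · rw [if_neg h, if_pos, one_mul]
    rw [Finsupp.single_le_iff]; omega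

/-- `f = f(0) + ∑ X i * g i` where the coefficients of `g i` are coefficients of `f` (or zero). -/
theorem exists_split [Fintype σ] (f : MvPowerSeries σ R) :
    ∃ g : σ → MvPowerSeries σ R, f = C (constantCoeff f) + ∑ i, X i * g i ∧
      ∀ i e, coeff e (g i) = coeff (e + Finsupp.single i 1) f ∨ coeff e (g i) = 0 := by
  classical
  have hex : ∀ d : σ →₀ ℕ, d ≠ 0 → ∃ i, d i ≠ 0 := fun d hd => by
    by_contra h
    push Not at h
    exact hd (Finsupp.ext h)
  choose ι hι using hex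
  have hne : ∀ (e : σ →₀ ℕ) (i : σ), e + Finsupp.single i 1 ≠ 0 := fun e i h => by
    have := congrArg (fun d : σ →₀ ℕ => d i) h
    simp at this
  let g : σ → MvPowerSeries σ R := fun i e =>
    if ι _ (hne e i) = i then coeff (e + Finsupp.single i 1) f else 0
  have hg : ∀ i e, coeff e (g i) =
      if ι _ (hne e i) = i then coeff (e + Finsupp.single i 1) f else 0 := fun _ _ => rfl
  refine ⟨g, ?_, fun i e => ?_⟩
  · ext d
    rw [map_add, map_sum, coeff_C]
    simp_rw [coeff_X_mul']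
    by_cases hd : d = 0
    · subst hd; simp
    · rw [if_neg hd, zero_add, Finset.sum_eq_single (ι d hd)]
      · have h1 : d - Finsupp.single (ι d hd) 1 + Finsupp.single (ι d hd) 1 = d :=
          tsub_add_cancel_of_le (by
            rw [Finsupp.single_le_iff]; exact Nat.one_le_iff_ne_zero.mpr (hι d hd))
        rw [if_neg (hι d hd), hg, if_pos, h1]
        congr 1
      · intro i _ hi
        split_ifs with h
        · rfl
        · have h1 : d - Finsupp.single i 1 + Finsupp.single i 1 = d :=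
            tsub_add_cancel_of_le (by
              rw [Finsupp.single_le_iff]; exact Nat.one_le_iff_ne_zero.mpr h)
          rw [hg, if_neg]
          intro h2
          apply hi
          rw [← h2]
          congr 1
      · simp
  · rw [hg]; split_ifs <;> simp

theorem le_order_of_mem_XI_pow {N : ℕ} {f : MvPowerSeries σ R} (hf : f ∈ XI σ R ^ N) :
    (N : ℕ∞) ≤ f.order := by
  induction N generalizing f with
  | zero => simp
  | succ N ih =>
    rw [pow_succ] at hf
    refine Submodule.mul_induction_on hf ?_ ?_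
    · intro a ha b hb
      have hb' : (1 : ℕ∞) ≤ b.order := by
        rw [one_le_order_iff_constCoeff_eq_zero]
        have : XI σ R ≤ RingHom.ker (constantCoeff : MvPowerSeries σ R →+* R) := by
          rw [Ideal.span_le]; rintro _ ⟨i, rfl⟩; simp
        exact this hb
      refine le_trans ?_ le_order_mul
      push_cast
      exact add_le_add (ih ha) hb'
    · intro a b ha hb
      exact le_trans (le_min ha hb) min_order_le_add

theorem mem_XI_pow [Finite σ] {N : ℕ} {f : MvPowerSeries σ R} :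
    f ∈ XI σ R ^ N ↔ ∀ d : σ →₀ ℕ, d.degree < N → coeff d f = 0 := by
  refine ⟨fun hf d hd => coeff_of_lt_order (lt_of_lt_of_le (by exact_mod_cast hd)
    (le_order_of_mem_XI_pow hf)), ?_⟩
  have := Fintype.ofFinite σ
  induction N generalizing f with
  | zero => simp
  | succ N ih =>
    intro hf
    obtain ⟨g, hg, hg'⟩ := exists_split f
    have h0 : constantCoeff f = 0 := by simpa using hf 0 (by simp)
    rw [hg, h0, map_zero, zero_add, pow_succ']
    refine Ideal.sum_mem _ fun i _ => Ideal.mul_mem_mul (X_mem_XI i) (ih fun e he => ?_)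
    rcases hg' i e with h | h
    · rw [h]; apply hf; simpa using he
    · exact h

theorem mem_XI_pow_iff_order [Finite σ] {N : ℕ} {f : MvPowerSeries σ R} :
    f ∈ XI σ R ^ N ↔ (N : ℕ∞) ≤ f.order :=
  ⟨le_order_of_mem_XI_pow, fun h => mem_XI_pow.mpr fun d hd =>
    coeff_of_lt_order (lt_of_lt_of_le (by exact_mod_cast hd) h)⟩

theorem mem_XI [Finite σ] {f : MvPowerSeries σ R} : f ∈ XI σ R ↔ constantCoeff f = 0 := by
  rw [← pow_one (XI σ R), mem_XI_pow_iff_order, Nat.cast_one, one_le_order_iff_constCoeff_eq_zero]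

theorem sub_C_mem_XI [Finite σ] (f : MvPowerSeries σ R) : f - C (constantCoeff f) ∈ XI σ R := by
  rw [mem_XI]; simp

theorem sub_truncTotal_mem [Finite σ] (N : ℕ) (f : MvPowerSeries σ R) :
    f - (truncTotal N f : MvPolynomial σ R) ∈ XI σ R ^ N := by
  rw [mem_XI_pow]
  intro d hd
  rw [map_sub, MvPolynomial.coeff_coe, coeff_truncTotal _ hd, sub_self]

theorem mem_XI_radical_of_constantCoeff [Finite σ] {f : MvPowerSeries σ R}
    (hf : constantCoeff f = 0) : f ∈ (XI σ R).radical :=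
  Ideal.le_radical (mem_XI.mpr hf)

theorem X_mem_XI_radical (i : σ) : (X i : MvPowerSeries σ R) ∈ (XI σ R).radical :=
  Ideal.le_radical (X_mem_XI i)

theorem mem_XI_radical [Finite σ] {f : MvPowerSeries σ R} :
    f ∈ (XI σ R).radical ↔ IsNilpotent (constantCoeff f) := by
  simp only [Ideal.mem_radical_iff, mem_XI, map_pow, IsNilpotent]

end XI

/-! ## Uniqueness and existence of evaluation maps -/

section ev

variable {σ τ : Type*} {R S T : Type*} [CommRing R] [CommRing S] [CommRing T]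

theorem map_XI (ε : MvPowerSeries σ R →+* S) :
    (XI σ R).map ε = Ideal.span (Set.range fun i => ε (X i)) := by
  rw [Ideal.map_span, ← Set.range_comp]; rfl

theorem map_mem_span_pow (ε : MvPowerSeries σ R →+* S) {N : ℕ} {f : MvPowerSeries σ R}
    (hf : f ∈ XI σ R ^ N) : ε f ∈ Ideal.span (Set.range fun i => ε (X i)) ^ N := by
  rw [← map_XI, ← Ideal.map_pow]; exact Ideal.mem_map_of_mem _ hf

theorem hom_coe_poly (ε : MvPowerSeries σ R →+* S) (P : MvPolynomial σ R) :
    ε P = MvPolynomial.eval₂ (ε.comp C) (fun i => ε (X i)) P := by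
  have : ε.comp MvPolynomial.coeToMvPowerSeries.ringHom =
      MvPolynomial.eval₂Hom (ε.comp C) (fun i => ε (X i)) := by
    apply MvPolynomial.ringHom_ext
    · intro r; simp
    · intro i; simp
  exact congrArg (fun g : MvPolynomial σ R →+* S => g P) this

/-- **(U)** Two ring homs out of a power series ring which agree on constants and variables are
equal, if the target is `I`-adically separated and the variables go into the radical of `I`. -/
theorem hom_ext [Finite σ] (I : Ideal S) [IsHausdorff I S] {ε ε' : MvPowerSeries σ R →+* S}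
    (hC : ∀ r, ε (C r) = ε' (C r)) (hX : ∀ i, ε (X i) = ε' (X i))
    (hr : ∀ i, ε (X i) ∈ I.radical) : ε = ε' := by
  obtain ⟨k, hk⟩ := exists_span_pow_le hr
  ext f
  refine haus_eq I fun N => ?_
  have h1 := sub_truncTotal_mem (k * N) f
  have h2 : ε (truncTotal (k * N) f : MvPolynomial σ R) =
      ε' (truncTotal (k * N) f : MvPolynomial σ R) := by
    rw [hom_coe_poly, hom_coe_poly]
    congr 1
    · ext r; exact hC r
    · ext i; exact hX i
  have h3 := map_mem_span_pow ε h1
  have h4 := map_mem_span_pow ε' h1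
  simp_rw [← hX] at h4
  have h5 := Ideal.sub_mem _ h3 h4
  rw [map_sub, map_sub, h2, sub_sub_sub_cancel_right, pow_mul] at h5
  exact Ideal.pow_right_mono hk N h5

/-- `a` is an admissible family of values for the variables. -/
def HasEv (φ : R →+* S) (a : σ → S) : Prop :=
  ∃ ε : MvPowerSeries σ R →+* S, (∀ r, ε (C r) = φ r) ∧ ∀ i, ε (X i) = a i

theorem hasEv [Finite σ] (I : Ideal S) [IsAdicComplete I S] (φ : R →+* S) {a : σ → S}
    (ha : ∀ i, a i ∈ I.radical) : HasEv φ a := by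
  let : WithIdeal S := ⟨I⟩
  let : UniformSpace R := ⊥
  have : DiscreteUniformity R := ⟨rfl⟩
  have hI : IsAdic I := rfl
  obtain ⟨h1, h2⟩ := hI.isAdicComplete_iff.mp inferInstance
  have hev : HasEval a := by
    refine ⟨fun i => ?_, ?_⟩
    · obtain ⟨k, hk⟩ := ha i
      rw [IsTopologicallyNilpotent, hI.hasBasis_nhds_zero.tendsto_right_iff]
      intro N _
      filter_upwards [Filter.eventually_ge_atTop (k * N)] with m hm
      obtain ⟨c, rfl⟩ := Nat.exists_eq_add_of_le hm
      rw [pow_add, pow_mul]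
      exact Ideal.mul_mem_right _ _ (Ideal.pow_mem_pow hk N)
    · rw [Filter.cofinite_eq_bot]; exact Filter.tendsto_bot
  refine ⟨eval₂Hom (φ := φ) continuous_of_discreteTopology hev, fun r => ?_, fun i => ?_⟩
  · rw [coe_eval₂Hom, eval₂_C]
  · rw [coe_eval₂Hom, eval₂_X]

open scoped Classical in
/-- Evaluation of power series: the ring hom with `C r ↦ φ r` and `X i ↦ a i` (when there is one;
junk value: evaluation at `0`). -/
noncomputable def ev (φ : R →+* S) (a : σ → S) : MvPowerSeries σ R →+* S :=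
  if h : HasEv φ a then h.choose else φ.comp constantCoeff

@[simp] theorem ev_C (φ : R →+* S) (a : σ → S) (r : R) : ev φ a (C r) = φ r := by
  unfold ev
  split_ifs with h
  · exact h.choose_spec.1 r
  · simp

theorem ev_comp_C (φ : R →+* S) (a : σ → S) : (ev φ a).comp C = φ := by
  ext r; simp

theorem HasEv.ev_X {φ : R →+* S} {a : σ → S} (h : HasEv φ a) (i : σ) : ev φ a (X i) = a i := by
  unfold ev
  rw [dif_pos h]
  exact h.choose_spec.2 i

theorem ev_smul (φ : R →+* S) (a : σ → S) (r : R) (f : MvPowerSeries σ R) :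
    ev φ a (r • f) = φ r * ev φ a f := by
  rw [smul_eq_C_mul, map_mul, ev_C]

variable [Finite σ]

theorem ev_X (I : Ideal S) [IsAdicComplete I S] (φ : R →+* S) {a : σ → S}
    (ha : ∀ i, a i ∈ I.radical) (i : σ) : ev φ a (X i) = a i :=
  (hasEv I φ ha).ev_X i

/-- Characterisation of `ev`: only separatedness of the target is needed. -/
theorem eq_ev (I : Ideal S) [IsHausdorff I S] {φ : R →+* S} {a : σ → S}
    (ha : ∀ i, a i ∈ I.radical) (ε : MvPowerSeries σ R →+* S) (hC : ∀ r, ε (C r) = φ r)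
    (hX : ∀ i, ε (X i) = a i) : ε = ev φ a := by
  have h : HasEv φ a := ⟨ε, hC, hX⟩
  exact hom_ext I (fun r => by rw [hC, ev_C]) (fun i => by rw [hX, h.ev_X])
    (fun i => by rw [hX]; exact ha i)

theorem hom_eq_ev (I : Ideal S) [IsHausdorff I S] (ε : MvPowerSeries σ R →+* S)
    (hr : ∀ i, ε (X i) ∈ I.radical) : ε = ev (ε.comp C) (fun i => ε (X i)) :=
  eq_ev I hr ε (fun _ => rfl) (fun _ => rfl)

/-- Naturality of `ev` (ring hom form). -/
theorem HasEv.comp_ev {φ : R →+* S} {a : σ → S} (h : HasEv φ a) (J : Ideal T) [IsHausdorff J T]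
    (ρ : S →+* T) (hρ : ∀ i, ρ (a i) ∈ J.radical) :
    ρ.comp (ev φ a) = ev (ρ.comp φ) (fun i => ρ (a i)) :=
  eq_ev J hρ _ (fun r => by simp) (fun i => by simp [h.ev_X])

/-- Naturality of `ev`. -/
theorem map_ev (I : Ideal S) [IsAdicComplete I S] (J : Ideal T) [IsHausdorff J T] (φ : R →+* S)
    {a : σ → S} (ha : ∀ i, a i ∈ I.radical) (ρ : S →+* T) (hρ : ∀ i, ρ (a i) ∈ J.radical)
    (f : MvPowerSeries σ R) : ρ (ev φ a f) = ev (ρ.comp φ) (fun i => ρ (a i)) f :=
  RingHom.congr_fun ((hasEv I φ ha).comp_ev J ρ hρ) f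

theorem ev_map (I : Ideal T) [IsAdicComplete I T] (ψ : R →+* S) (φ : S →+* T) {a : σ → T}
    (ha : ∀ i, a i ∈ I.radical) (f : MvPowerSeries σ R) :
    ev φ a (map ψ f) = ev (φ.comp ψ) a f :=
  RingHom.congr_fun (eq_ev I ha ((ev φ a).comp (map ψ)) (fun r => by simp)
    (fun i => by simp [ev_X I φ ha])) f

theorem ev_zero (φ : R →+* S) (f : MvPowerSeries σ R) :
    ev φ (fun _ => 0) f = φ (constantCoeff f) :=
  (RingHom.congr_fun (eq_ev (⊥ : Ideal S) (a := fun _ : σ => (0 : S)) (fun _ => Ideal.zero_mem _)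
    (φ.comp constantCoeff) (fun r => by simp) (fun i => by simp)) f).symm

theorem ev_C_X (f : MvPowerSeries σ R) : ev C X f = f :=
  (RingHom.congr_fun (eq_ev (XI σ R) X_mem_XI_radical (RingHom.id _) (fun _ => rfl)
    (fun _ => rfl)) f).symm

theorem ev_C_comp_X (ψ : R →+* S) (f : MvPowerSeries σ R) :
    ev ((C : S →+* MvPowerSeries σ S).comp ψ) X f = map ψ f :=
  (RingHom.congr_fun (eq_ev (XI σ S) X_mem_XI_radical (map ψ) (fun r => by simp)
    (fun i => by simp)) f).symm

theorem ev_coe (I : Ideal S) [IsAdicComplete I S] (φ : R →+* S) {a : σ → S}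
    (ha : ∀ i, a i ∈ I.radical) (P : MvPolynomial σ R) :
    ev φ a P = MvPolynomial.eval₂ φ a P := by
  rw [hom_coe_poly, ev_comp_C]
  simp_rw [ev_X I φ ha]

theorem ev_monomial (I : Ideal S) [IsAdicComplete I S] (φ : R →+* S) {a : σ → S}
    (ha : ∀ i, a i ∈ I.radical) (d : σ →₀ ℕ) (r : R) :
    ev φ a (monomial d r) = φ r * d.prod fun i e => a i ^ e := by
  rw [← MvPolynomial.coe_monomial, ev_coe I φ ha, MvPolynomial.eval₂_monomial]

theorem ev_mem_span_pow (I : Ideal S) [IsAdicComplete I S] (φ : R →+* S) {a : σ → S}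
    (ha : ∀ i, a i ∈ I.radical) {N : ℕ} {f : MvPowerSeries σ R} (hf : f ∈ XI σ R ^ N) :
    ev φ a f ∈ Ideal.span (Set.range a) ^ N := by
  have := map_mem_span_pow (ev φ a) hf
  simpa only [ev_X I φ ha] using this

/-- If the values lie in `𝔟` and `f` has order `≥ N` then the value of `f` lies in `𝔟 ^ N`. -/
theorem ev_mem_pow (I : Ideal S) [IsAdicComplete I S] (φ : R →+* S) {a : σ → S}
    (ha : ∀ i, a i ∈ I.radical) {𝔟 : Ideal S} (hb : ∀ i, a i ∈ 𝔟) {N : ℕ}
    {f : MvPowerSeries σ R} (hf : f ∈ XI σ R ^ N) : ev φ a f ∈ 𝔟 ^ N := by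
  refine Ideal.pow_right_mono ?_ N (ev_mem_span_pow I φ ha hf)
  rw [Ideal.span_le]; rintro _ ⟨i, rfl⟩; exact hb i

theorem ev_mem (I : Ideal S) [IsAdicComplete I S] (φ : R →+* S) {a : σ → S}
    (ha : ∀ i, a i ∈ I.radical) {𝔟 : Ideal S} (hb : ∀ i, a i ∈ 𝔟)
    {f : MvPowerSeries σ R} (hf : constantCoeff f = 0) : ev φ a f ∈ 𝔟 := by
  have := ev_mem_pow I φ ha hb (N := 1) (f := f) (by rw [pow_one, mem_XI]; exact hf)
  rwa [pow_one] at this

theorem ev_mem_radical (I : Ideal S) [IsAdicComplete I S] (φ : R →+* S) {a : σ → S}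
    (ha : ∀ i, a i ∈ I.radical) {f : MvPowerSeries σ R} (hf : constantCoeff f = 0) :
    ev φ a f ∈ I.radical :=
  ev_mem I φ ha ha hf

theorem ev_sub_const_mem (I : Ideal S) [IsAdicComplete I S] (φ : R →+* S) {a : σ → S}
    (ha : ∀ i, a i ∈ I.radical) {𝔟 : Ideal S} (hb : ∀ i, a i ∈ 𝔟) (f : MvPowerSeries σ R) :
    ev φ a f - φ (constantCoeff f) ∈ 𝔟 := by
  have := ev_mem I φ ha hb (f := f - C (constantCoeff f)) (by simp)
  simpa using this

theorem ev_mem_radical' (I : Ideal S) [IsAdicComplete I S] (φ : R →+* S) {a : σ → S}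
    (ha : ∀ i, a i ∈ I.radical) {f : MvPowerSeries σ R} (hf : φ (constantCoeff f) ∈ I.radical) :
    ev φ a f ∈ I.radical := by
  have := I.radical.add_mem (ev_sub_const_mem I φ ha ha f) hf
  simpa using this

/-- The value is the limit of the values of the truncations. -/
theorem ev_sub_trunc_mem (I : Ideal S) [IsAdicComplete I S] (φ : R →+* S) {a : σ → S}
    (ha : ∀ i, a i ∈ I.radical) {𝔟 : Ideal S} (hb : ∀ i, a i ∈ 𝔟) (N : ℕ)
    (f : MvPowerSeries σ R) : ev φ a f - MvPolynomial.eval₂ φ a (truncTotal N f) ∈ 𝔟 ^ N := by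
  rw [← ev_coe I φ ha, ← map_sub]
  exact ev_mem_pow I φ ha hb (sub_truncTotal_mem N f)

/-! ### Substitution -/

omit [Finite σ] in
theorem subst_C' {A : Type*} [CommRing A] [Algebra R A] {b : σ → MvPowerSeries τ A}
    (hb : HasSubst b) (r : R) : subst b (C r : MvPowerSeries σ R) = C (algebraMap R A r) := by
  rw [← substAlgHom_apply hb, c_eq_algebraMap, AlgHom.commutes,
    MvPowerSeries.algebraMap_apply]

/-- Evaluation of a substitution. -/
theorem ev_subst [Finite τ] (I : Ideal S) [IsAdicComplete I S] (φ : R →+* S) {a : τ → S}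
    (ha : ∀ i, a i ∈ I.radical) {b : σ → MvPowerSeries τ R} (hb : ∀ i, constantCoeff (b i) = 0)
    (f : MvPowerSeries σ R) : ev φ a (subst b f) = ev φ (fun i => ev φ a (b i)) f := by
  have hs : HasSubst b := hasSubst_of_constantCoeff_zero hb
  have := eq_ev I (φ := φ) (a := fun i => ev φ a (b i)) (fun i => ev_mem_radical I φ ha (hb i))
    ((ev φ a).comp (substAlgHom hs : MvPowerSeries σ R →ₐ[R] _).toRingHom)
    (fun r => by simp) (fun i => by simp [subst_X hs])
  rw [← this]; simp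

/-- On power series rings, `ev` is substitution. -/
theorem ev_eq_subst [Finite τ] {b : σ → MvPowerSeries τ R} (hb : ∀ i, constantCoeff (b i) = 0)
    (f : MvPowerSeries σ R) : ev C b f = subst b f := by
  have hs : HasSubst b := hasSubst_of_constantCoeff_zero hb
  have := eq_ev (XI τ R) (φ := C) (a := b) (fun i => mem_XI_radical_of_constantCoeff (hb i))
    (substAlgHom hs : MvPowerSeries σ R →ₐ[R] _).toRingHom
    (fun r => by simp) (fun i => by simp [subst_X hs])
  rw [← this]; simp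

theorem ev_eq_subst_map [Finite τ] (ψ : R →+* S) {b : σ → MvPowerSeries τ S}
    (hb : ∀ i, constantCoeff (b i) = 0) (f : MvPowerSeries σ R) :
    ev ((C : S →+* MvPowerSeries τ S).comp ψ) b f = subst b (map ψ f) := by
  rw [← ev_eq_subst hb, ev_map (XI τ S) ψ C (fun i => mem_XI_radical_of_constantCoeff (hb i))]

/-- Evaluating a formal evaluation. -/
theorem ev_ev [Finite τ] (I : Ideal T) [IsAdicComplete I T] (φ : S →+* T) {a : τ → T}
    (ha : ∀ i, a i ∈ I.radical) (ψ : R →+* MvPowerSeries τ S) {b : σ → MvPowerSeries τ S}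
    (hb : ∀ i, constantCoeff (b i) = 0) (f : MvPowerSeries σ R) :
    ev φ a (ev ψ b f) = ev ((ev φ a).comp ψ) (fun i => ev φ a (b i)) f :=
  map_ev (XI τ S) I ψ (fun i => mem_XI_radical_of_constantCoeff (hb i)) _
    (fun i => ev_mem_radical I φ ha (hb i)) f

theorem ev_rename [Finite τ] (I : Ideal S) [IsAdicComplete I S] (φ : R →+* S) {a : τ → S}
    (ha : ∀ i, a i ∈ I.radical) (e : σ → τ) (f : MvPowerSeries σ R) :
    ev φ a (rename e f) = ev φ (fun i => a (e i)) f :=
  RingHom.congr_fun (eq_ev I (fun i => ha (e i)) ((ev φ a).comp (rename e).toRingHom)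
    (fun r => by simp) (fun i => by simp [ev_X I φ ha])) f

theorem ev_expand (I : Ideal S) [IsAdicComplete I S] (φ : R →+* S) {a : σ → S}
    (ha : ∀ i, a i ∈ I.radical) {k : ℕ} (hk : k ≠ 0) (f : MvPowerSeries σ R) :
    ev φ a (expand k hk f) = ev φ (fun i => a i ^ k) f :=
  RingHom.congr_fun (eq_ev I (fun i => Ideal.pow_mem_of_mem _ (ha i) k (Nat.pos_of_ne_zero hk))
    ((ev φ a).comp (expand k hk).toRingHom)
    (fun r => by simp [expand_C]) (fun i => by simp [ev_X I φ ha])) f

/-- In characteristic `p`: `(f(a))^{p^n} = f^{(p^n)}(a^{p^n})`. -/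
theorem ev_pow_char (p : ℕ) [Fact p.Prime] [CharP S p] (I : Ideal S) [IsAdicComplete I S]
    (φ : R →+* S) {a : σ → S} (ha : ∀ i, a i ∈ I.radical) (n : ℕ) (f : MvPowerSeries σ R) :
    ev φ a f ^ p ^ n = ev ((iterateFrobenius S p n).comp φ) (fun i => a i ^ p ^ n) f := by
  have := map_ev I I φ ha (iterateFrobenius S p n) (fun i => by
    rw [iterateFrobenius_def]
    exact Ideal.pow_mem_of_mem _ (ha i) _ (pow_pos (Fact.out : p.Prime).pos n)) f
  simpa only [iterateFrobenius_def] using this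

/-! ### Derivations -/

/-- An additive map `D` which is a derivation along `ε` and kills constants and variables
vanishes. -/
theorem der_eq_zero (I : Ideal S) [IsHausdorff I S] (ε : MvPowerSeries σ R →+* S)
    (hr : ∀ i, ε (X i) ∈ I.radical) (D : MvPowerSeries σ R →+ S)
    (hD : ∀ f g, D (f * g) = ε f * D g + ε g * D f) (hC : ∀ r, D (C r) = 0)
    (hX : ∀ i, D (X i) = 0) (f : MvPowerSeries σ R) : D f = 0 := by
  obtain ⟨k, hk⟩ := exists_span_pow_le hr
  have hP : ∀ P : MvPolynomial σ R, D P = 0 := by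
    intro P
    induction P using MvPolynomial.induction_on with
    | C a => rw [MvPolynomial.coe_C, hC]
    | add p q hp hq => rw [MvPolynomial.coe_add, map_add, hp, hq, add_zero]
    | mul_X p i hp => rw [MvPolynomial.coe_mul, MvPolynomial.coe_X, hD, hp, hX]; simp
  have hN : ∀ (N : ℕ) (g : MvPowerSeries σ R), g ∈ XI σ R ^ (N + 1) →
      D g ∈ Ideal.span (Set.range fun i => ε (X i)) ^ N := by
    intro N
    induction N with
    | zero => simp
    | succ N ih =>
      intro g hg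
      rw [pow_succ] at hg
      refine Submodule.mul_induction_on hg ?_ ?_
      · intro a ha b hb
        rw [hD]
        refine Ideal.add_mem _ (Ideal.mul_mem_right _ _ (map_mem_span_pow ε ha)) ?_
        rw [pow_succ']
        refine Ideal.mul_mem_mul ?_ (ih a ha)
        simpa using map_mem_span_pow ε (N := 1) (f := b) (by simpa using hb)
      · intro a b ha hb
        rw [map_add]; exact Ideal.add_mem _ ha hb
  refine haus I fun N => ?_
  have h1 := hN (k * N) _ (sub_truncTotal_mem (k * N + 1) f)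
  rw [map_sub, hP, sub_zero, pow_mul] at h1
  exact Ideal.pow_right_mono hk N h1

/-- **Chain rule**: a derivation along `ε` killing the constants is `∑ ε (∂ᵢ f) * D (Xᵢ)`. -/
theorem der_eq_sum [Fintype σ] (I : Ideal S) [IsHausdorff I S] (ε : MvPowerSeries σ R →+* S)
    (hr : ∀ i, ε (X i) ∈ I.radical) (D : MvPowerSeries σ R →+ S)
    (hD : ∀ f g, D (f * g) = ε f * D g + ε g * D f) (hC : ∀ r, D (C r) = 0)
    (f : MvPowerSeries σ R) : D f = ∑ i, ε (pderiv R i f) * D (X i) := by
  classical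
  let D' : MvPowerSeries σ R →+ S :=
    { toFun := fun f => D f - ∑ i, ε (pderiv R i f) * D (X i)
      map_zero' := by simp
      map_add' := fun f g => by
        simp only [map_add, add_mul, Finset.sum_add_distrib]; ring }
  have hD' : ∀ f, D' f = D f - ∑ i, ε (pderiv R i f) * D (X i) := fun _ => rfl
  rw [← sub_eq_zero, ← hD']
  refine der_eq_zero I ε hr D' (fun f g => ?_) (fun r => ?_) (fun j => ?_) f
  · simp only [hD', hD, Derivation.leibniz, smul_eq_mul, map_add, map_mul, add_mul,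
      Finset.sum_add_distrib, mul_sub, Finset.mul_sum, mul_assoc]
    ring
  · simp [hD', hC]
  · rw [hD', Finset.sum_eq_single j]
    · simp
    · intro i _ hi
      rw [pderiv_X_of_ne (Ne.symm hi)]; simp
    · simp

/-- Chain rule for a derivation `δ` of the target killing `φ(R)`. -/
theorem der_ev [Fintype σ] (I : Ideal S) [IsAdicComplete I S] (φ : R →+* S) {a : σ → S}
    (ha : ∀ i, a i ∈ I.radical) (δ : S →+ S) (hδ : ∀ x y, δ (x * y) = x * δ y + y * δ x)
    (hφ : ∀ r, δ (φ r) = 0) (f : MvPowerSeries σ R) :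
    δ (ev φ a f) = ∑ i, ev φ a (pderiv R i f) * δ (a i) := by
  have := der_eq_sum I (ev φ a) (fun i => by rw [ev_X I φ ha]; exact ha i)
    (δ.comp (ev φ a).toAddMonoidHom) (fun f g => by simp [hδ]) (fun r => by simp [hφ]) f
  simpa [ev_X I φ ha] using this

/-- Chain rule for substitution. -/
theorem pderiv_subst [Fintype σ] [Finite τ] {b : σ → MvPowerSeries τ R}
    (hb : ∀ i, constantCoeff (b i) = 0) (j : τ) (f : MvPowerSeries σ R) :
    pderiv R j (subst b f) = ∑ i, subst b (pderiv R i f) * pderiv R j (b i) := by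
  simp_rw [← ev_eq_subst hb]
  exact der_ev (XI τ R) C (fun i => mem_XI_radical_of_constantCoeff (hb i))
    (pderiv R j).toLinearMap.toAddMonoidHom (fun x y => by simp) (fun r => by simp) f

end ev

/-! ## One variable -/

section ev1

variable {τ : Type*} {R S T : Type*} [CommRing R] [CommRing S] [CommRing T]

/-- Evaluation of a one-variable power series. -/
noncomputable def ev1 (φ : R →+* S) (x : S) : PowerSeries R →+* S := ev φ (fun _ : Unit => x)

theorem ev1_def (φ : R →+* S) (x : S) : ev1 φ x = ev φ (fun _ : Unit => x) := rfl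

theorem XI_unit : XI Unit R = Ideal.span {(PowerSeries.X : PowerSeries R)} := by
  unfold XI; congr 1; ext f
  simp only [Set.mem_range, Set.mem_singleton_iff]
  exact ⟨fun ⟨_, h⟩ => h.symm, fun h => ⟨(), h.symm⟩⟩

theorem X_mem_XI_unit : (PowerSeries.X : PowerSeries R) ∈ (XI Unit R).radical := X_mem_XI_radical ()

theorem mem_XI_unit_radical {f : PowerSeries R} (hf : PowerSeries.constantCoeff f = 0) :
    f ∈ (XI Unit R).radical := mem_XI_radical_of_constantCoeff hf

theorem mem_XI_unit_pow {N : ℕ} {f : PowerSeries R} :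
    f ∈ XI Unit R ^ N ↔ ∀ d < N, PowerSeries.coeff d f = 0 := by
  rw [XI_unit, Ideal.span_singleton_pow, Ideal.mem_span_singleton, PowerSeries.X_pow_dvd_iff]

@[simp] theorem ev1_C (φ : R →+* S) (x : S) (r : R) : ev1 φ x (PowerSeries.C r) = φ r :=
  ev_C φ _ r

theorem ev1_comp_C (φ : R →+* S) (x : S) : (ev1 φ x).comp PowerSeries.C = φ := by
  ext r; simp

theorem ev1_smul (φ : R →+* S) (x : S) (r : R) (f : PowerSeries R) :
    ev1 φ x (r • f) = φ r * ev1 φ x f := ev_smul φ _ r f

theorem ev1_X (I : Ideal S) [IsAdicComplete I S] (φ : R →+* S) {x : S} (hx : x ∈ I.radical) :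
    ev1 φ x PowerSeries.X = x :=
  ev_X I φ (a := fun _ : Unit => x) (fun _ => hx) ()

theorem hom_ext1 (I : Ideal S) [IsHausdorff I S] {ε ε' : PowerSeries R →+* S}
    (hC : ∀ r, ε (PowerSeries.C r) = ε' (PowerSeries.C r))
    (hX : ε PowerSeries.X = ε' PowerSeries.X) (hr : ε PowerSeries.X ∈ I.radical) : ε = ε' :=
  hom_ext I hC (fun _ => hX) (fun _ => hr)

theorem eq_ev1 (I : Ideal S) [IsHausdorff I S] {φ : R →+* S} {x : S} (hx : x ∈ I.radical)
    (ε : PowerSeries R →+* S) (hC : ∀ r, ε (PowerSeries.C r) = φ r) (hX : ε PowerSeries.X = x) :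
    ε = ev1 φ x :=
  eq_ev I (fun _ => hx) ε hC (fun _ => hX)

theorem map_ev1 (I : Ideal S) [IsAdicComplete I S] (J : Ideal T) [IsHausdorff J T] (φ : R →+* S)
    {x : S} (hx : x ∈ I.radical) (ρ : S →+* T) (hρ : ρ x ∈ J.radical) (f : PowerSeries R) :
    ρ (ev1 φ x f) = ev1 (ρ.comp φ) (ρ x) f :=
  map_ev I J φ (fun _ => hx) ρ (fun _ => hρ) f

theorem ev1_map (I : Ideal T) [IsAdicComplete I T] (ψ : R →+* S) (φ : S →+* T) {x : T}
    (hx : x ∈ I.radical) (f : PowerSeries R) :
    ev1 φ x (PowerSeries.map ψ f) = ev1 (φ.comp ψ) x f :=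
  ev_map I ψ φ (fun _ => hx) f

theorem ev1_zero (φ : R →+* S) (f : PowerSeries R) :
    ev1 φ 0 f = φ (PowerSeries.constantCoeff f) := ev_zero φ f

theorem ev1_C_X (f : PowerSeries R) : ev1 PowerSeries.C PowerSeries.X f = f := ev_C_X f

theorem ev1_C_comp_X (ψ : R →+* S) (f : PowerSeries R) :
    ev1 ((PowerSeries.C : S →+* PowerSeries S).comp ψ) PowerSeries.X f = PowerSeries.map ψ f :=
  ev_C_comp_X ψ f

theorem ev1_coe (I : Ideal S) [IsAdicComplete I S] (φ : R →+* S) {x : S} (hx : x ∈ I.radical)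
    (P : Polynomial R) : ev1 φ x P = Polynomial.eval₂ φ x P := by
  have : (ev1 φ x).comp Polynomial.coeToPowerSeries.ringHom = Polynomial.eval₂RingHom φ x := by
    apply Polynomial.ringHom_ext
    · intro r; simp
    · simp [ev1_X I φ hx]
  exact congrArg (fun g : Polynomial R →+* S => g P) this

theorem ev1_mem_pow (I : Ideal S) [IsAdicComplete I S] (φ : R →+* S) {x : S}
    (hx : x ∈ I.radical) {𝔟 : Ideal S} (hb : x ∈ 𝔟) {N : ℕ} {f : PowerSeries R}
    (hf : ∀ d < N, PowerSeries.coeff d f = 0) : ev1 φ x f ∈ 𝔟 ^ N :=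
  ev_mem_pow I φ (fun _ => hx) (fun _ => hb) (mem_XI_unit_pow.mpr hf)

theorem ev1_mem (I : Ideal S) [IsAdicComplete I S] (φ : R →+* S) {x : S}
    (hx : x ∈ I.radical) {𝔟 : Ideal S} (hb : x ∈ 𝔟) {f : PowerSeries R}
    (hf : PowerSeries.constantCoeff f = 0) : ev1 φ x f ∈ 𝔟 :=
  ev_mem I φ (fun _ => hx) (fun _ => hb) hf

theorem ev1_mem_radical (I : Ideal S) [IsAdicComplete I S] (φ : R →+* S) {x : S}
    (hx : x ∈ I.radical) {f : PowerSeries R} (hf : PowerSeries.constantCoeff f = 0) :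
    ev1 φ x f ∈ I.radical :=
  ev1_mem I φ hx hx hf

theorem ev1_mem_radical' (I : Ideal S) [IsAdicComplete I S] (φ : R →+* S) {x : S}
    (hx : x ∈ I.radical) {f : PowerSeries R}
    (hf : φ (PowerSeries.constantCoeff f) ∈ I.radical) : ev1 φ x f ∈ I.radical :=
  ev_mem_radical' I φ (fun _ => hx) hf

theorem pow_dvd_ev1 (I : Ideal S) [IsAdicComplete I S] (φ : R →+* S) {x : S}
    (hx : x ∈ I.radical) {N : ℕ} {f : PowerSeries R} (hf : ∀ d < N, PowerSeries.coeff d f = 0) :
    x ^ N ∣ ev1 φ x f := by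
  rw [← Ideal.mem_span_singleton, ← Ideal.span_singleton_pow]
  exact ev1_mem_pow I φ hx (Ideal.mem_span_singleton_self x) hf

/-- `f(x) = ∑_{i<N} f_i x^i + x^N * (…)`. -/
theorem ev1_eq_sum_add (I : Ideal S) [IsAdicComplete I S] (φ : R →+* S) {x : S}
    (hx : x ∈ I.radical) (N : ℕ) (f : PowerSeries R) :
    ev1 φ x f = ∑ i ∈ Finset.range N, φ (PowerSeries.coeff i f) * x ^ i +
      x ^ N * ev1 φ x (PowerSeries.mk fun i => PowerSeries.coeff (i + N) f) := by
  conv_lhs => rw [PowerSeries.eq_X_pow_mul_shift_add_trunc N f]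
  rw [map_add, map_mul, map_pow, ev1_X I φ hx, ev1_coe I φ hx, PowerSeries.eval₂_trunc_eq_sum_range,
    add_comm]

theorem ev1_sub_sum_mem (I : Ideal S) [IsAdicComplete I S] (φ : R →+* S) {x : S}
    (hx : x ∈ I.radical) {𝔟 : Ideal S} (hb : x ∈ 𝔟) (N : ℕ) (f : PowerSeries R) :
    ev1 φ x f - ∑ i ∈ Finset.range N, φ (PowerSeries.coeff i f) * x ^ i ∈ 𝔟 ^ N := by
  rw [ev1_eq_sum_add I φ hx N f, add_sub_cancel_left]
  exact Ideal.mul_mem_right _ _ (Ideal.pow_mem_pow hb N)

/-- `f(x)` is the limit of the partial sums. -/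
theorem lim_ev1 (I : Ideal S) [IsAdicComplete I S] (φ : R →+* S) {x : S}
    (hx : x ∈ I.radical) (f : PowerSeries R) :
    Lim I (fun N => ∑ i ∈ Finset.range N, φ (PowerSeries.coeff i f) * x ^ i) (ev1 φ x f) := by
  obtain ⟨k, hk⟩ := hx
  intro N
  refine ⟨k * N, fun n hn => ?_⟩
  have := ev1_sub_sum_mem I φ ⟨k, hk⟩ (Ideal.mem_span_singleton_self x) n f
  refine (show Ideal.span {x} ^ n ≤ I ^ N from ?_) this
  refine (Ideal.pow_le_pow_right hn).trans ?_
  rw [pow_mul, Ideal.span_singleton_pow]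
  exact Ideal.pow_right_mono ((Ideal.span_singleton_le_iff_mem _).mpr hk) N

theorem ev_subst1 [Finite τ] (I : Ideal S) [IsAdicComplete I S] (φ : R →+* S) {a : τ → S}
    (ha : ∀ i, a i ∈ I.radical) {b : MvPowerSeries τ R} (hb : constantCoeff b = 0)
    (f : PowerSeries R) : ev φ a (PowerSeries.subst b f) = ev1 φ (ev φ a b) f :=
  ev_subst I φ ha (fun _ => hb) f

theorem ev1_subst1 (I : Ideal S) [IsAdicComplete I S] (φ : R →+* S) {x : S}
    (hx : x ∈ I.radical) {b : PowerSeries R} (hb : PowerSeries.constantCoeff b = 0)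
    (f : PowerSeries R) : ev1 φ x (PowerSeries.subst b f) = ev1 φ (ev1 φ x b) f :=
  ev_subst1 I φ (fun _ => hx) hb f

theorem ev1_subst {σ : Type*} [Finite σ] (I : Ideal S) [IsAdicComplete I S] (φ : R →+* S) {x : S}
    (hx : x ∈ I.radical) {b : σ → PowerSeries R} (hb : ∀ i, PowerSeries.constantCoeff (b i) = 0)
    (f : MvPowerSeries σ R) : ev1 φ x (subst b f) = ev φ (fun i => ev1 φ x (b i)) f :=
  ev_subst I φ (fun _ => hx) hb f

theorem ev1_eq_subst [Finite τ] {b : MvPowerSeries τ R} (hb : constantCoeff b = 0)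
    (f : PowerSeries R) : ev1 C b f = PowerSeries.subst b f :=
  ev_eq_subst (fun _ => hb) f

theorem ev1_eq_subst1 {b : PowerSeries R} (hb : PowerSeries.constantCoeff b = 0)
    (f : PowerSeries R) : ev1 PowerSeries.C b f = PowerSeries.subst b f :=
  ev1_eq_subst hb f

theorem ev1_subst_X_pow (I : Ideal S) [IsAdicComplete I S] (φ : R →+* S) {x : S}
    (hx : x ∈ I.radical) {k : ℕ} (hk : k ≠ 0) (f : PowerSeries R) :
    ev1 φ x (PowerSeries.subst (PowerSeries.X ^ k : PowerSeries R) f) = ev1 φ (x ^ k) f := by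
  rw [ev1_subst1 I φ hx (by simp [hk]), map_pow, ev1_X I φ hx]

theorem ev1_pow_char (p : ℕ) [Fact p.Prime] [CharP S p] (I : Ideal S) [IsAdicComplete I S]
    (φ : R →+* S) {x : S} (hx : x ∈ I.radical) (n : ℕ) (f : PowerSeries R) :
    ev1 φ x f ^ p ^ n = ev1 ((iterateFrobenius S p n).comp φ) (x ^ p ^ n) f :=
  ev_pow_char p I φ (fun _ => hx) n f

theorem der_ev1 (I : Ideal S) [IsAdicComplete I S] (φ : R →+* S) {x : S}
    (hx : x ∈ I.radical) (δ : S →+ S) (hδ : ∀ x y, δ (x * y) = x * δ y + y * δ x)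
    (hφ : ∀ r, δ (φ r) = 0) (f : PowerSeries R) :
    δ (ev1 φ x f) = ev1 φ x (PowerSeries.derivative R f) * δ x := by
  have := der_ev I φ (a := fun _ : Unit => x) (fun _ => hx) δ hδ hφ f
  rw [Fintype.sum_unique] at this
  exact this

end ev1

end Crest.Agent.R227
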