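import Crest.Agent.R227.Hom

/-!
# R227/Frob: the invariant differential, factorisation through Frobenius, height ideals (helper51)
-/

set_option autoImplicit false

namespace Crest.Agent.R227

open MvPowerSeries Crest.LubinTate

variable {R S : Type*} [CommRing R] [CommRing S]

/-! ## The invariant differential -/

/-- `F₂(x, 0) = ∂F/∂Y (x, 0)`. -/
noncomputable def fd2 (F : FormalGroup R) (φ : R →+* S) (x : S) : S :=
  ev φ ![x, 0] (pderiv R 1 F.toPowerSeries)

theorem fd2_sub_one_mem (F : FormalGroup R) (I : Ideal S) [IsAdicComplete I S] (φ : R →+* S)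
    {x : S} (hx : x ∈ I.radical) {𝔟 : Ideal S} (hb : x ∈ 𝔟) : fd2 F φ x - 1 ∈ 𝔟 := by
  have := ev_sub_const_mem I φ (pair_mem hx (Ideal.zero_mem _)) (pair_mem hb (Ideal.zero_mem _))
    (pderiv R 1 F.toPowerSeries)
  rwa [constantCoeff_pderiv, F.lin_coeff_Y, map_one] at this

theorem isUnit_fd2 (F : FormalGroup R) (I : Ideal S) [IsAdicComplete I S] (φ : R →+* S)
    {x : S} (hx : x ∈ I.radical) : IsUnit (fd2 F φ x) :=
  isUnit_of_sub_mem_radical I isUnit_one (fd2_sub_one_mem F I φ hx hx)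

theorem map_fd2 {T : Type*} [CommRing T] (F : FormalGroup R) (I : Ideal S) [IsAdicComplete I S]
    (J : Ideal T) [IsHausdorff J T] (φ : R →+* S) {x : S} (hx : x ∈ I.radical) (ρ : S →+* T)
    (hx' : ρ x ∈ J.radical) : ρ (fd2 F φ x) = fd2 F (ρ.comp φ) (ρ x) := by
  rw [fd2, map_ev I J φ (pair_mem hx (Ideal.zero_mem _)) ρ
    (fun i => by fin_cases i <;> simp [hx']), fun_pair, map_zero, fd2]

theorem dfst_comp_dinl : (dfst S).comp (dinl S) = RingHom.id S := by ext; simp

/-- `F(x, ε c) = x + ε F₂(x, 0) c` in the dual numbers. -/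
theorem fadd_dual (F : FormalGroup R) (I : Ideal S) [IsAdicComplete I S] (φ : R →+* S) {x : S}
    (hx : x ∈ I.radical) (c : S) :
    fadd F ((dinl S).comp φ) (TrivSqZeroExt.inl x) (TrivSqZeroExt.inr c) =
      TrivSqZeroExt.inl x + TrivSqZeroExt.inr (fd2 F φ x * c) := by
  have ha : ∀ i, (![TrivSqZeroExt.inl x, TrivSqZeroExt.inr c] i : DualNumber S).fst ∈ I.radical :=
    fun i => by fin_cases i <;> simp [hx]
  ext
  · rw [fadd, fst_ev I _ ha, fun_pair (fun z : DualNumber S => z.fst), ← RingHom.comp_assoc,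
      dfst_comp_dinl, RingHom.id_comp]
    simpa [fadd] using fadd_zero F I φ hx
  · rw [fadd, snd_ev I _ ha, Fin.sum_univ_two, fun_pair (fun z : DualNumber S => z.fst)]
    simp [fd2]

theorem ev1_dual (I : Ideal S) [IsAdicComplete I S] (φ : R →+* S) {x : S}
    (hx : x ∈ I.radical) (c : S) (f : PowerSeries R) :
    ev1 ((dinl S).comp φ) (TrivSqZeroExt.inl x + TrivSqZeroExt.inr c) f =
      TrivSqZeroExt.inl (ev1 φ x f) +
        TrivSqZeroExt.inr (ev1 φ x (PowerSeries.derivative R f) * c) := by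
  have hx' : (TrivSqZeroExt.inl x + TrivSqZeroExt.inr c : DualNumber S).fst ∈ I.radical := by
    simpa using hx
  ext
  · rw [fst_ev1 I _ hx', ← RingHom.comp_assoc, dfst_comp_dinl, RingHom.id_comp]; simp
  · rw [snd_ev1 I _ hx']; simp

/-- Homomorphisms respect invariant differentials: `θ'(x) F₂(x,0) = G₂(θ x, 0) θ'(0)`. -/
theorem IsFGHom.deriv_mul_fd2 {F G : FormalGroup R} {θ : PowerSeries R} (h : IsFGHom F G θ)
    (I : Ideal S) [IsAdicComplete I S] (φ : R →+* S) {x : S} (hx : x ∈ I.radical) :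
    ev1 φ x (PowerSeries.derivative R θ) * fd2 F φ x =
      fd2 G φ (ev1 φ x θ) * φ (PowerSeries.coeff 1 θ) := by
  have h1 := ev1_fadd_of_hom h (DI I) ((dinl S).comp φ) (x := TrivSqZeroExt.inl x)
    (y := TrivSqZeroExt.inr 1) (mem_DI_radical.mpr (by simpa using hx))
    (mem_DI_radical.mpr (by simp))
  have e1 := ev1_dual I φ hx 0 θ
  have e2 := ev1_dual I φ (Ideal.zero_mem _) 1 θ
  simp only [TrivSqZeroExt.inr_zero, add_zero, mul_zero] at e1
  rw [TrivSqZeroExt.inl_zero, zero_add, ev1_zero, ev1_zero, h.1, map_zero, TrivSqZeroExt.inl_zero,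
    zero_add, mul_one] at e2
  rw [fadd_dual F I φ hx, ev1_dual I φ hx, e1, e2,
    fadd_dual G I φ (ev1_mem_radical I φ hx h.1)] at h1
  have h2 := congrArg TrivSqZeroExt.snd h1
  simp only [TrivSqZeroExt.snd_add, TrivSqZeroExt.snd_inl, TrivSqZeroExt.snd_inr, zero_add,
    mul_one] at h2
  rw [h2, ← PowerSeries.coeff_zero_eq_constantCoeff_apply, PowerSeries.coeff_derivative]
  simp

/-- Formal version: `θ'(X) F₂(X,0) = G₂(θ X, 0) θ'(0)`. -/
theorem IsFGHom.derivative_mul_fd2 {F G : FormalGroup R} {θ : PowerSeries R} (h : IsFGHom F G θ) :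
    PowerSeries.derivative R θ * fd2 F PowerSeries.C PowerSeries.X =
      fd2 G PowerSeries.C θ * PowerSeries.C (PowerSeries.coeff 1 θ) := by
  have := IsFGHom.deriv_mul_fd2 h (XI Unit R) PowerSeries.C X_mem_XI_unit
  rwa [ev1_C_X, ev1_C_X] at this

theorem IsFGHom.derivative_eq_zero {F G : FormalGroup R} {θ : PowerSeries R} (h : IsFGHom F G θ)
    (h1 : PowerSeries.coeff 1 θ = 0) : PowerSeries.derivative R θ = 0 := by
  have := IsFGHom.derivative_mul_fd2 h
  rw [h1, map_zero, mul_zero] at this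
  exact (isUnit_fd2 F (XI Unit R) PowerSeries.C X_mem_XI_unit).mul_left_eq_zero.mp this

/-- Over a torsion-free ring a homomorphism is determined by its linear coefficient. -/
theorem IsFGHom.eq_zero_of_coeff_one [IsAddTorsionFree R] {F G : FormalGroup R}
    {θ : PowerSeries R} (h : IsFGHom F G θ) (h1 : PowerSeries.coeff 1 θ = 0) : θ = 0 :=
  PowerSeries.derivative.ext (by rw [IsFGHom.derivative_eq_zero h h1, map_zero])
    (by rw [h.1, map_zero])

/-! ## Factorisation through Frobenius -/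

section frob

variable (p : ℕ) [Fact p.Prime]

theorem exists_eq_subst_X_pow {k : ℕ} (hk : k ≠ 0) {f : PowerSeries R}
    (hf : ∀ i, ¬ k ∣ i → PowerSeries.coeff i f = 0) :
    f = PowerSeries.subst (PowerSeries.X ^ k : PowerSeries R)
      (PowerSeries.mk fun i => PowerSeries.coeff (k * i) f) := by
  ext i
  rw [PowerSeries.coeff_subst_X_pow hk]
  split_ifs with h
  · obtain ⟨j, rfl⟩ := h
    simp [Nat.mul_div_cancel_left _ (Nat.pos_of_ne_zero hk)]
  · exact hf i h

theorem coeff_mul_subst_X_pow {k : ℕ} (hk : k ≠ 0) (g : PowerSeries R) (i : ℕ) :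
    PowerSeries.coeff (k * i) (PowerSeries.subst (PowerSeries.X ^ k : PowerSeries R) g) =
      PowerSeries.coeff i g := by
  rw [PowerSeries.coeff_subst_X_pow hk, if_pos (dvd_mul_right _ _),
    Nat.mul_div_cancel_left _ (Nat.pos_of_ne_zero hk)]
  rfl

theorem coeff_subst_X_pow_of_not_dvd {k : ℕ} (hk : k ≠ 0) (g : PowerSeries R) {i : ℕ}
    (hi : ¬ k ∣ i) :
    PowerSeries.coeff i (PowerSeries.subst (PowerSeries.X ^ k : PowerSeries R) g) = 0 := by
  rw [PowerSeries.coeff_subst_X_pow hk, if_neg hi]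

theorem expand_injective {σ : Type*} {k : ℕ} (hk : k ≠ 0) :
    Function.Injective (expand k hk : MvPowerSeries σ R → MvPowerSeries σ R) := fun f g h => by
  ext d
  rw [← coeff_expand_smul k hk f, h, coeff_expand_smul]

theorem coeff_eq_zero_of_derivative_eq_zero [CharP R p] {f : PowerSeries R}
    (hf : PowerSeries.derivative R f = 0) {i : ℕ} (hi : ¬ p ∣ i) : PowerSeries.coeff i f = 0 := by
  rcases i with _ | i
  · exact absurd (dvd_zero p) hi
  have h := congrArg (PowerSeries.coeff i) hf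
  rw [PowerSeries.coeff_derivative, map_zero] at h
  have hu : IsUnit ((i + 1 : ℕ) : R) := by
    obtain ⟨a, b, hab⟩ := Nat.isCoprime_iff_coprime.mpr
      (((Fact.out : p.Prime).coprime_iff_not_dvd).mpr hi)
    have := congrArg (Int.cast : ℤ → R) hab
    push_cast at this
    rw [CharP.cast_eq_zero, mul_zero, zero_add] at this
    exact IsUnit.of_mul_eq_one_right (b : R) (by push_cast; exact this)
  push_cast at hu
  exact hu.mul_left_eq_zero.mp h

/-- If `g(X^{p^n})` is a homomorphism `F → G` then `g` is a homomorphism `F^{(p^n)} → G`. -/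
theorem isFGHom_of_subst_X_pow [CharP R p] {F G : FormalGroup R} {g : PowerSeries R} (n : ℕ)
    (h : IsFGHom F G (PowerSeries.subst (PowerSeries.X ^ p ^ n : PowerSeries R) g)) :
    IsFGHom (F.map (iterateFrobenius R p n)) G g := by
  have hp : p ^ n ≠ 0 := pow_ne_zero _ (Fact.out : p.Prime).ne_zero
  have h0 : PowerSeries.constantCoeff g = 0 := by
    have := h.1
    rwa [constantCoeff_subst1 (by rw [map_pow, PowerSeries.constantCoeff_X, zero_pow hp])] at this
  refine isFGHom_iff.mpr ⟨h0, expand_injective hp ?_⟩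
  have r : ∀ i, (X i ^ p ^ n : MvPowerSeries (Fin 2) R) ∈ (XI (Fin 2) R).radical := fun i =>
    Ideal.pow_mem_of_mem _ (X_mem_XI_radical i) _ (Nat.pos_of_ne_zero hp)
  have e : ∀ f : MvPowerSeries (Fin 2) R, expand (p ^ n) hp f = ev C (fun i => X i ^ p ^ n) f :=
    fun f => by rw [← ev_expand (XI _ R) C X_mem_XI_radical hp, ev_C_X]
  have h1 := ev1_fadd_of_hom (isFGHom_frobenius p F n) (XI (Fin 2) R) C (X_mem_XI_radical 0)
    (X_mem_XI_radical 1)
  have h2 := (isFGHom_iff.mp h).2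
  have rF := mem_XI_radical_of_constantCoeff F.zero_constantCoeff
  rw [ev1_subst_X_pow (XI _ R) C rF hp, ev1_subst_X_pow (XI _ R) C (X_mem_XI_radical 0) hp,
    ev1_subst_X_pow (XI _ R) C (X_mem_XI_radical 1) hp] at h2
  simp only [map_pow, fadd_X_X, ev1_X (XI _ R) C rF, ev1_X (XI _ R) C (X_mem_XI_radical _)] at h1
  rw [e, e, ev_ev1_C (XI _ R) C r (FormalGroup.zero_constantCoeff _),
    ev_fadd G (XI _ R) C r (constantCoeff_ev1_C (by simp) h0) (constantCoeff_ev1_C (by simp) h0),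
    ev_ev1_C (XI _ R) C r (by simp), ev_ev1_C (XI _ R) C r (by simp), ev_X (XI _ R) C r,
    ev_X (XI _ R) C r, ← h2, h1, fadd, ← fun_pair (fun z => z ^ p ^ n), pair_X]

/-- A homomorphism whose coefficients in degrees `p^j`, `j < h`, vanish factors through the
`h`-th power of Frobenius. -/
theorem IsFGHom.exists_frob_factor [CharP R p] {F G : FormalGroup R} {θ : PowerSeries R}
    (hθ : IsFGHom F G θ) (h : ℕ) (hc : ∀ j < h, PowerSeries.coeff (p ^ j) θ = 0) :
    ∃ V : PowerSeries R, θ = PowerSeries.subst (PowerSeries.X ^ p ^ h : PowerSeries R) V ∧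
      IsFGHom (F.map (iterateFrobenius R p h)) G V := by
  have hp : p ≠ 0 := (Fact.out : p.Prime).ne_zero
  suffices ∃ V : PowerSeries R, θ = PowerSeries.subst (PowerSeries.X ^ p ^ h : PowerSeries R) V by
    obtain ⟨V, hV⟩ := this
    exact ⟨V, hV, isFGHom_of_subst_X_pow p h (hV ▸ hθ)⟩
  induction h with
  | zero => exact ⟨θ, by simp [PowerSeries.X_subst]⟩
  | succ h ih =>
    obtain ⟨V, hV⟩ := ih fun j hj => hc j (by omega)
    have hV' := isFGHom_of_subst_X_pow p h (hV ▸ hθ)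
    have h1 : PowerSeries.coeff 1 V = 0 := by
      rw [← coeff_mul_subst_X_pow (pow_ne_zero h hp) V 1, ← hV, mul_one]
      exact hc h (by omega)
    have h2 := exists_eq_subst_X_pow hp fun i hi =>
      coeff_eq_zero_of_derivative_eq_zero p (IsFGHom.derivative_eq_zero hV' h1) hi
    refine ⟨PowerSeries.mk fun i => PowerSeries.coeff (p * i) V, ?_⟩
    rw [hV]
    conv_lhs => rw [h2]
    rw [PowerSeries.subst_comp_subst_apply (PowerSeries.HasSubst.X_pow hp)
      (PowerSeries.HasSubst.X_pow (pow_ne_zero h hp)),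
      PowerSeries.subst_pow (PowerSeries.HasSubst.X_pow (pow_ne_zero h hp)),
      PowerSeries.subst_X (PowerSeries.HasSubst.X_pow (pow_ne_zero h hp)), ← pow_mul, ← pow_succ]

theorem IsFGHom.coeff_eq_zero_of_lt [CharP R p] {F G : FormalGroup R} {θ : PowerSeries R}
    (hθ : IsFGHom F G θ) (h : ℕ) (hc : ∀ j < h, PowerSeries.coeff (p ^ j) θ = 0) {i : ℕ}
    (hi : i < p ^ h) : PowerSeries.coeff i θ = 0 := by
  obtain ⟨V, hV, -⟩ := IsFGHom.exists_frob_factor p hθ h hc
  rcases Nat.eq_zero_or_pos i with rfl | hi0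
  · simpa using hθ.1
  · rw [hV]
    exact coeff_subst_X_pow_of_not_dvd (pow_ne_zero h (Fact.out : p.Prime).ne_zero) V
      (Nat.not_dvd_of_pos_of_lt hi0 hi)

end frob

/-! ## Height ideals over an arbitrary ring -/

section height

variable (p : ℕ) [Fact p.Prime]

/-- The `h`-th height parameter: coefficient of `X^{p^h}` in the `p`-series. -/
noncomputable def hc (F : FormalGroup R) (h : ℕ) : R := PowerSeries.coeff (p ^ h) (mulSeries F p)

/-- The height ideal `(a_0, …, a_{h-1})`. -/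
noncomputable def hI (F : FormalGroup R) (h : ℕ) : Ideal R := Ideal.span (hc p F '' {j | j < h})

omit [Fact p.Prime] in
theorem hc_zero (F : FormalGroup R) : hc p F 0 = p := by
  rw [hc, pow_zero, coeff_one_mulSeries]

omit [Fact p.Prime] in
theorem hc_map (F : FormalGroup R) (ψ : R →+* S) (h : ℕ) : hc p (F.map ψ) h = ψ (hc p F h) := by
  rw [hc, hc, ← map_mulSeries, PowerSeries.coeff_map]

omit [Fact p.Prime] in
theorem hI_map (F : FormalGroup R) (ψ : R →+* S) (h : ℕ) :
    hI p (F.map ψ) h = (hI p F h).map ψ := by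
  rw [hI, hI, Ideal.map_span, Set.image_image]
  simp_rw [← hc_map]

omit [Fact p.Prime] in
theorem hc_mem_hI (F : FormalGroup R) {j h : ℕ} (hj : j < h) : hc p F j ∈ hI p F h :=
  Ideal.subset_span ⟨j, hj, rfl⟩

omit [Fact p.Prime] in
theorem hI_le_iff (F : FormalGroup R) {h : ℕ} {J : Ideal R} :
    hI p F h ≤ J ↔ ∀ j < h, hc p F j ∈ J := by
  rw [hI, Ideal.span_le, Set.image_subset_iff]; rfl

omit [Fact p.Prime] in
theorem hI_zero (F : FormalGroup R) : hI p F 0 = ⊥ := by simp [hI]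

omit [Fact p.Prime] in
theorem hI_succ (F : FormalGroup R) (h : ℕ) :
    hI p F (h + 1) = hI p F h ⊔ Ideal.span {hc p F h} := by
  rw [hI, hI, ← Ideal.span_union, ← Set.image_singleton, ← Set.image_union]
  congr 2
  ext j; simp; omega

omit [Fact p.Prime] in
theorem hI_mono (F : FormalGroup R) : Monotone (hI p F) := fun _ _ h =>
  (hI_le_iff p F).mpr fun _ hj => hc_mem_hI p F (hj.trans_le h)

omit [Fact p.Prime] in
theorem p_mem_hI (F : FormalGroup R) {h : ℕ} (hh : 1 ≤ h) : (p : R) ∈ hI p F h :=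
  hc_zero p F ▸ hc_mem_hI p F hh

theorem heightIdeal_eq_hI (n : ℕ) (H : FormalGroup (LTRing p n)) (h : ℕ) :
    heightIdeal p n H h = hI p H h := by
  induction h with
  | zero => rw [hI_zero]; rfl
  | succ h ih => rw [hI_succ, ← ih]; rfl

theorem charP_of_p_eq_zero [Nontrivial R] (h : (p : R) = 0) : CharP R p :=
  (CharP.charP_iff_prime_eq_zero Fact.out).mpr h

/-- `[p]_F = V(X^{p^h})` with `V : F^{(p^h)} → F` and `V'(0) = a_h` when `I_h(F) = 0`. -/
theorem exists_V [CharP R p] (F : FormalGroup R) [F.IsComm] {h : ℕ} (hF : ∀ j < h, hc p F j = 0) :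
    ∃ V : PowerSeries R,
      mulSeries F p = PowerSeries.subst (PowerSeries.X ^ p ^ h : PowerSeries R) V ∧
      IsFGHom (F.map (iterateFrobenius R p h)) F V ∧ PowerSeries.coeff 1 V = hc p F h := by
  obtain ⟨V, h1, h2⟩ := IsFGHom.exists_frob_factor p (isFGHom_mulSeries F p) h hF
  refine ⟨V, h1, h2, ?_⟩
  rw [hc, h1, ← coeff_mul_subst_X_pow (pow_ne_zero h (Fact.out : p.Prime).ne_zero) V 1, mul_one]

theorem hI_le_iff_coeff (F : FormalGroup R) [F.IsComm] {h : ℕ} {J : Ideal R} :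
    hI p F h ≤ J ↔ ∀ i < p ^ h, PowerSeries.coeff i (mulSeries F p) ∈ J := by
  rw [hI_le_iff]
  refine ⟨fun hJ i hi => ?_, fun hJ j hj => hJ _
    (Nat.pow_lt_pow_right (Fact.out : p.Prime).one_lt hj)⟩
  rcases Nat.eq_zero_or_pos h with rfl | hh
  · obtain rfl : i = 0 := by simpa using hi
    simp [constantCoeff_mulSeries]
  by_cases hJ' : J = ⊤
  · simp [hJ']
  have := Ideal.Quotient.nontrivial_iff.mpr hJ'
  have : CharP (R ⧸ J) p := charP_of_p_eq_zero p (by
    rw [← map_natCast (Ideal.Quotient.mk J), Ideal.Quotient.eq_zero_iff_mem, ← hc_zero p F]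
    exact hJ 0 hh)
  rw [← Ideal.Quotient.eq_zero_iff_mem, ← PowerSeries.coeff_map, map_mulSeries]
  refine IsFGHom.coeff_eq_zero_of_lt p (isFGHom_mulSeries _ p) h (fun j hj => ?_) hi
  rw [← map_mulSeries, PowerSeries.coeff_map, Ideal.Quotient.eq_zero_iff_mem]
  exact hJ j hj

theorem X_pow_dvd_subst {N : ℕ} {f θ : PowerSeries R} (hθ : PowerSeries.constantCoeff θ = 0)
    (hf : PowerSeries.X ^ N ∣ f) : PowerSeries.X ^ N ∣ PowerSeries.subst θ f := by
  rw [← ev1_eq_subst1 hθ, ← Ideal.mem_span_singleton, ← Ideal.span_singleton_pow, ← XI_unit]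
  exact ev1_mem_pow (XI Unit R) _ (mem_XI_unit_radical hθ) (mem_XI.mpr hθ)
    (PowerSeries.X_pow_dvd_iff.mp hf)

theorem dvd_subst {f θ : PowerSeries R} (hθ : PowerSeries.constantCoeff θ = 0)
    (hf : PowerSeries.constantCoeff f = 0) : θ ∣ PowerSeries.subst θ f := by
  rw [← ev1_eq_subst1 hθ, ← Ideal.mem_span_singleton]
  exact ev1_mem (XI Unit R) _ (mem_XI_unit_radical hθ) (Ideal.mem_span_singleton_self _) hf

theorem hI_le_of_iso {F G : FormalGroup R} [F.IsComm] [G.IsComm] {θ : PowerSeries R}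
    (hθ : IsFGHom F G θ) (hu : IsUnit (PowerSeries.coeff 1 θ)) (h : ℕ) : hI p G h ≤ hI p F h := by
  set J := hI p F h
  have h1 := (hI_le_iff_coeff p F (h := h) (J := J)).mp le_rfl
  rw [hI_le_iff_coeff]
  let π := Ideal.Quotient.mk J
  have h2 : PowerSeries.X ^ p ^ h ∣ mulSeries (F.map π) p := by
    rw [PowerSeries.X_pow_dvd_iff, ← map_mulSeries]
    intro i hi
    rw [PowerSeries.coeff_map, Ideal.Quotient.eq_zero_iff_mem]; exact h1 i hi
  have hθ' := IsFGHom.map hθ π
  have hu' : IsUnit (PowerSeries.coeff 1 (PowerSeries.map π θ)) := by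
    rw [PowerSeries.coeff_map]; exact hu.map π
  have h3 := h2.trans (dvd_subst (constantCoeff_mulSeries _ p) hθ'.1)
  rw [IsFGHom.subst_mulSeries hθ'] at h3
  have h4 := X_pow_dvd_subst (θ := (PowerSeries.map π θ).substInvOfIsUnit hu') (by simp) h3
  rw [PowerSeries.subst_comp_subst_apply (PowerSeries.HasSubst.of_constantCoeff_zero' hθ'.1)
    (PowerSeries.HasSubst.substInvOfIsUnit _ hu'),
    PowerSeries.subst_substInvOfIsUnit_right _ hθ'.1 hu', PowerSeries.X_subst,
    PowerSeries.X_pow_dvd_iff, ← map_mulSeries] at h4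
  intro i hi
  have := h4 i hi
  rwa [PowerSeries.coeff_map, Ideal.Quotient.eq_zero_iff_mem] at this

/-- Isomorphic laws have the same height ideals. -/
theorem hI_eq_of_iso {F G : FormalGroup R} [F.IsComm] [G.IsComm] {θ : PowerSeries R}
    (hθ : IsFGHom F G θ) (hu : IsUnit (PowerSeries.coeff 1 θ)) (h : ℕ) : hI p F h = hI p G h :=
  le_antisymm (hI_le_of_iso p (IsFGHom.substInv hθ hu) (by simp) h) (hI_le_of_iso p hθ hu h)

end height

end Crest.Agent.R227
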