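import Crest.Agent.R227.Pt

/-!
# R227/Hom: homomorphisms of formal group laws versus additive maps on points; closure properties,
transport of structure, descent, Frobenius, the limit lemma (helper51)
-/

set_option autoImplicit false

namespace Crest.Agent.R227

open MvPowerSeries Crest.LubinTate

variable {R S T : Type*} [CommRing R] [CommRing S] [CommRing T]

/-! ## Base change of formal group laws -/

theorem map_comp_C {σ : Type*} (ψ : R →+* S) :
    (MvPowerSeries.map ψ : MvPowerSeries σ R →+* _).comp C = C.comp ψ := by ext1 r; simp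

theorem ps_constantCoeff_map (ψ : R →+* S) (f : PowerSeries R) :
    PowerSeries.constantCoeff (PowerSeries.map ψ f) = ψ (PowerSeries.constantCoeff f) := rfl

theorem fg_map_id (F : FormalGroup R) : F.map (RingHom.id R) = F := by ext; simp

theorem fg_map_map (F : FormalGroup R) (ψ : R →+* S) (φ : S →+* T) :
    (F.map ψ).map φ = F.map (φ.comp ψ) := by ext; simp

theorem isComm_of (F : FormalGroup R) (h : fadd F C (X 1) (X 0) = F.toPowerSeries) : F.IsComm :=
  ⟨by rw [← fadd_eq_subst F (by simp) (by simp)]; exact h.symm⟩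

instance isComm_map (F : FormalGroup R) [F.IsComm] (ψ : R →+* S) : (F.map ψ).IsComm := by
  refine isComm_of _ ?_
  rw [fadd_map F (XI _ S) ψ C (X_mem_XI_radical _) (X_mem_XI_radical _),
    fadd_comm F (XI _ S) _ (X_mem_XI_radical _) (X_mem_XI_radical _),
    ← fadd_map F (XI _ S) ψ C (X_mem_XI_radical _) (X_mem_XI_radical _), fadd_X_X]

/-! ## Homomorphisms -/

section hom

variable {F G H : FormalGroup R} {θ η : PowerSeries R}

theorem constantCoeff_ev1_C {τ : Type*} [Finite τ] {b : MvPowerSeries τ R}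
    (hb : constantCoeff b = 0) (hθ : PowerSeries.constantCoeff θ = 0) :
    constantCoeff (ev1 C b θ) = 0 := by
  rw [constantCoeff_ev1 C hb, hθ]; simp

theorem isFGHom_iff : IsFGHom F G θ ↔ PowerSeries.constantCoeff θ = 0 ∧
    ev1 C F.toPowerSeries θ = fadd G C (ev1 C (X 0) θ) (ev1 C (X 1) θ) := by
  refine and_congr_right fun h => ?_
  rw [fadd_eq_subst G (constantCoeff_ev1_C (by simp) h) (constantCoeff_ev1_C (by simp) h),
    ev1_eq_subst F.zero_constantCoeff, ev1_eq_subst (by simp), ev1_eq_subst (by simp)]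

theorem ev_ev1_C {τ : Type*} [Finite τ] (I : Ideal S) [IsAdicComplete I S] (φ : R →+* S)
    {a : τ → S} (ha : ∀ i, a i ∈ I.radical) {b : MvPowerSeries τ R} (hb : constantCoeff b = 0)
    (f : PowerSeries R) : ev φ a (ev1 C b f) = ev1 φ (ev φ a b) f := by
  rw [ev1_eq_subst hb, ev_subst1 I φ ha hb]

/-- A homomorphism of laws is additive on points. -/
theorem ev1_fadd_of_hom (h : IsFGHom F G θ) (I : Ideal S) [IsAdicComplete I S] (φ : R →+* S)
    {x y : S} (hx : x ∈ I.radical) (hy : y ∈ I.radical) :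
    ev1 φ (fadd F φ x y) θ = fadd G φ (ev1 φ x θ) (ev1 φ y θ) := by
  obtain ⟨h0, h1⟩ := isFGHom_iff.mp h
  have ha := pair_mem hx hy
  have h2 := congrArg (ev φ ![x, y]) h1
  rw [ev_ev1_C I φ ha F.zero_constantCoeff, ev_fadd G I φ ha (constantCoeff_ev1_C (by simp) h0)
    (constantCoeff_ev1_C (by simp) h0), ev_ev1_C I φ ha (by simp), ev_ev1_C I φ ha (by simp),
    ev_X I φ ha, ev_X I φ ha] at h2
  exact h2

/-- The map on points induced by a power series without constant term. -/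
noncomputable def Pt.app {R' R'' : Type*} [CommRing R'] [CommRing R''] {F : FormalGroup R'}
    {φ₁ : R' →+* S} {I : Ideal S} [IsAdicComplete I S] (G : FormalGroup R'') (φ₂ : R'' →+* S)
    (φ : R →+* S) (θ : PowerSeries R) (hθ : PowerSeries.constantCoeff θ = 0) (x : Pt F φ₁ I) :
    Pt G φ₂ I :=
  ⟨ev1 φ x.val θ, ev1_mem_radical I φ x.mem hθ⟩

@[simp] theorem Pt.val_app {R' R'' : Type*} [CommRing R'] [CommRing R''] {F : FormalGroup R'}
    {φ₁ : R' →+* S} {I : Ideal S} [IsAdicComplete I S] (G : FormalGroup R'') (φ₂ : R'' →+* S)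
    (φ : R →+* S) (θ : PowerSeries R) (hθ : PowerSeries.constantCoeff θ = 0) (x : Pt F φ₁ I) :
    (Pt.app G φ₂ φ θ hθ x).val = ev1 φ x.val θ := rfl

/-- The additive map on points induced by a homomorphism of laws. -/
noncomputable def homPt (h : IsFGHom F G θ) (φ : R →+* S) (I : Ideal S) [IsAdicComplete I S] :
    Pt F φ I →+ Pt G φ I :=
  AddMonoidHom.mk' (Pt.app G φ φ θ h.1) fun x y => Pt.ext (ev1_fadd_of_hom h I φ x.mem y.mem)

@[simp] theorem val_homPt (h : IsFGHom F G θ) (φ : R →+* S) (I : Ideal S) [IsAdicComplete I S]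
    (x : Pt F φ I) : (homPt h φ I x).val = ev1 φ x.val θ := rfl

/-- The additive map on points induced by a homomorphism between base-changed laws. -/
noncomputable def homPt' {R₁ R₂ : Type*} [CommRing R₁] [CommRing R₂] {F : FormalGroup R₁}
    {G : FormalGroup R₂} {ψ₁ : R₁ →+* R} {ψ₂ : R₂ →+* R} (h : IsFGHom (F.map ψ₁) (G.map ψ₂) θ)
    (φ : R →+* S) {φ₁ : R₁ →+* S} {φ₂ : R₂ →+* S} (h₁ : φ.comp ψ₁ = φ₁) (h₂ : φ.comp ψ₂ = φ₂)
    (I : Ideal S) [IsAdicComplete I S] : Pt F φ₁ I →+ Pt G φ₂ I :=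
  AddMonoidHom.mk' (Pt.app G φ₂ φ θ h.1) fun x y => Pt.ext <| by
    have := ev1_fadd_of_hom h I φ x.mem y.mem
    rw [fadd_map F I ψ₁ φ x.mem y.mem, fadd_map G I ψ₂ φ (ev1_mem_radical I φ x.mem h.1)
      (ev1_mem_radical I φ y.mem h.1), h₁, h₂] at this
    exact this

@[simp] theorem val_homPt' {R₁ R₂ : Type*} [CommRing R₁] [CommRing R₂] {F : FormalGroup R₁}
    {G : FormalGroup R₂} {ψ₁ : R₁ →+* R} {ψ₂ : R₂ →+* R} (h : IsFGHom (F.map ψ₁) (G.map ψ₂) θ)
    (φ : R →+* S) {φ₁ : R₁ →+* S} {φ₂ : R₂ →+* S} (h₁ : φ.comp ψ₁ = φ₁) (h₂ : φ.comp ψ₂ = φ₂)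
    (I : Ideal S) [IsAdicComplete I S] (x : Pt F φ₁ I) :
    (homPt' h φ h₁ h₂ I x).val = ev1 φ x.val θ := rfl

theorem Pt.val_univ_add (F : FormalGroup R) :
    (Pt.univ F (0 : Fin 2) + Pt.univ F 1).val = F.toPowerSeries := fadd_X_X F

/-- A power series inducing an additive map on the points with values in `R[[X₀, X₁]]` is a
homomorphism. -/
theorem isFGHom_of_addHom (h0 : PowerSeries.constantCoeff θ = 0)
    (A : Pt F C (XI (Fin 2) R) →+ Pt G C (XI (Fin 2) R)) (hA : ∀ x, (A x).val = ev1 C x.val θ) :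
    IsFGHom F G θ := by
  refine isFGHom_iff.mpr ⟨h0, ?_⟩
  have := congrArg Pt.val (A.map_add (Pt.univ F 0) (Pt.univ F 1))
  rwa [hA, Pt.val_univ_add, Pt.val_add, hA, hA] at this

theorem IsFGHom.map (h : IsFGHom F G θ) (ψ : R →+* S) :
    IsFGHom (F.map ψ) (G.map ψ) (PowerSeries.map ψ θ) := by
  have h0 : PowerSeries.constantCoeff (PowerSeries.map ψ θ) = 0 := by
    rw [ps_constantCoeff_map, h.1, map_zero]
  refine isFGHom_of_addHom h0
    ((Pt.map (RingHom.id _) (by ext; simp) (fun _ h => h)).comp ((homPt h (C.comp ψ) _).comp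
      (Pt.map (RingHom.id _) (by ext; simp) (fun _ h => h)))) fun x => ?_
  rw [ev1_map (XI _ S) ψ C x.mem]; rfl

theorem IsFGHom.of_map {ψ : R →+* S} (hψ : Function.Injective ψ)
    (h : IsFGHom (F.map ψ) (G.map ψ) (PowerSeries.map ψ θ)) : IsFGHom F G θ := by
  have h0 : PowerSeries.constantCoeff θ = 0 := hψ (by
    rw [← ps_constantCoeff_map, h.1, map_zero])
  refine isFGHom_iff.mpr ⟨h0, ?_⟩
  have hinj : Function.Injective (MvPowerSeries.map ψ : MvPowerSeries (Fin 2) R →+* _) :=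
    fun f g hfg => by ext d; apply hψ; simpa using congrArg (coeff d) hfg
  have r : ∀ {f : MvPowerSeries (Fin 2) R}, constantCoeff f = 0 →
      MvPowerSeries.map ψ f ∈ (XI (Fin 2) S).radical := fun hf =>
    mem_XI_radical_of_constantCoeff (by rw [constantCoeff_map, hf, map_zero])
  have e : ∀ {f : MvPowerSeries (Fin 2) R}, constantCoeff f = 0 →
      MvPowerSeries.map ψ (ev1 C f θ) = ev1 C (MvPowerSeries.map ψ f) (PowerSeries.map ψ θ) :=
    fun hf => by
      rw [map_ev1 (XI _ R) (XI _ S) C (mem_XI_radical_of_constantCoeff hf) _ (r hf),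
        ev1_map (XI _ S) ψ C (r hf), map_comp_C]
  have c0 : constantCoeff (ev1 C (X 0 : MvPowerSeries (Fin 2) R) θ) = 0 :=
    constantCoeff_ev1_C (by simp) h0
  have c1 : constantCoeff (ev1 C (X 1 : MvPowerSeries (Fin 2) R) θ) = 0 :=
    constantCoeff_ev1_C (by simp) h0
  apply hinj
  rw [map_fadd G (XI _ R) (XI _ S) C (mem_XI_radical_of_constantCoeff c0)
    (mem_XI_radical_of_constantCoeff c1) _ (r c0) (r c1), map_comp_C,
    ← fadd_map G (XI _ S) ψ C (r c0) (r c1), e F.zero_constantCoeff, e (by simp), e (by simp),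
    map_X, map_X]
  exact (isFGHom_iff.mp h).2

theorem isFGHom_X (F : FormalGroup R) : IsFGHom F F PowerSeries.X :=
  isFGHom_of_addHom (by simp) (AddMonoidHom.id _) fun x => (ev1_X (XI _ R) C x.mem).symm

theorem isFGHom_zero (F G : FormalGroup R) : IsFGHom F G 0 :=
  isFGHom_of_addHom (by simp) 0 fun x => by simp

theorem eq_of_isFGHom_X (h : IsFGHom F G PowerSeries.X) : F = G := by
  have := (isFGHom_iff.mp h).2
  rw [ev1_X (XI _ R) C (mem_XI_radical_of_constantCoeff F.zero_constantCoeff),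
    ev1_X (XI _ R) C (X_mem_XI_radical _), ev1_X (XI _ R) C (X_mem_XI_radical _), fadd_X_X] at this
  exact FormalGroup.ext this

/-- Composition `η ∘ θ`. -/
theorem IsFGHom.comp (h' : IsFGHom G H η) (h : IsFGHom F G θ) :
    IsFGHom F H (PowerSeries.subst θ η) :=
  isFGHom_of_addHom (by rw [constantCoeff_subst1 h.1, h'.1]) ((homPt h' C _).comp (homPt h C _))
    fun x => (ev1_subst1 (XI _ R) C x.mem h.1 η).symm

theorem isFGHom_mulSeries (F : FormalGroup R) [F.IsComm] (m : ℕ) : IsFGHom F F (mulSeries F m) :=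
  isFGHom_of_addHom (constantCoeff_mulSeries F m) (nsmulAddMonoidHom m) fun x => Pt.val_nsmul x m

/-- Homomorphisms commute with `m`-series. -/
theorem IsFGHom.subst_mulSeries (h : IsFGHom F G θ) (m : ℕ) :
    PowerSeries.subst (mulSeries F m) θ = PowerSeries.subst θ (mulSeries G m) := by
  have := congrArg Pt.val (map_nsmul (homPt h C (XI Unit R)) m (Pt.univ F ()))
  rw [val_homPt, Pt.val_nsmul (homPt h C _ _), ← mulSeries_eq_val, val_homPt] at this
  rw [← ev1_eq_subst1 (constantCoeff_mulSeries F m), ← ev1_eq_subst1 h.1]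
  refine this.trans ?_
  congr 2
  exact ev1_C_X θ

/-- Evaluation at a point `x`, as an additive map from `G(R[[X]])` to `G(S)`. -/
noncomputable def evalPt (G : FormalGroup R) {τ : Type*} [Finite τ] (φ : R →+* S) (I : Ideal S)
    [IsAdicComplete I S] {a : τ → S} (ha : ∀ i, a i ∈ I.radical) :
    Pt G C (XI τ R) →+ Pt G φ I :=
  Pt.map (ev φ a) (by rw [ev_comp_C]) fun f hf =>
    ev_mem_radical' I φ ha (by
      obtain ⟨k, hk⟩ := mem_XI_radical.mp hf
      exact ⟨k, by rw [← map_pow, hk, map_zero]; exact I.zero_mem⟩)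

@[simp] theorem val_evalPt (G : FormalGroup R) {τ : Type*} [Finite τ] (φ : R →+* S) (I : Ideal S)
    [IsAdicComplete I S] {a : τ → S} (ha : ∀ i, a i ∈ I.radical) (f : Pt G C (XI τ R)) :
    (evalPt G φ I ha f).val = ev φ a f.val := rfl

variable (F G) in
/-- `Hom(F, G)` as a subgroup of the points of `G` with values in `R[[X]]`. -/
noncomputable def homGrp [G.IsComm] : AddSubgroup (Pt G C (XI Unit R)) where
  carrier := {θ | IsFGHom F G θ.val}
  zero_mem' := isFGHom_zero F G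
  add_mem' := fun {θ η} hθ hη => isFGHom_of_addHom (constantCoeff_fadd G _ hθ.1 hη.1)
    (homPt hθ C _ + homPt hη C _) fun x => by
      rw [AddMonoidHom.add_apply, Pt.val_add, Pt.val_add, val_homPt, val_homPt]
      exact (ev1_fadd G (XI _ R) C x.mem hθ.1 hη.1).symm
  neg_mem' := fun {θ} hθ => isFGHom_of_addHom
    (mem_XI.mp ((Pt.val_neg_mem_iff θ).mpr (mem_XI.mpr hθ.1))) (-homPt hθ C (XI (Fin 2) R)) fun x => by
      have h1 : homPt hθ C _ x = evalPt G C (XI _ R) (a := fun _ : Unit => x.val)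
        (fun _ => x.mem) θ := rfl
      rw [AddMonoidHom.neg_apply, h1, ← map_neg]; rfl

theorem mem_homGrp [G.IsComm] {θ : Pt G C (XI Unit R)} : θ ∈ homGrp F G ↔ IsFGHom F G θ.val :=
  Iff.rfl

theorem IsFGHom.add [G.IsComm] (h : IsFGHom F G θ) (h' : IsFGHom F G η) :
    IsFGHom F G (fadd G PowerSeries.C θ η) :=
  (homGrp F G).add_mem (x := Pt.ofSeries G θ h.1) (y := Pt.ofSeries G η h'.1) h h'

/-- The inverse series of an isomorphism is a homomorphism. -/
theorem IsFGHom.inv (h : IsFGHom F G θ) (h0 : PowerSeries.constantCoeff η = 0)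
    (h1 : PowerSeries.subst η θ = PowerSeries.X) (h2 : PowerSeries.subst θ η = PowerSeries.X) :
    IsFGHom G F η := by
  let e : Pt F C (XI (Fin 2) R) ≃+ Pt G C (XI (Fin 2) R) :=
    { homPt h C _ with
      invFun := Pt.app F C C η h0
      left_inv := fun x => Pt.ext <| by
        change ev1 C (ev1 C x.val θ) η = x.val
        rw [← ev1_subst1 (XI _ R) C x.mem h.1, h2, ev1_X (XI _ R) C x.mem]
      right_inv := fun x => Pt.ext <| by
        change ev1 C (ev1 C x.val η) θ = x.val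
        rw [← ev1_subst1 (XI _ R) C x.mem h0, h1, ev1_X (XI _ R) C x.mem] }
  exact isFGHom_of_addHom h0 e.symm.toAddMonoidHom fun _ => rfl

theorem IsFGHom.substInv (h : IsFGHom F G θ) (hu : IsUnit (PowerSeries.coeff 1 θ)) :
    IsFGHom G F (θ.substInvOfIsUnit hu) :=
  IsFGHom.inv h (by simp) (θ.subst_substInvOfIsUnit_right h.1 hu)
    (θ.subst_substInvOfIsUnit_left h.1 hu)

/-- An isomorphism of laws is bijective on points. -/
theorem homPt_bijective (h : IsFGHom F G θ) (hu : IsUnit (PowerSeries.coeff 1 θ)) (φ : R →+* S)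
    (I : Ideal S) [IsAdicComplete I S] : Function.Bijective (homPt h φ I) := by
  refine Function.bijective_iff_has_inverse.mpr ⟨homPt (IsFGHom.substInv h hu) φ I,
    fun x => Pt.ext ?_, fun x => Pt.ext ?_⟩
  · rw [val_homPt, val_homPt, ← ev1_subst1 I φ x.mem h.1, θ.subst_substInvOfIsUnit_left h.1 hu,
      ev1_X I φ x.mem]
  · rw [val_homPt, val_homPt, ← ev1_subst1 I φ x.mem (by simp),
      θ.subst_substInvOfIsUnit_right h.1 hu, ev1_X I φ x.mem]

/-- Homomorphisms to the additive group. -/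
theorem fadd_Ga (I : Ideal S) [IsAdicComplete I S] (φ : R →+* S) {x y : S} (hx : x ∈ I.radical)
    (hy : y ∈ I.radical) : fadd FormalGroup.𝔾ₐ φ x y = x + y := by
  simp [fadd, ev_X I φ (pair_mem hx hy)]

theorem isFGHom_Ga_iff : IsFGHom F FormalGroup.𝔾ₐ θ ↔ PowerSeries.constantCoeff θ = 0 ∧
    ev1 C F.toPowerSeries θ = ev1 C (X 0) θ + ev1 C (X 1) θ := by
  rw [isFGHom_iff]
  refine and_congr_right fun h => ?_
  rw [fadd_Ga (XI _ R) C (mem_XI_radical_of_constantCoeff (constantCoeff_ev1_C (by simp) h))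
    (mem_XI_radical_of_constantCoeff (constantCoeff_ev1_C (by simp) h))]

/-- The Frobenius `X^{p^n} : F → F^{(p^n)}`. -/
theorem isFGHom_frobenius (p : ℕ) [Fact p.Prime] [CharP R p] (F : FormalGroup R) (n : ℕ) :
    IsFGHom F (F.map (iterateFrobenius R p n)) (PowerSeries.X ^ p ^ n) := by
  have hp : p ^ n ≠ 0 := pow_ne_zero _ (Fact.out : p.Prime).ne_zero
  have : CharP (MvPowerSeries (Fin 2) R) p := charP_of_injective_ringHom C_injective p
  refine isFGHom_iff.mpr ⟨by rw [map_pow, PowerSeries.constantCoeff_X, zero_pow hp], ?_⟩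
  have r : ∀ i, (X i ^ p ^ n : MvPowerSeries (Fin 2) R) ∈ (XI (Fin 2) R).radical := fun i =>
    Ideal.pow_mem_of_mem _ (X_mem_XI_radical i) _ (Nat.pos_of_ne_zero hp)
  simp only [map_pow, ev1_X (XI _ R) C (mem_XI_radical_of_constantCoeff F.zero_constantCoeff),
    ev1_X (XI _ R) C (X_mem_XI_radical _)]
  rw [fadd_map F (XI _ R) _ C (r 0) (r 1)]
  conv_lhs => rw [← ev_C_X F.toPowerSeries]
  rw [ev_pow_char p (XI _ R) C X_mem_XI_radical, fadd]
  congr 2
  · ext1 r; simp [iterateFrobenius_def]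
  · ext1 i; fin_cases i <;> rfl

end hom

/-! ## Constructing formal group laws -/

section construct

/-- A constructor of formal group laws with associativity in `ev` form. -/
noncomputable def mkFG (F : MvPowerSeries (Fin 2) R) (h0 : constantCoeff F = 0)
    (h1 : coeff (Finsupp.single 0 1) F = 1) (h2 : coeff (Finsupp.single 1 1) F = 1)
    (h : ev C ![ev C ![(X 0 : MvPowerSeries (Fin 3) R), X 1] F, X 2] F =
      ev C ![X 0, ev C ![(X 1 : MvPowerSeries (Fin 3) R), X 2] F] F) : FormalGroup R where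
  toPowerSeries := F
  zero_constantCoeff := h0
  lin_coeff_X := h1
  lin_coeff_Y := h2
  assoc := by
    have c : ∀ i j : Fin 3, ∀ k, constantCoeff
        (![(X i : MvPowerSeries (Fin 3) R), X j] k) = 0 := fun i j k => by fin_cases k <;> simp
    have c' : ∀ i j : Fin 3, constantCoeff (ev C ![(X i : MvPowerSeries (Fin 3) R), X j] F) = 0 :=
      fun i j => by rw [constantCoeff_ev C (c i j), h0]; simp
    rw [← ev_eq_subst (c 0 1), ← ev_eq_subst (c 1 2),
      ← ev_eq_subst (fun k => by fin_cases k <;> simp [c']),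
      ← ev_eq_subst (fun k => by fin_cases k <;> simp [c']), h]

/-- Transport of structure: the law `θ⁻¹ (G (θ X, θ Y))`. -/
theorem exists_transport (G : FormalGroup R) {θ : PowerSeries R}
    (h0 : PowerSeries.constantCoeff θ = 0) (hu : IsUnit (PowerSeries.coeff 1 θ)) :
    ∃ F : FormalGroup R, IsFGHom F G θ := by
  obtain ⟨η, hη0, hη1, hη2, hη3⟩ : ∃ η : PowerSeries R, PowerSeries.constantCoeff η = 0 ∧
      PowerSeries.subst η θ = PowerSeries.X ∧ PowerSeries.subst θ η = PowerSeries.X ∧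
      PowerSeries.coeff 1 η * PowerSeries.coeff 1 θ = 1 :=
    ⟨θ.substInvOfIsUnit hu, by simp, θ.subst_substInvOfIsUnit_right h0 hu,
      θ.subst_substInvOfIsUnit_left h0 hu, by simp⟩
  have c : ∀ i : Fin 2, constantCoeff (ev1 C (X i : MvPowerSeries (Fin 2) R) θ) = 0 := fun i =>
    constantCoeff_ev1_C (by simp) h0
  have c2 := constantCoeff_fadd G C (c 0) (c 1)
  let F : MvPowerSeries (Fin 2) R := ev1 C (fadd G C (ev1 C (X 0) θ) (ev1 C (X 1) θ)) η
  have hF0 : constantCoeff F = 0 := constantCoeff_ev1_C c2 hη0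
  have hF : ∀ {x y : MvPowerSeries (Fin 3) R}, x ∈ (XI _ R).radical → y ∈ (XI _ R).radical →
      ev C ![x, y] F = ev1 C (fadd G C (ev1 C x θ) (ev1 C y θ)) η := fun {x y} hx hy => by
    have ha := pair_mem hx hy
    rw [ev_ev1_C (XI _ R) C ha c2, ev_fadd G (XI _ R) C ha (c 0) (c 1),
      ev_ev1_C (XI _ R) C ha (by simp), ev_ev1_C (XI _ R) C ha (by simp), ev_X (XI _ R) C ha,
      ev_X (XI _ R) C ha]
    rfl
  have hinv : ∀ {τ : Type} [Finite τ] {x : MvPowerSeries τ R}, x ∈ (XI _ R).radical →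
      ev1 C (ev1 C x η) θ = x := fun {τ} _ {x} hx => by
    rw [← ev1_subst1 (XI _ R) C hx hη0, hη1, ev1_X (XI _ R) C hx]
  have lin : ∀ j : Fin 2, coeff (Finsupp.single j 1) F = 1 := fun j => by
    have e1 := coeff_single_ev1 (RingHom.id R) c2 η j
    have e2 := coeff_single_ev (RingHom.id R) (b := ![ev1 C (X 0) θ, ev1 C (X 1) θ])
      (fun i => by fin_cases i <;> simp [c]) G.toPowerSeries j
    have e3 : ∀ i : Fin 2, coeff (Finsupp.single j 1) (ev1 C (X i : MvPowerSeries (Fin 2) R) θ) =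
        PowerSeries.coeff 1 θ * coeff (Finsupp.single j 1) (X i : MvPowerSeries (Fin 2) R) :=
      fun i => coeff_single_ev1 (RingHom.id R) (by simp) θ j
    rw [RingHom.comp_id] at e1 e2
    rw [Fin.sum_univ_two, G.lin_coeff_X, G.lin_coeff_Y] at e2
    refine e1.trans ?_
    rw [fadd, e2]
    simp only [Matrix.cons_val_zero, Matrix.cons_val_one, e3, coeff_index_single_X]
    fin_cases j <;> simpa using hη3
  have r := X_mem_XI_radical (σ := Fin 3) (R := R)
  have rθ := fun i => ev1_mem_radical (XI (Fin 3) R) C (r i) h0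
  have ra := fun i j => fadd_mem_radical G (XI (Fin 3) R) C (rθ i) (rθ j)
  refine ⟨mkFG F hF0 (lin 0) (lin 1) ?_, isFGHom_iff.mpr ⟨h0, ?_⟩⟩
  · rw [hF (r 0) (r 1), hF (r 1) (r 2), hF (ev1_mem_radical _ C (ra 0 1) hη0) (r 2),
      hF (r 0) (ev1_mem_radical _ C (ra 1 2) hη0), hinv (ra 0 1), hinv (ra 1 2),
      fadd_assoc G (XI _ R) C (rθ 0) (rθ 1) (rθ 2)]
  · exact hinv (mem_XI_radical_of_constantCoeff c2)

/-- A law with an isomorphism to a commutative law is commutative. -/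
theorem isComm_of_isFGHom {F G : FormalGroup R} [G.IsComm] {θ : PowerSeries R}
    (h : IsFGHom F G θ) (hu : IsUnit (PowerSeries.coeff 1 θ)) : F.IsComm := by
  refine isComm_of F ?_
  have := (homPt_bijective h hu C (XI (Fin 2) R)).1
    (a₁ := Pt.univ F 1 + Pt.univ F 0) (a₂ := Pt.univ F 0 + Pt.univ F 1)
    (by rw [map_add, map_add, add_comm])
  rw [← Pt.val_univ_add, ← this]; rfl

/-- The source of an isomorphism is determined by the target. -/
theorem eq_of_isFGHom {F F' G : FormalGroup R} {θ : PowerSeries R} (h : IsFGHom F G θ)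
    (h' : IsFGHom F' G θ) (hu : IsUnit (PowerSeries.coeff 1 θ)) : F = F' := by
  have := IsFGHom.comp (IsFGHom.substInv h' hu) h
  rw [θ.subst_substInvOfIsUnit_left h.1 hu] at this
  exact eq_of_isFGHom_X this

theorem mvmap_injective {σ : Type*} {ψ : R →+* S} (hψ : Function.Injective ψ) :
    Function.Injective (MvPowerSeries.map ψ : MvPowerSeries σ R →+* _) :=
  fun f g hfg => by ext d; apply hψ; simpa using congrArg (coeff d) hfg

theorem exists_mvmap_eq {σ : Type*} (ψ : R →+* S) {f : MvPowerSeries σ S}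
    (hf : ∀ d, coeff d f ∈ ψ.range) : ∃ g : MvPowerSeries σ R, MvPowerSeries.map ψ g = f := by
  choose g hg using hf
  exact ⟨g, by ext d; exact hg d⟩

theorem exists_psmap_eq (ψ : R →+* S) {f : PowerSeries S}
    (hf : ∀ d, PowerSeries.coeff d f ∈ ψ.range) :
    ∃ g : PowerSeries R, PowerSeries.map ψ g = f := by
  choose g hg using hf
  exact ⟨PowerSeries.mk g, by ext d; simpa using hg d⟩

/-- Descent of a law along an injective ring hom. -/
theorem exists_fg_map_eq {ψ : R →+* S} (hψ : Function.Injective ψ) (F : FormalGroup S)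
    (hF : ∀ d, coeff d F.toPowerSeries ∈ ψ.range) : ∃ F₀ : FormalGroup R, F₀.map ψ = F := by
  obtain ⟨g, hg⟩ := exists_mvmap_eq ψ hF
  have h0 : constantCoeff g = 0 := hψ (by rw [← constantCoeff_map, hg, F.zero_constantCoeff,
    map_zero])
  have e : ∀ {x y : MvPowerSeries (Fin 3) R}, constantCoeff x = 0 → constantCoeff y = 0 →
      MvPowerSeries.map ψ (ev C ![x, y] g) = fadd F C (map ψ x) (map ψ y) := fun {x y} hx hy => by
    have r : ∀ i, MvPowerSeries.map ψ (![x, y] i) ∈ (XI (Fin 3) S).radical := fun i =>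
      mem_XI_radical_of_constantCoeff (by fin_cases i <;> simp [hx, hy])
    rw [map_ev (XI _ R) (XI _ S) C (pair_mem (mem_XI_radical_of_constantCoeff hx)
      (mem_XI_radical_of_constantCoeff hy)) _ r, map_comp_C, ← ev_map (XI _ S) ψ C r, hg,
      fun_pair, fadd]
  have c' : ∀ i j : Fin 3, constantCoeff (ev C ![(X i : MvPowerSeries (Fin 3) R), X j] g) = 0 :=
    fun i j => by rw [constantCoeff_ev C (fun k => by fin_cases k <;> simp), h0]; simp
  refine ⟨mkFG g h0 (hψ ?_) (hψ ?_) (mvmap_injective hψ ?_), FormalGroup.ext hg⟩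
  · rw [← coeff_map, hg, F.lin_coeff_X, map_one]
  · rw [← coeff_map, hg, F.lin_coeff_Y, map_one]
  · rw [e (c' 0 1) (by simp), e (by simp) (c' 1 2), e (by simp) (by simp), e (by simp) (by simp)]
    simp only [map_X]
    exact fadd_assoc F (XI _ S) C (X_mem_XI_radical _) (X_mem_XI_radical _) (X_mem_XI_radical _)

theorem isComm_of_map {ψ : R →+* S} (hψ : Function.Injective ψ) (F : FormalGroup R)
    [(F.map ψ).IsComm] : F.IsComm := by
  refine isComm_of F (mvmap_injective hψ ?_)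
  have r : ∀ i, MvPowerSeries.map ψ (X i : MvPowerSeries (Fin 2) R) ∈ (XI (Fin 2) S).radical :=
    fun i => by rw [map_X]; exact X_mem_XI_radical i
  rw [map_fadd F (XI _ R) (XI _ S) C (X_mem_XI_radical _) (X_mem_XI_radical _) _ (r 1) (r 0),
    map_comp_C, ← fadd_map F (XI _ S) ψ C (r 1) (r 0), fadd_comm _ (XI _ S) C (r 1) (r 0),
    map_X, map_X, fadd_X_X]
  rfl

end construct

/-! ## Limits of points -/

section limits

variable {F : FormalGroup R} {φ : R →+* S} {I : Ideal S} [IsAdicComplete I S]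

theorem Lim.mem_radical {S : Type*} [CommRing S] {I : Ideal S} {f : ℕ → S} {L : S} (h : Lim I f L)
    (hf : ∀ n, f n ∈ I.radical) : L ∈ I.radical :=
  h.mem (closedFor_of_pow_le (k := 1) (by rw [pow_one]; exact Ideal.le_radical)) hf

theorem Lim.ev {σ : Type*} [Fintype σ] (φ : R →+* S) {a : ℕ → σ → S} {L : σ → S}
    (h : ∀ i, Lim I (fun n => a n i) (L i)) (ha : ∀ n i, a n i ∈ I.radical)
    (f : MvPowerSeries σ R) : Lim I (fun n => ev φ (a n) f) (ev φ L f) := fun N => by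
  choose u hu using fun i => h i N
  refine ⟨Finset.univ.sup u, fun n hn => ?_⟩
  exact ev_sub_ev_mem I φ (fun i => (h i).mem_radical fun n => ha n i) (ha n)
    (fun i => hu i n ((Finset.le_sup (f := u) (Finset.mem_univ i)).trans hn)) f

theorem Lim.ev1 (φ : R →+* S) {a : ℕ → S} {L : S} (h : Lim I a L) (ha : ∀ n, a n ∈ I.radical)
    (f : PowerSeries R) : Lim I (fun n => ev1 φ (a n) f) (ev1 φ L f) :=
  Lim.ev φ (a := fun n (_ : Unit) => a n) (fun _ => h) (fun n _ => ha n) f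

/-- Convergence of points. -/
def PLim (a : ℕ → Pt F φ I) (L : Pt F φ I) : Prop := Lim I (fun n => (a n).val) L.val

omit [IsAdicComplete I S] in
theorem PLim.unique [IsHausdorff I S] {a : ℕ → Pt F φ I} {L L' : Pt F φ I} (h : PLim a L)
    (h' : PLim a L') : L = L' := Pt.ext (Lim.unique h h')

theorem plim_iff [F.IsComm] {a : ℕ → Pt F φ I} {L : Pt F φ I} :
    PLim a L ↔ ∀ N : ℕ, ∃ n₀, ∀ n, n₀ ≤ n → L - a n ∈ Pt.sub F φ I (I ^ N) := by
  simp only [PLim, Lim, Pt.mem_sub, Pt.val_sub_mem_iff]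

theorem PLim.add [F.IsComm] {a b : ℕ → Pt F φ I} {L M : Pt F φ I} (h : PLim a L) (h' : PLim b M) :
    PLim (fun n => a n + b n) (L + M) := by
  rw [plim_iff] at h h' ⊢
  intro N
  obtain ⟨u, hu⟩ := h N
  obtain ⟨v, hv⟩ := h' N
  refine ⟨max u v, fun n hn => ?_⟩
  have := AddSubgroup.add_mem _ (hu n (le_of_max_le_left hn)) (hv n (le_of_max_le_right hn))
  convert this using 1; abel

theorem PLim.neg [F.IsComm] {a : ℕ → Pt F φ I} {L : Pt F φ I} (h : PLim a L) :
    PLim (fun n => -a n) (-L) := by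
  rw [plim_iff] at h ⊢
  intro N
  obtain ⟨u, hu⟩ := h N
  refine ⟨u, fun n hn => ?_⟩
  have := AddSubgroup.neg_mem _ (hu n hn)
  convert this using 1; abel

theorem PLim.nsmul {a : ℕ → Pt F φ I} {L : Pt F φ I} (h : PLim a L) (m : ℕ) :
    PLim (fun n => m • a n) (m • L) := by
  simp only [PLim, Pt.val_nsmul]
  exact Lim.ev1 φ h (fun n => (a n).mem) _

omit [IsAdicComplete I S] in
theorem PLim.shift {a : ℕ → Pt F φ I} {L : Pt F φ I} (h : PLim a L) (k : ℕ) :
    PLim (fun n => a (n + k)) L := Lim.shift h k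

omit [IsAdicComplete I S] in
theorem PLim.const (L : Pt F φ I) : PLim (fun _ => L) L := Lim.const I _

theorem exists_PLim [F.IsComm] (a : ℕ → Pt F φ I)
    (h : ∀ N, ∃ n₀, ∀ n, n₀ ≤ n → a (n + 1) - a n ∈ Pt.sub F φ I (I ^ N)) : ∃ L, PLim a L := by
  obtain ⟨L, hL⟩ := exists_Lim I (fun n => (a n).val)
    (by simpa only [Pt.mem_sub, Pt.val_sub_mem_iff] using h)
  exact ⟨⟨L, hL.mem_radical fun n => (a n).mem⟩, hL⟩

/-- `[m]` maps points with coordinate in `𝔞 * 𝔟`-style ideals: if `m ∈ 𝔞` and `x ∈ 𝔟 ≤ 𝔞` then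
`[m] x ∈ 𝔞 𝔟`. -/
theorem Pt.val_nsmul_mem_mul {𝔞 𝔟 : Ideal S} {m : ℕ} (hm : (m : S) ∈ 𝔞) (h : 𝔟 ≤ 𝔞)
    {x : Pt F φ I} (hx : x.val ∈ 𝔟) : (m • x).val ∈ 𝔞 * 𝔟 := by
  have := Ideal.add_mem _ (Ideal.mul_mono_left h (Pt.val_nsmul_sub_mem hx m))
    (Ideal.mul_mem_mul hm hx)
  simpa using this

theorem Pt.val_pow_nsmul_mem {𝔞 𝔟 : Ideal S} {m : ℕ} (hm : (m : S) ∈ 𝔞) (h : 𝔟 ≤ 𝔞)
    {x : Pt F φ I} (hx : x.val ∈ 𝔟) (k : ℕ) : (m ^ k • x).val ∈ 𝔞 ^ k * 𝔟 := by
  induction k with
  | zero => simpa using hx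
  | succ k ih =>
    rw [pow_succ' m, mul_nsmul', pow_succ', mul_assoc]
    exact Pt.val_nsmul_mem_mul hm (le_trans (Ideal.mul_le_right (I := 𝔞 ^ k) (J := 𝔟)) h) ih

/-- **Limit lemma.** If `m ∈ I` and `[m] a_{k+1} ≡ a_k mod I`, then `[m^k] a_k` converges, and the
limit is congruent to `[m^k] a_k` modulo `I^{k+1}`. -/
theorem exists_lim_pow_nsmul [F.IsComm] {m : ℕ} (hm : (m : S) ∈ I) (a : ℕ → Pt F φ I)
    (h : ∀ k, (m • a (k + 1)).val - (a k).val ∈ I) :
    ∃ L : Pt F φ I, ∀ k, L.val - (m ^ k • a k).val ∈ I ^ (k + 1) := by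
  have h1 : ∀ k, (m ^ (k + 1) • a (k + 1)).val - (m ^ k • a k).val ∈ I ^ (k + 1) := fun k => by
    rw [← Pt.val_sub_mem_iff, pow_succ m, mul_nsmul', ← nsmul_sub, pow_succ]
    exact Pt.val_pow_nsmul_mem hm le_rfl ((Pt.val_sub_mem_iff _ _).mpr (h k)) k
  obtain ⟨L, hL⟩ := exists_lim I (fun k => (m ^ k • a k).val)
    (fun k => Ideal.pow_le_pow_right (Nat.le_succ k) (h1 k))
  refine ⟨⟨L, (Lim.of_mem hL).mem_radical fun n => (m ^ n • a n).mem⟩, fun k => ?_⟩
  have := Ideal.add_mem _ (hL (k + 1)) (h1 k)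
  simpa using this

end limits

end Crest.Agent.R227
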