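import Crest.Agent.R227.Compl
import Crest.Prelude.Def_LubinTate

/-!
# R227/Pt: the group of points of a formal group law with values in an adically complete ring;
homomorphisms, `m`-series (helper51)
-/

set_option autoImplicit false

namespace Crest.Agent.R227

open MvPowerSeries Crest.LubinTate

variable {R S T : Type*} [CommRing R] [CommRing S] [CommRing T]

/-! ## Linear coefficients of formal evaluations -/

theorem constantCoeff_ev {σ τ : Type*} [Finite σ] [Finite τ] (ψ : R →+* MvPowerSeries τ S)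
    {b : σ → MvPowerSeries τ S} (hb : ∀ i, constantCoeff (b i) = 0) (f : MvPowerSeries σ R) :
    constantCoeff (ev ψ b f) = constantCoeff (ψ (constantCoeff f)) := by
  rw [map_ev (XI τ S) ⊥ ψ (fun i => mem_XI_radical_of_constantCoeff (hb i)) constantCoeff
    (fun i => by rw [hb]; exact Ideal.zero_mem _)]
  simp_rw [hb]
  rw [ev_zero]; rfl

theorem coeff_single_ev {σ τ : Type*} [Fintype σ] [Finite τ] (φ : R →+* S)
    {b : σ → MvPowerSeries τ S} (hb : ∀ i, constantCoeff (b i) = 0) (f : MvPowerSeries σ R)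
    (j : τ) : coeff (Finsupp.single j 1) (ev ((C : S →+* MvPowerSeries τ S).comp φ) b f) =
      ∑ i, φ (coeff (Finsupp.single i 1) f) * coeff (Finsupp.single j 1) (b i) := by
  have h := der_ev (XI τ S) ((C : S →+* MvPowerSeries τ S).comp φ)
    (fun i => mem_XI_radical_of_constantCoeff (hb i))
    (pderiv S j).toLinearMap.toAddMonoidHom (fun x y => by simp) (fun r => by simp) f
  have h2 := congrArg constantCoeff h
  simpa [constantCoeff_pderiv, constantCoeff_ev _ hb] using h2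

theorem constantCoeff_ev1 {τ : Type*} [Finite τ] (ψ : R →+* MvPowerSeries τ S)
    {b : MvPowerSeries τ S} (hb : constantCoeff b = 0) (f : PowerSeries R) :
    constantCoeff (ev1 ψ b f) = constantCoeff (ψ (PowerSeries.constantCoeff f)) :=
  constantCoeff_ev ψ (fun _ => hb) f

theorem coeff_single_ev1 {τ : Type*} [Finite τ] (φ : R →+* S)
    {b : MvPowerSeries τ S} (hb : constantCoeff b = 0) (f : PowerSeries R)
    (j : τ) : coeff (Finsupp.single j 1) (ev1 ((C : S →+* MvPowerSeries τ S).comp φ) b f) =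
      φ (PowerSeries.coeff 1 f) * coeff (Finsupp.single j 1) b := by
  have := coeff_single_ev φ (b := fun _ : Unit => b) (fun _ => hb) f j
  rw [Fintype.sum_unique] at this
  exact this

theorem coeff_one_subst {b : PowerSeries R} (hb : PowerSeries.constantCoeff b = 0)
    (f : PowerSeries R) : PowerSeries.coeff 1 (PowerSeries.subst b f) =
      PowerSeries.coeff 1 f * PowerSeries.coeff 1 b := by
  rw [← ev1_eq_subst1 hb]
  exact coeff_single_ev1 (RingHom.id R) hb f ()

theorem constantCoeff_subst1 {b : PowerSeries R} (hb : PowerSeries.constantCoeff b = 0)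
    (f : PowerSeries R) : PowerSeries.constantCoeff (PowerSeries.subst b f) =
      PowerSeries.constantCoeff f := by
  rw [← ev1_eq_subst1 hb]
  exact (constantCoeff_ev1 C hb f).trans (constantCoeff_C _)

/-! ## The addition law on elements -/

theorem pair_mem {𝔟 : Ideal S} {x y : S} (hx : x ∈ 𝔟) (hy : y ∈ 𝔟) : ∀ i, ![x, y] i ∈ 𝔟 := by
  intro i; fin_cases i <;> assumption

theorem fun_pair {α β : Type*} (g : α → β) (x y : α) :
    (fun i => g (![x, y] i)) = ![g x, g y] := by
  ext i; fin_cases i <;> rfl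

theorem fun_triple {α β : Type*} (g : α → β) (x y z : α) :
    (fun i => g (![x, y, z] i)) = ![g x, g y, g z] := by
  ext i; fin_cases i <;> rfl

theorem pair_X : (![X 0, X 1] : Fin 2 → MvPowerSeries (Fin 2) R) = X := by
  ext1 i; fin_cases i <;> rfl

/-- `x +_F y`. -/
noncomputable def fadd (F : FormalGroup R) (φ : R →+* S) (x y : S) : S :=
  ev φ ![x, y] F.toPowerSeries

theorem fadd_X_X (F : FormalGroup R) : fadd F C (X 0) (X 1) = F.toPowerSeries := by
  rw [fadd, pair_X, ev_C_X]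

theorem fadd_eq_subst {τ : Type*} [Finite τ] (F : FormalGroup R) {f g : MvPowerSeries τ R}
    (hf : constantCoeff f = 0) (hg : constantCoeff g = 0) :
    fadd F C f g = F.toPowerSeries.subst ![f, g] :=
  ev_eq_subst (fun i => by fin_cases i <;> assumption) _

theorem fadd_mem (F : FormalGroup R) (I : Ideal S) [IsAdicComplete I S] (φ : R →+* S) {x y : S}
    (hx : x ∈ I.radical) (hy : y ∈ I.radical) {𝔟 : Ideal S} (hx' : x ∈ 𝔟) (hy' : y ∈ 𝔟) :
    fadd F φ x y ∈ 𝔟 :=
  ev_mem I φ (pair_mem hx hy) (pair_mem hx' hy') F.zero_constantCoeff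

theorem fadd_mem_radical (F : FormalGroup R) (I : Ideal S) [IsAdicComplete I S] (φ : R →+* S)
    {x y : S} (hx : x ∈ I.radical) (hy : y ∈ I.radical) : fadd F φ x y ∈ I.radical :=
  fadd_mem F I φ hx hy hx hy

theorem constantCoeff_fadd {τ : Type*} [Finite τ] (F : FormalGroup R)
    (ψ : R →+* MvPowerSeries τ S) {f g : MvPowerSeries τ S} (hf : constantCoeff f = 0)
    (hg : constantCoeff g = 0) : constantCoeff (fadd F ψ f g) = 0 := by
  rw [fadd, constantCoeff_ev ψ (fun i => by fin_cases i <;> assumption), F.zero_constantCoeff]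
  simp

theorem map_fadd (F : FormalGroup R) (I : Ideal S) [IsAdicComplete I S] (J : Ideal T)
    [IsHausdorff J T] (φ : R →+* S) {x y : S} (hx : x ∈ I.radical) (hy : y ∈ I.radical)
    (ρ : S →+* T) (hx' : ρ x ∈ J.radical) (hy' : ρ y ∈ J.radical) :
    ρ (fadd F φ x y) = fadd F (ρ.comp φ) (ρ x) (ρ y) := by
  rw [fadd, map_ev I J φ (pair_mem hx hy) ρ (fun i => by fin_cases i <;> assumption),
    fun_pair, fadd]

theorem fadd_map (F : FormalGroup R) (I : Ideal T) [IsAdicComplete I T] (ψ : R →+* S)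
    (φ : S →+* T) {x y : T} (hx : x ∈ I.radical) (hy : y ∈ I.radical) :
    fadd (F.map ψ) φ x y = fadd F (φ.comp ψ) x y :=
  ev_map I ψ φ (pair_mem hx hy) _

theorem fadd_congr {R' : Type*} [CommRing R'] {F : FormalGroup R} {F' : FormalGroup R'}
    (I : Ideal S) [IsAdicComplete I S] {φ : R →+* S} {φ' : R' →+* S} (h : F.map φ = F'.map φ')
    {x y : S} (hx : x ∈ I.radical) (hy : y ∈ I.radical) : fadd F φ x y = fadd F' φ' x y := by
  have h1 := fadd_map F I φ (RingHom.id S) hx hy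
  have h2 := fadd_map F' I φ' (RingHom.id S) hx hy
  rw [RingHom.id_comp] at h1 h2
  rw [← h1, ← h2, h]

/-- Evaluating a formal sum. -/
theorem ev_fadd {τ : Type*} [Finite τ] (F : FormalGroup R) (I : Ideal S) [IsAdicComplete I S]
    (φ : R →+* S) {a : τ → S} (ha : ∀ i, a i ∈ I.radical) {f g : MvPowerSeries τ R}
    (hf : constantCoeff f = 0) (hg : constantCoeff g = 0) :
    ev φ a (fadd F C f g) = fadd F φ (ev φ a f) (ev φ a g) := by
  rw [map_fadd F (XI τ R) I C (mem_XI_radical_of_constantCoeff hf)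
    (mem_XI_radical_of_constantCoeff hg) _ (ev_mem_radical I φ ha hf) (ev_mem_radical I φ ha hg),
    ev_comp_C]

theorem ev_subst_pair {τ : Type*} [Finite τ] (F : FormalGroup R) (I : Ideal S)
    [IsAdicComplete I S] (φ : R →+* S) {a : τ → S} (ha : ∀ i, a i ∈ I.radical)
    {f g : MvPowerSeries τ R} (hf : constantCoeff f = 0) (hg : constantCoeff g = 0) :
    ev φ a (F.toPowerSeries.subst ![f, g]) = fadd F φ (ev φ a f) (ev φ a g) := by
  rw [← fadd_eq_subst F hf hg, ev_fadd F I φ ha hf hg]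

theorem ev1_fadd (F : FormalGroup R) (I : Ideal S) [IsAdicComplete I S]
    (φ : R →+* S) {x : S} (hx : x ∈ I.radical) {f g : PowerSeries R}
    (hf : PowerSeries.constantCoeff f = 0) (hg : PowerSeries.constantCoeff g = 0) :
    ev1 φ x (fadd F PowerSeries.C f g) = fadd F φ (ev1 φ x f) (ev1 φ x g) :=
  ev_fadd F I φ (fun _ => hx) hf hg

theorem fadd_assoc (F : FormalGroup R) (I : Ideal S) [IsAdicComplete I S] (φ : R →+* S)
    {x y z : S} (hx : x ∈ I.radical) (hy : y ∈ I.radical) (hz : z ∈ I.radical) :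
    fadd F φ (fadd F φ x y) z = fadd F φ x (fadd F φ y z) := by
  have ha : ∀ i, ![x, y, z] i ∈ I.radical := fun i => by fin_cases i <;> assumption
  have h := congrArg (ev φ ![x, y, z]) F.assoc
  have h0 : ∀ i j : Fin 3, constantCoeff (F.toPowerSeries.subst
      ![(X i : MvPowerSeries (Fin 3) R), X j]) = 0 := fun i j => by
    rw [← fadd_eq_subst F (by simp) (by simp)]; exact constantCoeff_fadd F _ (by simp) (by simp)
  rw [ev_subst_pair F I φ ha (h0 _ _) (by simp), ev_subst_pair F I φ ha (by simp) (h0 _ _),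
    ev_subst_pair F I φ ha (by simp) (by simp), ev_subst_pair F I φ ha (by simp) (by simp)] at h
  simpa [ev_X I φ ha] using h

theorem fadd_comm (F : FormalGroup R) [F.IsComm] (I : Ideal S) [IsAdicComplete I S] (φ : R →+* S)
    {x y : S} (hx : x ∈ I.radical) (hy : y ∈ I.radical) : fadd F φ x y = fadd F φ y x := by
  have h := congrArg (ev φ ![x, y]) (FormalGroup.IsComm.comm (F := F))
  rw [ev_subst_pair F I φ (pair_mem hx hy) (by simp) (by simp)] at h
  simpa [ev_X I φ (pair_mem hx hy), fadd] using h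

theorem fadd_zero (F : FormalGroup R) (I : Ideal S) [IsAdicComplete I S] (φ : R →+* S)
    {x : S} (hx : x ∈ I.radical) : fadd F φ x 0 = x := by
  have h := congrArg (ev1 φ x) F.Xzero_eq_X
  rw [ev1_X I φ hx, ev1_def, ev_subst_pair F I φ (fun _ => hx) PowerSeries.constantCoeff_X
    (map_zero _), map_zero, ← ev1_def, ev1_X I φ hx] at h
  exact h

theorem zero_fadd (F : FormalGroup R) (I : Ideal S) [IsAdicComplete I S] (φ : R →+* S)
    {x : S} (hx : x ∈ I.radical) : fadd F φ 0 x = x := by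
  have h := congrArg (ev1 φ x) F.zeroX_eq_X
  rw [ev1_X I φ hx, ev1_def, ev_subst_pair F I φ (fun _ => hx) (map_zero _)
    PowerSeries.constantCoeff_X, map_zero, ← ev1_def, ev1_X I φ hx] at h
  exact h

theorem fadd_sub_fadd_mem (F : FormalGroup R) (I : Ideal S) [IsAdicComplete I S] (φ : R →+* S)
    {x y x' y' : S} (hx : x ∈ I.radical) (hy : y ∈ I.radical) (hx' : x' ∈ I.radical)
    (hy' : y' ∈ I.radical) {𝔟 : Ideal S} (h1 : x - x' ∈ 𝔟) (h2 : y - y' ∈ 𝔟) :
    fadd F φ x y - fadd F φ x' y' ∈ 𝔟 :=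
  ev_sub_ev_mem I φ (pair_mem hx hy) (pair_mem hx' hy') (fun i => by fin_cases i <;> assumption) _

/-- `F(X, Y) = X + Y + X Y G(X, Y)`. -/
theorem exists_eq_add_add_mul (F : FormalGroup R) :
    ∃ G : MvPowerSeries (Fin 2) R, F.toPowerSeries = X 0 + X 1 + X 0 * X 1 * G := by
  have r0 := X_mem_XI_radical (R := R) (0 : Fin 2)
  have r1 := X_mem_XI_radical (R := R) (1 : Fin 2)
  have h1 : (X 1 : MvPowerSeries (Fin 2) R) ∣ F.toPowerSeries - X 0 - X 1 := by
    have := fadd_sub_fadd_mem F (XI _ R) C r0 r1 r0 (Ideal.zero_mem _)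
      (𝔟 := Ideal.span {X 1}) (by simp) (by simp)
    rw [fadd_X_X, fadd_zero F (XI _ R) C r0, Ideal.mem_span_singleton] at this
    exact dvd_sub this dvd_rfl
  have h0 : (X 0 : MvPowerSeries (Fin 2) R) ∣ F.toPowerSeries - X 0 - X 1 := by
    have := fadd_sub_fadd_mem F (XI _ R) C r0 r1 (Ideal.zero_mem _) r1
      (𝔟 := Ideal.span {X 0}) (by simp) (by simp)
    rw [fadd_X_X, zero_fadd F (XI _ R) C r1, Ideal.mem_span_singleton] at this
    rw [sub_right_comm]
    exact dvd_sub this dvd_rfl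
  obtain ⟨g, hg⟩ := h1
  have h2 : (X 0 : MvPowerSeries (Fin 2) R) ∣ g := by
    rw [X_dvd_iff] at h0 ⊢
    intro m hm
    have := h0 (m + Finsupp.single 1 1) (by simpa using hm)
    rw [hg, coeff_X_mul', if_neg (by simp), add_tsub_cancel_right] at this
    exact this
  obtain ⟨G, rfl⟩ := h2
  exact ⟨G, by linear_combination hg⟩

theorem exists_fadd_eq (F : FormalGroup R) (I : Ideal S) [IsAdicComplete I S] (φ : R →+* S)
    {x y : S} (hx : x ∈ I.radical) (hy : y ∈ I.radical) :
    ∃ c, fadd F φ x y = x + y + x * y * c := by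
  obtain ⟨G, hG⟩ := exists_eq_add_add_mul F
  refine ⟨ev φ ![x, y] G, ?_⟩
  rw [fadd, hG]
  simp [ev_X I φ (pair_mem hx hy)]

theorem fadd_sub_add_mem (F : FormalGroup R) (I : Ideal S) [IsAdicComplete I S] (φ : R →+* S)
    {x y : S} (hx : x ∈ I.radical) (hy : y ∈ I.radical) {𝔞 𝔟 : Ideal S} (hx' : x ∈ 𝔞)
    (hy' : y ∈ 𝔟) : fadd F φ x y - (x + y) ∈ 𝔞 * 𝔟 := by
  obtain ⟨c, hc⟩ := exists_fadd_eq F I φ hx hy
  rw [hc, add_sub_cancel_left]
  exact Ideal.mul_mem_right _ _ (Ideal.mul_mem_mul hx' hy')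

/-- `F(x, y) - F(x, y') = (1 + x c) (y - y')`. -/
theorem exists_fadd_sub_fadd (F : FormalGroup R) (I : Ideal S) [IsAdicComplete I S] (φ : R →+* S)
    {x y y' : S} (hx : x ∈ I.radical) (hy : y ∈ I.radical) (hy' : y' ∈ I.radical) :
    ∃ c, fadd F φ x y - fadd F φ x y' = (1 + x * c) * (y - y') := by
  obtain ⟨G, hG⟩ := exists_eq_add_add_mul F
  have h := ev_sub_ev_mem I φ (pair_mem hx hy) (pair_mem hx hy') (𝔟 := Ideal.span {y - y'})
    (fun i => by fin_cases i <;> simp) (X 1 * G)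
  obtain ⟨c, hc⟩ := Ideal.mem_span_singleton.mp h
  refine ⟨c, ?_⟩
  rw [fadd, fadd, hG]
  simp only [map_add, map_mul, ev_X I φ (pair_mem hx hy), ev_X I φ (pair_mem hx hy'),
    Matrix.cons_val_zero, Matrix.cons_val_one] at hc ⊢
  linear_combination x * hc

theorem exists_fadd_eq_zero (F : FormalGroup R) (I : Ideal S) [IsAdicComplete I S] (φ : R →+* S)
    {x : S} (hx : x ∈ I.radical) : ∃ y ∈ I.radical, fadd F φ y x = 0 := by
  obtain ⟨G, hG⟩ := exists_eq_add_add_mul F
  have := isAdicComplete_span_singleton I hx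
  have hJ : Ideal.span {x} ≤ I.radical := (Ideal.span_singleton_le_iff_mem _).mpr hx
  have hxJ := Ideal.mem_span_singleton_self x
  obtain ⟨y, hy, hy'⟩ := exists_fixed1 (Ideal.span {x}) (Ideal.span {x} : Ideal S)
    (fun z hz => by
      obtain ⟨y, hy, hy'⟩ := hz 1
      have := Ideal.add_mem _ (by simpa using hy') hy
      simpa using this)
    (fun y => -x - x * ev φ ![y, x] (X 0 * G))
    (fun y _ => Ideal.sub_mem _ (neg_mem hxJ) (Ideal.mul_mem_right _ _ hxJ))
    (fun N y hy z hz h => by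
      have := ev_sub_ev_mem I φ (pair_mem (hJ hy) hx) (pair_mem (hJ hz) hx)
        (𝔟 := Ideal.span {x} ^ N) (fun i => by fin_cases i <;> simp [h]) (X 0 * G)
      have h2 := neg_mem (Ideal.mul_mem_mul hxJ this)
      rw [← pow_succ'] at h2
      convert h2 using 1; ring)
    (x₀ := 0) (Ideal.zero_mem _)
  refine ⟨y, hJ hy, ?_⟩
  rw [fadd, hG]
  simp only [map_add, map_mul, ev_X I φ (pair_mem (hJ hy) hx), Matrix.cons_val_zero,
    Matrix.cons_val_one] at hy' ⊢
  linear_combination -hy'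

/-! ## The group of points -/

/-- Points of the formal group law `F` with values in the radical of `I`. -/
@[ext] structure Pt (F : FormalGroup R) (φ : R →+* S) (I : Ideal S) where
  /-- The coordinate of the point. -/
  val : S
  mem : val ∈ I.radical

namespace Pt

variable {F : FormalGroup R} {φ : R →+* S} {I : Ideal S}

instance : Zero (Pt F φ I) := ⟨⟨0, Ideal.zero_mem _⟩⟩

@[simp] theorem val_zero : (0 : Pt F φ I).val = 0 := rfl

variable [IsAdicComplete I S]

noncomputable instance : Add (Pt F φ I) :=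
  ⟨fun x y => ⟨fadd F φ x.val y.val, fadd_mem_radical F I φ x.mem y.mem⟩⟩

theorem val_add (x y : Pt F φ I) : (x + y).val = fadd F φ x.val y.val := rfl

noncomputable instance : Neg (Pt F φ I) :=
  ⟨fun x => ⟨(exists_fadd_eq_zero F I φ x.mem).choose,
    (exists_fadd_eq_zero F I φ x.mem).choose_spec.1⟩⟩

noncomputable instance instAddGroup : AddGroup (Pt F φ I) :=
  AddGroup.ofLeftAxioms (fun x y z => Pt.ext (fadd_assoc F I φ x.mem y.mem z.mem))
    (fun x => Pt.ext (zero_fadd F I φ x.mem))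
    (fun x => Pt.ext (exists_fadd_eq_zero F I φ x.mem).choose_spec.2)

noncomputable instance instAddCommGroup [F.IsComm] : AddCommGroup (Pt F φ I) :=
  { instAddGroup with add_comm := fun x y => Pt.ext (fadd_comm F I φ x.mem y.mem) }

theorem exists_val_add (x y : Pt F φ I) : ∃ c, (x + y).val = x.val + y.val + x.val * y.val * c :=
  exists_fadd_eq F I φ x.mem y.mem

/-- `x - y = unit * (-y +_F x)`. -/
theorem exists_unit_neg_add (x y : Pt F φ I) :
    ∃ u : S, IsUnit u ∧ x.val - y.val = u * (-y + x).val := by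
  obtain ⟨c, hc⟩ := exists_fadd_sub_fadd F I φ y.mem (-y + x).mem (Ideal.zero_mem _)
  refine ⟨1 + y.val * c, isUnit_one_add_of_mem_radical I (Ideal.mul_mem_right _ _ y.mem), ?_⟩
  rw [fadd_zero F I φ y.mem, ← val_add, add_neg_cancel_left, sub_zero] at hc
  exact hc

theorem exists_unit_sub [F.IsComm] (x y : Pt F φ I) :
    ∃ u : S, IsUnit u ∧ x.val - y.val = u * (x - y).val := by
  rw [sub_eq_neg_add x y]; exact exists_unit_neg_add x y

/-- Congruence of points modulo any ideal is congruence of coordinates. -/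
theorem val_sub_mem_iff [F.IsComm] (x y : Pt F φ I) {𝔟 : Ideal S} :
    (x - y).val ∈ 𝔟 ↔ x.val - y.val ∈ 𝔟 := by
  obtain ⟨u, hu, h⟩ := exists_unit_sub x y
  rw [h, Ideal.unit_mul_mem_iff_mem _ hu]

theorem val_neg_mem_iff (x : Pt F φ I) {𝔟 : Ideal S} : (-x).val ∈ 𝔟 ↔ x.val ∈ 𝔟 := by
  obtain ⟨u, hu, h⟩ := exists_unit_neg_add 0 x
  rw [val_zero, zero_sub, add_zero] at h
  rw [← Ideal.unit_mul_mem_iff_mem _ hu, ← h, neg_mem_iff]

theorem val_add_sub_mem (x y : Pt F φ I) {𝔞 𝔟 : Ideal S} (hx : x.val ∈ 𝔞) (hy : y.val ∈ 𝔟) :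
    (x + y).val - (x.val + y.val) ∈ 𝔞 * 𝔟 :=
  fadd_sub_add_mem F I φ x.mem y.mem hx hy

theorem val_neg_add_mem (x : Pt F φ I) {𝔞 : Ideal S} (hx : x.val ∈ 𝔞) :
    (-x).val + x.val ∈ 𝔞 * 𝔞 := by
  have := val_add_sub_mem (-x) x ((val_neg_mem_iff x).mpr hx) hx
  rwa [neg_add_cancel, val_zero, zero_sub, neg_mem_iff] at this

variable (F φ I) in
/-- The subgroup of points with coordinate in `𝔟`. -/
def sub (𝔟 : Ideal S) : AddSubgroup (Pt F φ I) where
  carrier := {x | x.val ∈ 𝔟}
  zero_mem' := 𝔟.zero_mem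
  add_mem' := fun {x y} hx hy => fadd_mem F I φ x.mem y.mem hx hy
  neg_mem' := fun {x} hx => (val_neg_mem_iff x).mpr hx

@[simp] theorem mem_sub {𝔟 : Ideal S} {x : Pt F φ I} : x ∈ sub F φ I 𝔟 ↔ x.val ∈ 𝔟 := Iff.rfl

theorem val_nsmul_mem {𝔟 : Ideal S} {x : Pt F φ I} (hx : x.val ∈ 𝔟) (m : ℕ) : (m • x).val ∈ 𝔟 :=
  (sub F φ I 𝔟).nsmul_mem hx m

theorem val_zsmul_mem {𝔟 : Ideal S} {x : Pt F φ I} (hx : x.val ∈ 𝔟) (m : ℤ) : (m • x).val ∈ 𝔟 :=
  (sub F φ I 𝔟).zsmul_mem hx m

theorem val_sum_mem [F.IsComm] {ι : Type*} {𝔟 : Ideal S} {s : Finset ι} {x : ι → Pt F φ I}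
    (hx : ∀ i ∈ s, (x i).val ∈ 𝔟) : (∑ i ∈ s, x i).val ∈ 𝔟 :=
  (sub F φ I 𝔟).sum_mem hx

/-- On points with coordinates in `𝔟` the group law is addition modulo `𝔟²`. -/
theorem val_sum_sub_mem [F.IsComm] {ι : Type*} {𝔟 : Ideal S} {s : Finset ι} {x : ι → Pt F φ I}
    (hx : ∀ i ∈ s, (x i).val ∈ 𝔟) : (∑ i ∈ s, x i).val - ∑ i ∈ s, (x i).val ∈ 𝔟 * 𝔟 := by
  classical
  induction s using Finset.induction_on with
  | empty => simp
  | insert a s ha ih =>
    rw [Finset.sum_insert ha, Finset.sum_insert ha]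
    have h1 := val_add_sub_mem (x a) (∑ i ∈ s, x i) (hx a (Finset.mem_insert_self _ _))
      (val_sum_mem fun i hi => hx i (Finset.mem_insert_of_mem hi))
    have := Ideal.add_mem _ h1 (ih fun i hi => hx i (Finset.mem_insert_of_mem hi))
    convert this using 1; ring

theorem val_nsmul_sub_mem {𝔟 : Ideal S} {x : Pt F φ I} (hx : x.val ∈ 𝔟) (m : ℕ) :
    (m • x).val - m * x.val ∈ 𝔟 * 𝔟 := by
  induction m with
  | zero => simp
  | succ m ih =>
    rw [succ_nsmul]
    have := Ideal.add_mem _ (val_add_sub_mem (m • x) x (val_nsmul_mem hx m) hx) ih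
    convert this using 1; push_cast; ring

/-- Base change of points along `ρ : S →+* T` (the formal group laws only have to agree over
`T`). -/
noncomputable def map {R' : Type*} [CommRing R'] {F' : FormalGroup R'} {φ' : R' →+* T}
    {J : Ideal T} [IsAdicComplete J T] (ρ : S →+* T) (h : F.map (ρ.comp φ) = F'.map φ')
    (hρ : ∀ x ∈ I.radical, ρ x ∈ J.radical) : Pt F φ I →+ Pt F' φ' J :=
  AddMonoidHom.mk' (fun x => ⟨ρ x.val, hρ _ x.mem⟩) fun x y => Pt.ext <| by
    change ρ (fadd F φ x.val y.val) = fadd F' φ' (ρ x.val) (ρ y.val)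
    rw [map_fadd F I J φ x.mem y.mem ρ (hρ _ x.mem) (hρ _ y.mem),
      fadd_congr J h (hρ _ x.mem) (hρ _ y.mem)]

@[simp] theorem val_map {R' : Type*} [CommRing R'] {F' : FormalGroup R'} {φ' : R' →+* T}
    {J : Ideal T} [IsAdicComplete J T] (ρ : S →+* T) (h : F.map (ρ.comp φ) = F'.map φ')
    (hρ : ∀ x ∈ I.radical, ρ x ∈ J.radical) (x : Pt F φ I) : (map ρ h hρ x).val = ρ x.val := rfl

end Pt

/-! ## `m`-series -/

theorem constantCoeff_mulSeries (F : FormalGroup R) (m : ℕ) :
    PowerSeries.constantCoeff (mulSeries F m) = 0 := by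
  induction m with
  | zero => simp [mulSeries]
  | succ m ih =>
    rw [mulSeries, ← fadd_eq_subst F ih PowerSeries.constantCoeff_X]
    exact constantCoeff_fadd F _ ih PowerSeries.constantCoeff_X

theorem mulSeries_succ (F : FormalGroup R) (m : ℕ) :
    mulSeries F (m + 1) = fadd F PowerSeries.C (mulSeries F m) PowerSeries.X :=
  (fadd_eq_subst F (constantCoeff_mulSeries F m) PowerSeries.constantCoeff_X).symm

theorem Pt.val_nsmul {F : FormalGroup R} {φ : R →+* S} {I : Ideal S} [IsAdicComplete I S]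
    (x : Pt F φ I) (m : ℕ) : (m • x).val = ev1 φ x.val (mulSeries F m) := by
  induction m with
  | zero => simp [mulSeries]
  | succ m ih =>
    rw [succ_nsmul, Pt.val_add, ih, mulSeries_succ, ev1_fadd F I φ x.mem
      (constantCoeff_mulSeries F m) PowerSeries.constantCoeff_X, ev1_X I φ x.mem]

/-- The universal points. -/
noncomputable def Pt.univ (F : FormalGroup R) {σ : Type*} (i : σ) :
    Pt F (C : R →+* MvPowerSeries σ R) (XI σ R) := ⟨X i, X_mem_XI_radical i⟩

@[simp] theorem Pt.val_univ (F : FormalGroup R) {σ : Type*} (i : σ) : (Pt.univ F i).val = X i := rfl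

/-- A power series without constant term as a point. -/
noncomputable def Pt.ofSeries (F : FormalGroup R) {σ : Type*} [Finite σ] (f : MvPowerSeries σ R)
    (hf : constantCoeff f = 0) : Pt F (C : R →+* MvPowerSeries σ R) (XI σ R) :=
  ⟨f, mem_XI_radical_of_constantCoeff hf⟩

@[simp] theorem Pt.val_ofSeries (F : FormalGroup R) {σ : Type*} [Finite σ] (f : MvPowerSeries σ R)
    (hf : constantCoeff f = 0) : (Pt.ofSeries F f hf).val = f := rfl

theorem mulSeries_eq_val (F : FormalGroup R) (m : ℕ) : mulSeries F m = (m • Pt.univ F ()).val := by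
  rw [Pt.val_nsmul]; exact (ev1_C_X _).symm

theorem mulSeries_one (F : FormalGroup R) : mulSeries F 1 = PowerSeries.X := by
  rw [mulSeries_eq_val, one_nsmul]; rfl

theorem coeff_one_mulSeries (F : FormalGroup R) (m : ℕ) :
    PowerSeries.coeff 1 (mulSeries F m) = m := by
  have h := Pt.val_nsmul_sub_mem (x := Pt.univ F ()) (𝔟 := XI Unit R) (X_mem_XI ()) m
  rw [← mulSeries_eq_val, ← pow_two, mem_XI_unit_pow] at h
  have h1 := h 1 (by norm_num)
  rw [map_sub, sub_eq_zero] at h1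
  rw [h1, ← nsmul_eq_mul, map_nsmul]
  change m • PowerSeries.coeff 1 (PowerSeries.X : PowerSeries R) = m
  simp

theorem map_mulSeries (F : FormalGroup R) (ψ : R →+* S) (m : ℕ) :
    PowerSeries.map ψ (mulSeries F m) = mulSeries (F.map ψ) m := by
  rw [mulSeries_eq_val (F.map ψ), ← ev1_C_comp_X]
  have h1 := Pt.val_nsmul (F := F) (φ := (PowerSeries.C : S →+* PowerSeries S).comp ψ)
    (I := XI Unit S) ⟨PowerSeries.X, X_mem_XI_unit⟩ m
  rw [← h1]
  have h2 := congrArg Pt.val (map_nsmul (Pt.map (F := F) (I := XI Unit S)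
    (φ := (PowerSeries.C : S →+* PowerSeries S).comp ψ) (F' := F.map ψ) (φ' := PowerSeries.C)
    (J := XI Unit S) (RingHom.id _) (by ext; simp) (fun _ h => h)) m
    ⟨PowerSeries.X, X_mem_XI_unit⟩)
  exact h2

theorem mulSeries_mul (F : FormalGroup R) (m k : ℕ) :
    mulSeries F (m * k) = PowerSeries.subst (mulSeries F k) (mulSeries F m) := by
  rw [mulSeries_eq_val, mul_nsmul', Pt.val_nsmul, ← mulSeries_eq_val]
  exact ev1_eq_subst1 (constantCoeff_mulSeries F k) _

end Crest.Agent.R227
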