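import Crest.Agent.R227.LT

/-!
# R227/Stab: stabilizer maps: existence, bijectivity, stability of the height ideals, smallness
for the automorphisms `X +_Γ [p^N] b` (helper51)
-/

set_option autoImplicit false

namespace Crest.Agent.R227

open MvPowerSeries Crest.LubinTate IsLocalRing

section general

variable {R S : Type*} [CommRing R] [CommRing S]

/-- The series `X +_F [m] b`. -/
noncomputable def oneAdd (F : FormalGroup R) (m : ℕ) (b : PowerSeries R) : PowerSeries R :=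
  fadd F PowerSeries.C PowerSeries.X (PowerSeries.subst b (mulSeries F m))

theorem constantCoeff_subst_mulSeries (F : FormalGroup R) (m : ℕ) {b : PowerSeries R}
    (hb : PowerSeries.constantCoeff b = 0) :
    PowerSeries.constantCoeff (PowerSeries.subst b (mulSeries F m)) = 0 := by
  rw [constantCoeff_subst1 hb, constantCoeff_mulSeries]

theorem constantCoeff_oneAdd (F : FormalGroup R) (m : ℕ) {b : PowerSeries R}
    (hb : PowerSeries.constantCoeff b = 0) : PowerSeries.constantCoeff (oneAdd F m b) = 0 :=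
  constantCoeff_fadd F _ PowerSeries.constantCoeff_X (constantCoeff_subst_mulSeries F m hb)

/-- Action of `X +_F [m] b` on points. -/
theorem ev1_oneAdd (F : FormalGroup R) (m : ℕ) {b : PowerSeries R}
    (hb : PowerSeries.constantCoeff b = 0) {φ : R →+* S} {I : Ideal S} [IsAdicComplete I S]
    (x : Pt F φ I) : ev1 φ x.val (oneAdd F m b) = (x + m • Pt.app F φ φ b hb x).val := by
  rw [oneAdd, ev1_fadd F I φ x.mem PowerSeries.constantCoeff_X
    (constantCoeff_subst_mulSeries F m hb), ev1_X I φ x.mem, ev1_subst1 I φ x.mem hb, Pt.val_add,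
    Pt.val_nsmul, Pt.val_app]

theorem isFGHom_oneAdd (F : FormalGroup R) [F.IsComm] (m : ℕ) {b : PowerSeries R}
    (hb : IsFGHom F F b) : IsFGHom F F (oneAdd F m b) :=
  IsFGHom.add (isFGHom_X F) (IsFGHom.comp (isFGHom_mulSeries F m) hb)

theorem map_oneAdd (F : FormalGroup R) (m : ℕ) {b : PowerSeries R}
    (hb : PowerSeries.constantCoeff b = 0) (ψ : R →+* S) :
    PowerSeries.map ψ (oneAdd F m b) = oneAdd (F.map ψ) m (PowerSeries.map ψ b) := by
  have h1 := constantCoeff_subst_mulSeries F m hb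
  have hb' : PowerSeries.constantCoeff (PowerSeries.map ψ b) = 0 := by
    rw [ps_constantCoeff_map, hb, map_zero]
  have e : PowerSeries.map ψ (PowerSeries.subst b (mulSeries F m)) =
      PowerSeries.subst (PowerSeries.map ψ b) (mulSeries (F.map ψ) m) := by
    rw [← map_mulSeries]
    exact PowerSeries.map_subst (PowerSeries.HasSubst.of_constantCoeff_zero' hb) _
  have r := mem_XI_unit_radical (constantCoeff_subst_mulSeries (F.map ψ) m hb')
  rw [oneAdd, oneAdd, map_fadd F (XI Unit R) (XI Unit S) _ X_mem_XI_unit (mem_XI_unit_radical h1)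
    (PowerSeries.map ψ) (by rw [PowerSeries.map_X]; exact X_mem_XI_unit) (by rw [e]; exact r), e,
    PowerSeries.map_X, fadd_map F (XI Unit S) ψ _ X_mem_XI_unit r]
  congr 1
  exact map_comp_C ψ

/-- `X +_F [m] b ≡ X` modulo any ideal containing `[m] b`. -/
theorem oneAdd_sub_X_mem (F : FormalGroup R) (m : ℕ) {b : PowerSeries R}
    (hb : PowerSeries.constantCoeff b = 0) {𝔟 : Ideal (PowerSeries R)}
    (h : PowerSeries.subst b (mulSeries F m) ∈ 𝔟) : oneAdd F m b - PowerSeries.X ∈ 𝔟 := by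
  have := fadd_sub_fadd_mem F (XI Unit R) PowerSeries.C X_mem_XI_unit
    (mem_XI_unit_radical (constantCoeff_subst_mulSeries F m hb)) X_mem_XI_unit (Ideal.zero_mem _)
    (𝔟 := 𝔟) (by simp) (by simpa using h)
  rwa [fadd_zero F (XI Unit R) _ X_mem_XI_unit] at this

theorem mulSeries_pow_of_eq_X_pow (F : FormalGroup R) {m q : ℕ} (hq : q ≠ 0)
    (h : mulSeries F m = PowerSeries.X ^ q) (N : ℕ) :
    mulSeries F (m ^ N) = PowerSeries.X ^ q ^ N := by
  induction N with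
  | zero => simp [mulSeries_one]
  | succ N ih =>
    rw [pow_succ, mulSeries_mul, ih, h, PowerSeries.subst_pow (PowerSeries.HasSubst.X_pow hq),
      PowerSeries.subst_X (PowerSeries.HasSubst.X_pow hq), ← pow_mul, ← pow_succ']

theorem sup_pow_le (A B : Ideal R) (k : ℕ) : (A ⊔ B) ^ k ≤ A ⊔ B ^ k := by
  induction k with
  | zero => simp
  | succ k ih =>
    rw [pow_succ, pow_succ]
    refine (Ideal.mul_mono_left ih).trans ?_
    rw [Ideal.sup_mul, Ideal.mul_sup, Ideal.mul_sup]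
    exact sup_le (sup_le (le_sup_of_le_left Ideal.mul_le_left)
      (le_sup_of_le_left Ideal.mul_le_left))
      (sup_le (le_sup_of_le_left Ideal.mul_le_right) le_sup_right)

/-- `[p]` on points, modulo the `h`-th height ideal. -/
theorem Pt.val_p_nsmul_mem (p : ℕ) [Fact p.Prime] {F : FormalGroup R} [F.IsComm] {φ : R →+* S}
    {I : Ideal S} [IsAdicComplete I S] (h : ℕ) {𝔠 : Ideal S} {z : Pt F φ I} (hz : z.val ∈ 𝔠) :
    (p • z).val ∈ (hI p F h).map φ ⊔ 𝔠 ^ p ^ h := by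
  rw [Pt.val_nsmul, ev1_eq_sum_add I φ z.mem (p ^ h)]
  refine Ideal.add_mem _ (Ideal.mem_sup_left (Ideal.sum_mem _ fun i hi => Ideal.mul_mem_right _ _
    (Ideal.mem_map_of_mem _ ((hI_le_iff_coeff p F).mp le_rfl i (Finset.mem_range.mp hi)))))
    (Ideal.mem_sup_right (Ideal.mul_mem_right _ _ (Ideal.pow_mem_pow hz _)))

theorem Pt.val_p_pow_nsmul_mem (p : ℕ) [Fact p.Prime] {F : FormalGroup R} [F.IsComm]
    {φ : R →+* S} {I : Ideal S} [IsAdicComplete I S] (h : ℕ) {𝔠 : Ideal S} {z : Pt F φ I}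
    (hz : z.val ∈ 𝔠) (N : ℕ) : (p ^ N • z).val ∈ (hI p F h).map φ ⊔ 𝔠 ^ (p ^ h) ^ N := by
  induction N with
  | zero => simpa using Ideal.mem_sup_right hz
  | succ N ih =>
    rw [pow_succ' p, mul_nsmul']
    have h1 : (hI p F h).map φ ⊔ ((hI p F h).map φ ⊔ 𝔠 ^ (p ^ h) ^ N) ^ p ^ h ≤
        (hI p F h).map φ ⊔ 𝔠 ^ (p ^ h) ^ (N + 1) := by
      refine sup_le le_sup_left ?_
      rw [pow_succ (p ^ h), pow_mul]
      exact sup_pow_le _ _ _
    exact h1 (Pt.val_p_nsmul_mem p h ih)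

/-- If `[m]` maps the defect `b(X +_F Y) -_F b(X) -_F b(Y)` into `𝔞`, then `X +_F [m] b` is an
endomorphism modulo `𝔞`. -/
theorem isFGHom_oneAdd_quot (F : FormalGroup R) [F.IsComm] (m : ℕ) {b : PowerSeries R}
    (hb : PowerSeries.constantCoeff b = 0) (𝔪 𝔞 : Ideal R) (h𝔪 : 𝔪.FG)
    (hhom : IsFGHom (F.map (Ideal.Quotient.mk 𝔪)) (F.map (Ideal.Quotient.mk 𝔪))
      (PowerSeries.map (Ideal.Quotient.mk 𝔪) b))
    (hkill : ∀ z : Pt F C (XI (Fin 2) R), z.val ∈ 𝔪.map C → (m • z).val ∈ 𝔞.map C) :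
    IsFGHom (F.map (Ideal.Quotient.mk 𝔞)) (F.map (Ideal.Quotient.mk 𝔞))
      (PowerSeries.map (Ideal.Quotient.mk 𝔞) (oneAdd F m b)) := by
  let B : Pt F C (XI (Fin 2) R) → Pt F C (XI (Fin 2) R) := Pt.app F C C b hb
  let x0 := Pt.univ F (0 : Fin 2)
  let x1 := Pt.univ F (1 : Fin 2)
  have red : ∀ {T : Type _} [CommRing T] (π : R →+* T), ∃ ρ : Pt F C (XI (Fin 2) R) →+
      Pt (F.map π) C (XI (Fin 2) T), (∀ z, (ρ z).val = MvPowerSeries.map π z.val) ∧
      ∀ (f : PowerSeries R) (z : Pt F C (XI (Fin 2) R)), MvPowerSeries.map π (ev1 C z.val f) =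
        ev1 C (ρ z).val (PowerSeries.map π f) := fun {T} _ π => by
    have hr : ∀ x ∈ (XI (Fin 2) R).radical, MvPowerSeries.map π x ∈ (XI (Fin 2) T).radical :=
      fun x hx => by
        rw [mem_XI_radical] at hx ⊢
        rw [constantCoeff_map]; exact hx.map π
    refine ⟨Pt.map (MvPowerSeries.map π) (by rw [map_comp_C, fg_map_map]) hr, fun _ => rfl,
      fun f z => ?_⟩
    rw [map_ev1 (XI _ R) (XI _ T) C z.mem _ (hr _ z.mem), Pt.val_map,
      ev1_map (XI _ T) π C (hr _ z.mem), map_comp_C]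
  have hδ : (B (x0 + x1) - (B x0 + B x1)).val ∈ 𝔪.map C := by
    obtain ⟨ρ, hρ, hρ'⟩ := red (Ideal.Quotient.mk 𝔪)
    have hB : ∀ z, ρ (B z) = homPt hhom C _ (ρ z) := fun z => Pt.ext (by
      rw [hρ, val_homPt]; exact hρ' b z)
    rw [← ker_map_mk h𝔪, RingHom.mem_ker, ← hρ, map_sub, map_add, hB, hB, hB, map_add, map_add,
      sub_self, Pt.val_zero]
  obtain ⟨ρ, hρ, hρ'⟩ := red (Ideal.Quotient.mk 𝔞)
  have h0 : ρ (m • (B (x0 + x1) - (B x0 + B x1))) = 0 := Pt.ext (by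
    rw [hρ, Pt.val_zero]
    ext d
    rw [coeff_map, map_zero, Ideal.Quotient.eq_zero_iff_mem]
    exact coeff_mem_of_mem_map_C (hkill _ hδ) d)
  have hx : ∀ i, (X i : MvPowerSeries (Fin 2) (R ⧸ 𝔞)) = (ρ (Pt.univ F i)).val := fun i => by
    rw [hρ, Pt.val_univ, map_X]
  have hF : (F.map (Ideal.Quotient.mk 𝔞)).toPowerSeries = (ρ (x0 + x1)).val := by
    rw [hρ, Pt.val_univ_add]; rfl
  refine isFGHom_iff.mpr ⟨by rw [ps_constantCoeff_map, constantCoeff_oneAdd F m hb, map_zero], ?_⟩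
  rw [hx 0, hx 1, hF, ← hρ', ← hρ', ← hρ', ev1_oneAdd F m hb, ev1_oneAdd F m hb, ev1_oneAdd F m hb,
    ← hρ, ← hρ, ← hρ, ← Pt.val_add, ← map_add]
  congr 1
  rw [← sub_eq_zero, ← map_sub, ← h0]
  congr 1
  simp only [nsmul_sub, nsmul_add, x0, x1, B]
  abel

end general

variable {p : ℕ} [Fact p.Prime] {n : ℕ} {Γ : FormalGroup (kk p n)} {H : FormalGroup (LTRing p n)}

/-! ## Existence and bijectivity -/

theorem exists_lift (g : PowerSeries (kk p n)) (hg : PowerSeries.constantCoeff g = 0) :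
    ∃ g' : PowerSeries (LTRing p n), PowerSeries.constantCoeff g' = 0 ∧
      PowerSeries.map (LTRing.residue p n) g' = g := by
  obtain ⟨g₀, hg₀⟩ := exists_psmap_eq (LTRing.residue p n) (f := g)
    fun d => residue_surjective p n _
  refine ⟨g₀ - PowerSeries.C (PowerSeries.constantCoeff g₀), by simp, ?_⟩
  rw [map_sub, PowerSeries.map_C, ← ps_constantCoeff_map, hg₀, hg, map_zero, sub_zero]

theorem exists_stabilizerMap (hH : IsUniversalDeformation p n Γ H) {g : PowerSeries (kk p n)}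
    (hg : IsFGAut Γ g) : ∃ φ, IsStabilizerMap p n H g φ := by
  obtain ⟨g', h0, hg'⟩ := exists_lift g hg.1.1
  have hu : IsUnit (PowerSeries.coeff 1 g') := by
    rw [isUnit_iff_residue, ← PowerSeries.coeff_map, hg']; exact hg.2.ne_zero
  obtain ⟨G, hG⟩ := exists_transport H h0 hu
  have hG' := IsFGHom.map hG (LTRing.residue p n)
  rw [hg', hH.1] at hG'
  obtain ⟨φ, ⟨h1, θ, hθ, hθ'⟩, -⟩ := hH.2 (LTRing p n) inferInstance (LTRing.residue p n)
    (residue_surjective p n) (ker_residue p n) (residue_comp_algebraMap p n) G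
    (eq_of_isFGHom hG' hg.1 hg.2)
  refine ⟨φ, h1, PowerSeries.subst θ g', IsFGHom.comp hG hθ, ?_⟩
  have := PowerSeries.map_subst (PowerSeries.HasSubst.of_constantCoeff_zero' hθ.1)
    (h := LTRing.residue p n) g'
  rw [show MvPowerSeries.map (LTRing.residue p n) θ = PowerSeries.X from hθ', hg',
    PowerSeries.X_subst] at this
  exact this

theorem IsStabilizerMap.map_hI [H.IsComm] {g : PowerSeries (kk p n)}
    (hg : IsUnit (PowerSeries.coeff 1 g)) {φ : LTRing p n →ₐ[WW p n] LTRing p n}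
    (hφ : IsStabilizerMap p n H g φ) (h : ℕ) : (hI p H h).map φ.toRingHom = hI p H h := by
  obtain ⟨-, θ, hθ, hθ'⟩ := hφ
  rw [← hI_map]
  refine hI_eq_of_iso p hθ ?_ h
  rw [isUnit_iff_residue, ← PowerSeries.coeff_map, hθ']; exact hg.ne_zero

theorem IsStabilizerMap.mem_maximalIdeal {g : PowerSeries (kk p n)}
    {φ : LTRing p n →ₐ[WW p n] LTRing p n} (hφ : IsStabilizerMap p n H g φ) {x : LTRing p n} :
    φ x ∈ maximalIdeal (LTRing p n) ↔ x ∈ maximalIdeal (LTRing p n) := by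
  rw [← residue_eq_zero_iff, ← residue_eq_zero_iff, ← RingHom.congr_fun hφ.1 x]; rfl

theorem IsStabilizerMap.bijective [H.IsComm] (hn : 1 ≤ n)
    (hΓ : mulSeries Γ p = PowerSeries.X ^ p ^ n) (hH : IsUniversalDeformation p n Γ H)
    {g : PowerSeries (kk p n)} (hg : IsUnit (PowerSeries.coeff 1 g))
    {φ : LTRing p n →ₐ[WW p n] LTRing p n} (hφ : IsStabilizerMap p n H g φ) :
    Function.Bijective φ :=
  bijective_of_map_maximalIdeal φ.toRingHom φ.commutes (by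
    rw [← hI_eq_maximalIdeal hn hΓ hH]; exact IsStabilizerMap.map_hI hg hφ n)

theorem hI_isStable [H.IsComm] (hn : 1 ≤ n) (hΓ : mulSeries Γ p = PowerSeries.X ^ p ^ n)
    (hH : IsUniversalDeformation p n Γ H) (M h : ℕ) : IsStableIdeal p n Γ H M (hI p H h) := by
  intro g φ hg _ hφ
  conv_lhs => rw [← IsStabilizerMap.map_hI hg.2 hφ h]
  exact Ideal.comap_map_of_bijective φ.toRingHom (IsStabilizerMap.bijective hn hΓ hH hg.2 hφ)

/-! ## Smallness -/

/-- If `g` lifts to an endomorphism of `H` over `E₀ / 𝔞`, then `φ_g ≡ id mod 𝔞`. -/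
theorem IsStabilizerMap.sub_mem (hH : IsUniversalDeformation p n Γ H) {g : PowerSeries (kk p n)}
    (hg : IsUnit (PowerSeries.coeff 1 g)) {φ : LTRing p n →ₐ[WW p n] LTRing p n}
    (hφ : IsStabilizerMap p n H g φ) {𝔞 : Ideal (LTRing p n)} {τ : PowerSeries (LTRing p n)}
    (hτ : IsFGHom (H.map (Ideal.Quotient.mk 𝔞)) (H.map (Ideal.Quotient.mk 𝔞))
      (PowerSeries.map (Ideal.Quotient.mk 𝔞) τ))
    (hτg : PowerSeries.map (LTRing.residue p n) τ = g) (x : LTRing p n) : φ x - x ∈ 𝔞 := by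
  by_cases h : 𝔞 = ⊤
  · simp [h]
  obtain ⟨h1, θ, hθ, hθ'⟩ := hφ
  let π := Ideal.Quotient.mk 𝔞
  have hu : IsUnit (PowerSeries.coeff 1 τ) := by
    rw [isUnit_iff_residue, ← PowerSeries.coeff_map, hτg]; exact hg.ne_zero
  have hu' : IsUnit (PowerSeries.coeff 1 (PowerSeries.map π τ)) := by
    rw [PowerSeries.coeff_map]; exact hu.map π
  have hθπ := IsFGHom.map hθ π
  have h2 := IsFGHom.comp (IsFGHom.substInv hτ hu') hθπ
  rw [fg_map_map] at h2
  have e : ∀ f : PowerSeries (LTRing p n), PowerSeries.map (resQ h) (PowerSeries.map π f) =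
      PowerSeries.map (LTRing.residue p n) f := fun f => by ext; simp [π]
  have h3 := univ_unique_quot hH h (φ₁ := (Ideal.Quotient.mkₐ _ 𝔞).comp φ)
    (φ₂ := Ideal.Quotient.mkₐ _ 𝔞) (RingHom.ext fun y => RingHom.congr_fun h1 y) rfl h2 (by
      have a1 := PowerSeries.map_subst (PowerSeries.HasSubst.of_constantCoeff_zero' hθπ.1)
        (h := resQ h) ((PowerSeries.map π τ).substInvOfIsUnit hu')
      have a2 := PowerSeries.map_subst (PowerSeries.HasSubst.of_constantCoeff_zero' hτ.1)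
        (h := resQ h) ((PowerSeries.map π τ).substInvOfIsUnit hu')
      rw [PowerSeries.subst_substInvOfIsUnit_left _ hτ.1 hu'] at a2
      refine a1.trans (Eq.trans ?_ (a2.symm.trans (PowerSeries.map_X _)))
      congr 1
      exact (e θ).trans (hθ'.trans (hτg.symm.trans (e τ).symm)))
  exact Ideal.Quotient.eq.mp (congrArg (fun ψ : LTRing p n →ₐ[WW p n] _ => ψ x) h3)

theorem coeff_oneAdd (hΓ : mulSeries Γ p = PowerSeries.X ^ p ^ n) {N : ℕ}
    {b : PowerSeries (kk p n)} (hb : PowerSeries.constantCoeff b = 0) {i : ℕ}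
    (hi : i < (p ^ n) ^ N) :
    PowerSeries.coeff i (oneAdd Γ (p ^ N) b) = PowerSeries.coeff i PowerSeries.X := by
  have hq : p ^ n ≠ 0 := pow_ne_zero _ (Fact.out : p.Prime).ne_zero
  have := oneAdd_sub_X_mem Γ (p ^ N) hb (𝔟 := Ideal.span {PowerSeries.X ^ (p ^ n) ^ N}) (by
    rw [Ideal.mem_span_singleton, mulSeries_pow_of_eq_X_pow Γ hq hΓ]
    exact X_pow_dvd_subst hb dvd_rfl)
  rw [Ideal.mem_span_singleton, PowerSeries.X_pow_dvd_iff] at this
  have h := this i hi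
  rwa [map_sub, sub_eq_zero] at h

theorem lt_q_pow (hn : 1 ≤ n) (N : ℕ) : N < (p ^ n) ^ N :=
  Nat.lt_pow_self (Nat.one_lt_pow (by omega) (Fact.out : p.Prime).one_lt)

theorem isFGAut_oneAdd [Γ.IsComm] (hΓ : mulSeries Γ p = PowerSeries.X ^ p ^ n) (hn : 1 ≤ n) {N : ℕ}
    (hN : 1 ≤ N) {b : PowerSeries (kk p n)} (hb : IsFGHom Γ Γ b) :
    IsFGAut Γ (oneAdd Γ (p ^ N) b) := by
  refine ⟨isFGHom_oneAdd Γ _ hb, ?_⟩
  rw [coeff_oneAdd hΓ hb.1 (lt_of_le_of_lt hN (lt_q_pow hn N))]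
  simp

/-- General smallness statement for `g = X +_Γ [m] b`. -/
theorem IsStabilizerMap.sub_mem_of_kill [H.IsComm] (hH : IsUniversalDeformation p n Γ H) {m : ℕ}
    {b : PowerSeries (kk p n)} (hb : IsFGHom Γ Γ b)
    (hg : IsUnit (PowerSeries.coeff 1 (oneAdd Γ m b))) {φ : LTRing p n →ₐ[WW p n] LTRing p n}
    (hφ : IsStabilizerMap p n H (oneAdd Γ m b) φ) {𝔞 : Ideal (LTRing p n)}
    (hkill : ∀ z : Pt H C (XI (Fin 2) (LTRing p n)), z.val ∈ (maximalIdeal _).map C →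
      (m • z).val ∈ 𝔞.map C) (x : LTRing p n) : φ x - x ∈ 𝔞 := by
  obtain ⟨b', h0, hb'⟩ := exists_lift b hb.1
  have hm := (maximalIdeal.isMaximal (LTRing p n)).ne_top
  refine IsStabilizerMap.sub_mem hH hg hφ (τ := oneAdd H m b')
    (isFGHom_oneAdd_quot H m h0 (maximalIdeal _) 𝔞 (IsNoetherian.noetherian _) ?_ hkill)
    (by rw [map_oneAdd H m h0, hH.1, hb']) x
  refine IsFGHom.of_map (ψ := resQ hm) ?_ ?_
  · rw [injective_iff_map_eq_zero]
    intro y hy
    obtain ⟨y, rfl⟩ := Ideal.Quotient.mk_surjective y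
    exact Ideal.Quotient.eq_zero_iff_mem.mpr ((residue_eq_zero_iff p n).mp hy)
  · have e : PowerSeries.map (resQ hm) (PowerSeries.map (Ideal.Quotient.mk _) b') = b := by
      rw [← hb']; ext; simp
    rwa [fg_map_map, resQ_comp_mk, hH.1, e]

/-- Smallness at a `p`-adic point: if `p ∈ 𝔞` and `𝔪^{c+1} ⊆ 𝔞` then `φ_g ≡ id mod 𝔞^{j+1}` for
`g = X +_Γ [p^{c+j}] b`. -/
theorem IsStabilizerMap.sub_mem_pow [H.IsComm] (hH : IsUniversalDeformation p n Γ H)
    {𝔞 : Ideal (LTRing p n)} (hp : (p : LTRing p n) ∈ 𝔞) {c j : ℕ}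
    (hc : maximalIdeal (LTRing p n) ^ (c + 1) ≤ 𝔞) {b : PowerSeries (kk p n)} (hb : IsFGHom Γ Γ b)
    (hg : IsUnit (PowerSeries.coeff 1 (oneAdd Γ (p ^ (c + j)) b)))
    {φ : LTRing p n →ₐ[WW p n] LTRing p n}
    (hφ : IsStabilizerMap p n H (oneAdd Γ (p ^ (c + j)) b) φ) (x : LTRing p n) :
    φ x - x ∈ 𝔞 ^ (j + 1) := by
  refine IsStabilizerMap.sub_mem_of_kill hH hb hg hφ (fun z hz => ?_) x
  have hp' : ∀ J : Ideal (LTRing p n), (p : LTRing p n) ∈ J →
      (p : MvPowerSeries (Fin 2) (LTRing p n)) ∈ J.map C := fun J h => by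
    rw [← map_natCast C]; exact Ideal.mem_map_of_mem _ h
  have h1 := Pt.val_pow_nsmul_mem (hp' _ (p_mem_maximalIdeal p n)) le_rfl hz c
  rw [← pow_succ, ← Ideal.map_pow] at h1
  have h2 := Pt.val_pow_nsmul_mem (hp' _ hp) le_rfl (Ideal.map_mono hc h1) j
  rwa [← pow_succ, ← Ideal.map_pow, ← mul_nsmul', ← pow_add, add_comm j c] at h2

theorem IsStabilizerMap.sub_mem_maximalIdeal_pow [H.IsComm] (hH : IsUniversalDeformation p n Γ H)
    {N : ℕ} {b : PowerSeries (kk p n)} (hb : IsFGHom Γ Γ b)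
    (hg : IsUnit (PowerSeries.coeff 1 (oneAdd Γ (p ^ N) b)))
    {φ : LTRing p n →ₐ[WW p n] LTRing p n}
    (hφ : IsStabilizerMap p n H (oneAdd Γ (p ^ N) b) φ) (x : LTRing p n) :
    φ x - x ∈ maximalIdeal (LTRing p n) ^ (N + 1) :=
  IsStabilizerMap.sub_mem_pow hH (p_mem_maximalIdeal p n) (c := 0) (j := N) (by simp) hb
    (by rwa [zero_add]) (by rwa [zero_add]) x

/-- Smallness on the stratum of height `≥ h`: `φ_g ≡ id mod I_h + 𝔪^{(p^h)^N}`. -/
theorem IsStabilizerMap.sub_mem_stratum [H.IsComm] (hH : IsUniversalDeformation p n Γ H)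
    (h : ℕ) {N : ℕ} {b : PowerSeries (kk p n)} (hb : IsFGHom Γ Γ b)
    (hg : IsUnit (PowerSeries.coeff 1 (oneAdd Γ (p ^ N) b)))
    {φ : LTRing p n →ₐ[WW p n] LTRing p n}
    (hφ : IsStabilizerMap p n H (oneAdd Γ (p ^ N) b) φ) (x : LTRing p n) :
    φ x - x ∈ hI p H h ⊔ maximalIdeal (LTRing p n) ^ (p ^ h) ^ N := by
  refine IsStabilizerMap.sub_mem_of_kill hH hb hg hφ (fun z hz => ?_) x
  rw [Ideal.map_sup, Ideal.map_pow]
  exact Pt.val_p_pow_nsmul_mem p h hz N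

/-! ## Weak stability -/

variable (Γ H) in
/-- `φ_g (P) ⊆ P` for all `g = X +_Γ [p^N] b`, `N ≥ N₀`, `b ∈ End Γ`. -/
def WStable (N₀ : ℕ) (P : Ideal (LTRing p n)) : Prop :=
  ∀ N, N₀ ≤ N → ∀ b, IsFGHom Γ Γ b → ∀ φ : LTRing p n →ₐ[WW p n] LTRing p n,
    IsStabilizerMap p n H (oneAdd Γ (p ^ N) b) φ → ∀ x ∈ P, φ x ∈ P

theorem WStable.mono {N₀ N₁ : ℕ} {P : Ideal (LTRing p n)} (h : WStable Γ H N₀ P) (hN : N₀ ≤ N₁) :
    WStable Γ H N₁ P := fun N hN' => h N (hN.trans hN')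

theorem comap_eq_of_isStable [Γ.IsComm] (hΓ : mulSeries Γ p = PowerSeries.X ^ p ^ n) (hn : 1 ≤ n)
    {M : ℕ} (hM : 1 ≤ M) {J : Ideal (LTRing p n)} (hJ : IsStableIdeal p n Γ H M J) {N : ℕ}
    (hN : M ≤ N) {b : PowerSeries (kk p n)} (hb : IsFGHom Γ Γ b)
    {φ : LTRing p n →ₐ[WW p n] LTRing p n} (hφ : IsStabilizerMap p n H (oneAdd Γ (p ^ N) b) φ) :
    J.comap φ.toRingHom = J :=
  hJ _ φ (isFGAut_oneAdd hΓ hn (hM.trans hN) hb) (fun _ hi =>
    coeff_oneAdd hΓ hb.1 ((hi.trans_le hN).trans (lt_q_pow hn N))) hφ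

end Crest.Agent.R227
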