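import Crest.Agent.R227.Frob

/-!
# R227/LT: the Lubin–Tate ring as a complete local noetherian domain; consequences of the universal
property: `I_n = 𝔪`, the `a_i` are coordinates, `I_h` is prime (helper51)
-/

set_option autoImplicit false

namespace Crest.Agent.R227

open MvPowerSeries Crest.LubinTate IsLocalRing

theorem injective_of_surjective_endo {R : Type*} [CommRing R] [IsNoetherianRing R] (f : R →+* R)
    (hf : Function.Surjective f) : Function.Injective f := by
  let K : ℕ →o Ideal R := ⟨fun m => RingHom.ker (f ^ m), monotone_nat_of_le_succ fun m x hx => by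
    rw [RingHom.mem_ker] at hx ⊢
    rw [pow_succ', RingHom.mul_def, RingHom.comp_apply, hx, map_zero]⟩
  obtain ⟨m, hm⟩ := monotone_stabilizes_iff_noetherian.mpr (inferInstance : IsNoetherian R R) K
  rw [injective_iff_map_eq_zero]
  intro x hx
  have hs : Function.Surjective (f ^ m) := by rw [RingHom.coe_pow]; exact hf.iterate m
  obtain ⟨y, rfl⟩ := hs x
  have h1 : y ∈ K (m + 1) := by
    change y ∈ RingHom.ker (f ^ (m + 1))
    rw [RingHom.mem_ker, pow_succ', RingHom.mul_def, RingHom.comp_apply, hx]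
  rw [← hm (m + 1) (Nat.le_succ m)] at h1
  exact h1

instance isDomain_mvPowerSeries {σ R : Type*} [CommRing R] [IsDomain R] :
    IsDomain (MvPowerSeries σ R) := NoZeroDivisors.to_isDomain _

variable (p : ℕ) [Fact p.Prime] (n : ℕ)

/-- The residue field `k = 𝔽_{p^n}`. -/
abbrev kk : Type := GaloisField p n

/-- The Witt vectors `W(k)`. -/
abbrev WW : Type := WittVector p (GaloisField p n)

theorem maximalIdeal_WW : maximalIdeal (WW p n) = Ideal.span {(p : WW p n)} := by
  rw [← WittVector.ker_constantCoeff]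
  exact (eq_maximalIdeal (RingHom.ker_isMaximal_of_surjective
    (WittVector.constantCoeff : WW p n →+* kk p n) (WittVector.constantCoeff_surjective p))).symm

instance isAdicComplete_WW : IsAdicComplete (maximalIdeal (WW p n)) (WW p n) := by
  rw [maximalIdeal_WW]; infer_instance

instance isAdicComplete_LT : IsAdicComplete (maximalIdeal (LTRing p n)) (LTRing p n) :=
  isAdicComplete_maximalIdeal_mvPowerSeries

theorem residue_C (w : WW p n) : LTRing.residue p n (C w) = WittVector.constantCoeff w := by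
  simp [LTRing.residue]

theorem residue_X (i : Fin (n - 1)) : LTRing.residue p n (X i) = 0 := by
  simp [LTRing.residue]

theorem residue_surjective : Function.Surjective (LTRing.residue p n) := fun x => by
  obtain ⟨w, rfl⟩ := WittVector.constantCoeff_surjective p x
  exact ⟨C w, residue_C p n w⟩

theorem ker_residue : RingHom.ker (LTRing.residue p n) = maximalIdeal (LTRing p n) :=
  eq_maximalIdeal (RingHom.ker_isMaximal_of_surjective _ (residue_surjective p n))

theorem residue_eq_zero_iff {x : LTRing p n} :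
    LTRing.residue p n x = 0 ↔ x ∈ maximalIdeal (LTRing p n) := by
  rw [← ker_residue, RingHom.mem_ker]

theorem isUnit_iff_residue {x : LTRing p n} : IsUnit x ↔ LTRing.residue p n x ≠ 0 := by
  rw [Ne, residue_eq_zero_iff, mem_maximalIdeal, mem_nonunits_iff, not_not]

theorem residue_comp_algebraMap :
    (LTRing.residue p n).comp (algebraMap (WW p n) (LTRing p n)) = WittVector.constantCoeff :=
  RingHom.ext (residue_C p n)

theorem p_mem_maximalIdeal : (p : LTRing p n) ∈ maximalIdeal (LTRing p n) := by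
  rw [← residue_eq_zero_iff]; simp

theorem X_mem_maximalIdeal (i : Fin (n - 1)) : (X i : LTRing p n) ∈ maximalIdeal (LTRing p n) :=
  (residue_eq_zero_iff p n).mp (residue_X p n i)

theorem maximalIdeal_LT :
    maximalIdeal (LTRing p n) = Ideal.span {(p : LTRing p n)} ⊔ XI (Fin (n - 1)) (WW p n) := by
  rw [maximalIdeal_mvPowerSeries, PI_eq, maximalIdeal_WW, Ideal.map_span]
  simp

theorem p_ne_zero_WW : (p : WW p n) ≠ 0 := WittVector.p_nonzero p _

theorem p_ne_zero_LT : (p : LTRing p n) ≠ 0 := fun h =>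
  p_ne_zero_WW p n (by simpa using congrArg constantCoeff h)

variable {n}

theorem pow_q_kk (hn : 1 ≤ n) (x : kk p n) : x ^ p ^ n = x := by
  have := Fintype.ofFinite (kk p n)
  have h := FiniteField.pow_card x
  rwa [← Nat.card_eq_fintype_card, GaloisField.card p n (by omega)] at h

theorem pow_q_sub_mem (hn : 1 ≤ n) (w : WW p n) : w ^ p ^ n - w ∈ Ideal.span {(p : WW p n)} := by
  rw [← WittVector.ker_constantCoeff, RingHom.mem_ker, map_sub, map_pow, pow_q_kk p hn, sub_self]

/-! ## Quotients of the Lubin–Tate ring as test rings -/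

variable {p}

theorem le_ker_residue {𝔞 : Ideal (LTRing p n)} (h : 𝔞 ≠ ⊤) :
    ∀ x ∈ 𝔞, LTRing.residue p n x = 0 := fun _ hx =>
  (residue_eq_zero_iff p n).mpr (le_maximalIdeal h hx)

/-- The residue map of a quotient. -/
noncomputable def resQ {𝔞 : Ideal (LTRing p n)} (h : 𝔞 ≠ ⊤) : LTRing p n ⧸ 𝔞 →+* kk p n :=
  Ideal.Quotient.lift 𝔞 (LTRing.residue p n) (le_ker_residue h)

@[simp] theorem resQ_mk {𝔞 : Ideal (LTRing p n)} (h : 𝔞 ≠ ⊤) (x : LTRing p n) :
    resQ h (Ideal.Quotient.mk 𝔞 x) = LTRing.residue p n x := rfl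

theorem resQ_comp_mk {𝔞 : Ideal (LTRing p n)} (h : 𝔞 ≠ ⊤) :
    (resQ h).comp (Ideal.Quotient.mk 𝔞) = LTRing.residue p n := rfl

variable {Γ : FormalGroup (kk p n)} {H : FormalGroup (LTRing p n)}

/-- Uniqueness part of the universal property. -/
theorem univ_unique (hH : IsUniversalDeformation p n Γ H) {B : Type} [CommRing B] [IsLocalRing B]
    [IsNoetherianRing B] [Algebra (WW p n) B] [IsAdicComplete (maximalIdeal B) B]
    (r : B →+* kk p n) (hr : Function.Surjective r)
    (hW : r.comp (algebraMap (WW p n) B) = WittVector.constantCoeff)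
    {φ₁ φ₂ : LTRing p n →ₐ[WW p n] B} (h₁ : r.comp φ₁.toRingHom = LTRing.residue p n)
    (h₂ : r.comp φ₂.toRingHom = LTRing.residue p n) {θ : PowerSeries B}
    (hθ : IsFGHom (H.map φ₁.toRingHom) (H.map φ₂.toRingHom) θ)
    (hθ' : PowerSeries.map r θ = PowerSeries.X) : φ₁ = φ₂ :=
  (hH.2 B inferInstance r hr (eq_maximalIdeal (RingHom.ker_isMaximal_of_surjective _ hr)) hW
    (H.map φ₂.toRingHom) (by rw [fg_map_map, h₂, hH.1])).unique ⟨h₁, θ, hθ, hθ'⟩
    ⟨h₂, PowerSeries.X, isFGHom_X _, by simp⟩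

/-- Uniqueness for quotients of `E₀`. -/
theorem univ_unique_quot (hH : IsUniversalDeformation p n Γ H) {𝔞 : Ideal (LTRing p n)}
    (h : 𝔞 ≠ ⊤) {φ₁ φ₂ : LTRing p n →ₐ[WW p n] LTRing p n ⧸ 𝔞}
    (h₁ : (resQ h).comp φ₁.toRingHom = LTRing.residue p n)
    (h₂ : (resQ h).comp φ₂.toRingHom = LTRing.residue p n) {θ : PowerSeries (LTRing p n ⧸ 𝔞)}
    (hθ : IsFGHom (H.map φ₁.toRingHom) (H.map φ₂.toRingHom) θ)
    (hθ' : PowerSeries.map (resQ h) θ = PowerSeries.X) : φ₁ = φ₂ := by
  have := Ideal.Quotient.nontrivial_iff.mpr h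
  have := IsLocalRing.of_surjective' (Ideal.Quotient.mk 𝔞) Ideal.Quotient.mk_surjective
  have : IsAdicComplete (maximalIdeal (LTRing p n ⧸ 𝔞)) (LTRing p n ⧸ 𝔞) := by
    rw [← IsLocalRing.map_maximalIdeal_of_surjective _ Ideal.Quotient.mk_surjective]
    exact isAdicComplete_quotient _ _ (closedFor_of_isLocalRing 𝔞)
  refine univ_unique hH (resQ h) (fun x => ?_) (RingHom.ext (residue_C p n)) h₁ h₂ hθ hθ'
  obtain ⟨y, rfl⟩ := residue_surjective p n x
  exact ⟨Ideal.Quotient.mk _ y, rfl⟩

/-! ## `I_n = 𝔪` and coordinates -/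

theorem residue_coeff_mulSeries (hH : IsUniversalDeformation p n Γ H) (m i : ℕ) :
    LTRing.residue p n (PowerSeries.coeff i (mulSeries H m)) =
      PowerSeries.coeff i (mulSeries Γ m) := by
  rw [← PowerSeries.coeff_map, map_mulSeries, hH.1]

theorem hc_mem_maximalIdeal (hΓ : mulSeries Γ p = PowerSeries.X ^ p ^ n)
    (hH : IsUniversalDeformation p n Γ H) {j : ℕ} (hj : j ≠ n) :
    hc p H j ∈ maximalIdeal (LTRing p n) := by
  rw [← residue_eq_zero_iff, hc, residue_coeff_mulSeries hH, hΓ, PowerSeries.coeff_X_pow, if_neg]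
  exact fun h => hj (Nat.pow_right_injective (Fact.out : p.Prime).two_le h)

theorem residue_hc_n (hΓ : mulSeries Γ p = PowerSeries.X ^ p ^ n)
    (hH : IsUniversalDeformation p n Γ H) : LTRing.residue p n (hc p H n) = 1 := by
  rw [hc, residue_coeff_mulSeries hH, hΓ, PowerSeries.coeff_X_pow, if_pos rfl]

theorem hI_le_maximalIdeal (hΓ : mulSeries Γ p = PowerSeries.X ^ p ^ n)
    (hH : IsUniversalDeformation p n Γ H) {h : ℕ} (hh : h ≤ n) :
    hI p H h ≤ maximalIdeal (LTRing p n) :=
  (hI_le_iff p H).mpr fun j hj => hc_mem_maximalIdeal hΓ hH (by omega)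

theorem hI_ne_top (hΓ : mulSeries Γ p = PowerSeries.X ^ p ^ n)
    (hH : IsUniversalDeformation p n Γ H) {h : ℕ} (hh : h ≤ n) : hI p H h ≠ ⊤ := fun h' =>
  (maximalIdeal.isMaximal (LTRing p n)).ne_top (top_le_iff.mp (h' ▸ hI_le_maximalIdeal hΓ hH hh))

theorem hI_eq_maximalIdeal [H.IsComm] (hn : 1 ≤ n) (hΓ : mulSeries Γ p = PowerSeries.X ^ p ^ n)
    (hH : IsUniversalDeformation p n Γ H) : hI p H n = maximalIdeal (LTRing p n) := by
  refine le_antisymm (hI_le_maximalIdeal hΓ hH le_rfl) fun x hx => ?_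
  have hne := hI_ne_top hΓ hH le_rfl
  set J := hI p H n with hJ
  let π := Ideal.Quotient.mk J
  have := Ideal.Quotient.nontrivial_iff.mpr hne
  have hp0 : (p : LTRing p n ⧸ J) = 0 := by
    rw [← map_natCast π, Ideal.Quotient.eq_zero_iff_mem]; exact p_mem_hI p H hn
  have : CharP (LTRing p n ⧸ J) p := charP_of_p_eq_zero p hp0
  obtain ⟨V, hV1, hV2, -⟩ := exists_V p (H.map π) (h := n) fun j hj => by
    rw [hc_map, Ideal.Quotient.eq_zero_iff_mem]; exact hc_mem_hI p H hj
  let φ₂ : LTRing p n →ₐ[WW p n] LTRing p n ⧸ J := Ideal.Quotient.mkₐ _ J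
  let φ₁ : LTRing p n →ₐ[WW p n] LTRing p n ⧸ J :=
    { (iterateFrobenius _ p n).comp π with
      commutes' := fun w => by
        obtain ⟨c, hc⟩ := Ideal.mem_span_singleton.mp (pow_q_sub_mem p hn w)
        change (algebraMap _ _ w : LTRing p n ⧸ J) ^ p ^ n = _
        rw [← map_pow, ← sub_eq_zero, ← map_sub, hc, map_mul, map_natCast, hp0, zero_mul] }
  have hq : p ^ n ≠ 0 := pow_ne_zero _ (Fact.out : p.Prime).ne_zero
  have h := univ_unique_quot hH hne (φ₁ := φ₁) (φ₂ := φ₂) (θ := V)
    (RingHom.ext fun y => by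
      change resQ hne (π y ^ p ^ n) = _
      rw [map_pow, pow_q_kk p hn]; rfl) rfl (by rwa [fg_map_map] at hV2) (by
      ext i
      rw [PowerSeries.coeff_map, ← coeff_mul_subst_X_pow hq V, ← hV1, ← map_mulSeries,
        PowerSeries.coeff_map, resQ_mk, residue_coeff_mulSeries hH, hΓ, PowerSeries.coeff_X_pow,
        PowerSeries.coeff_X]
      simp only [Nat.mul_eq_left hq])
  have h1 : π x ^ p ^ n = π x := congrArg (fun φ : LTRing p n →ₐ[WW p n] _ => φ x) h
  obtain ⟨m, hm⟩ : ∃ m, p ^ n = m + 2 :=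
    Nat.exists_eq_add_of_le' ((Fact.out : p.Prime).two_le.trans (Nat.le_self_pow (by omega) p))
  have hu : IsUnit (1 + -x ^ (m + 1)) := isUnit_one_add_of_mem_radical (maximalIdeal _)
    (Ideal.le_radical (neg_mem (Ideal.pow_mem_of_mem _ hx _ (by omega))))
  rw [← Ideal.Quotient.eq_zero_iff_mem, ← (hu.map π).mul_right_eq_zero]
  rw [hm] at h1
  simp only [map_add, map_one, map_neg, map_pow]
  linear_combination -h1

/-- A `W`-algebra endomorphism with `φ(𝔪) E₀ = 𝔪` is bijective. -/
theorem bijective_of_map_maximalIdeal (φ : LTRing p n →+* LTRing p n) (hC : ∀ w, φ (C w) = C w)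
    (h : (maximalIdeal (LTRing p n)).map φ = maximalIdeal (LTRing p n)) :
    Function.Bijective φ := by
  have : IsHausdorff ((maximalIdeal (LTRing p n)).map φ) (LTRing p n) := by
    rw [h]; infer_instance
  have hs : Function.Surjective φ := by
    refine surjective_of_mk_map_comp_surjective (I := maximalIdeal (LTRing p n)) φ fun y => ?_
    obtain ⟨y, rfl⟩ := Ideal.Quotient.mk_surjective y
    refine ⟨C (constantCoeff y), ?_⟩
    rw [RingHom.comp_apply, hC, Ideal.Quotient.eq, h, maximalIdeal_LT, ← neg_sub]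
    exact neg_mem (Ideal.mem_sup_right (sub_C_mem_XI y))
  exact ⟨injective_of_surjective_endo φ hs, hs⟩

variable (H) in
/-- The coordinate change `u_i ↦ a_i`. -/
noncomputable def coord : LTRing p n →+* LTRing p n := ev C fun i : Fin (n - 1) => hc p H (i + 1)

@[simp] theorem coord_C (w : WW p n) : coord H (C w) = C w := ev_C _ _ w

theorem hc_mem_of_top (htop : hI p H n = maximalIdeal (LTRing p n)) {j : ℕ} (hj : j < n) :
    hc p H j ∈ maximalIdeal (LTRing p n) := htop ▸ hc_mem_hI p H hj

theorem coord_X (htop : hI p H n = maximalIdeal (LTRing p n))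
    (i : Fin (n - 1)) : coord H (X i) = hc p H (i + 1) :=
  ev_X (maximalIdeal _) C (a := fun i : Fin (n - 1) => hc p H (i + 1))
    (fun i => Ideal.le_radical (hc_mem_of_top htop (by omega))) i

theorem coord_bijective (htop : hI p H n = maximalIdeal (LTRing p n)) :
    Function.Bijective (coord H) := by
  refine bijective_of_map_maximalIdeal _ coord_C (le_antisymm ?_ ?_)
  · conv_lhs => rw [maximalIdeal_LT]
    rw [Ideal.map_sup, map_XI, Ideal.map_span, sup_le_iff, Ideal.span_le, Ideal.span_le]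
    refine ⟨by simpa using p_mem_maximalIdeal p n, ?_⟩
    rintro _ ⟨i, rfl⟩
    simp only [coord_X htop]
    exact hc_mem_of_top htop (by omega)
  · conv_lhs => rw [← htop]
    rw [hI_le_iff]
    intro j hj
    rcases j with _ | j
    · rw [hc_zero, ← map_natCast (coord H)]
      exact Ideal.mem_map_of_mem _ (p_mem_maximalIdeal p n)
    · rw [← coord_X htop ⟨j, by omega⟩]
      exact Ideal.mem_map_of_mem _ (X_mem_maximalIdeal p n _)

/-- Points of `E₀` with prescribed height parameters. -/
theorem exists_point (htop : hI p H n = maximalIdeal (LTRing p n))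
    {S : Type*} [CommRing S] (I : Ideal S)
    [IsAdicComplete I S] (w : WW p n →+* S) {t : Fin (n - 1) → S} (ht : ∀ i, t i ∈ I.radical) :
    ∃ x : LTRing p n →+* S, (∀ a, x (C a) = w a) ∧ (∀ i : Fin (n - 1), x (hc p H (i + 1)) = t i) ∧
      ∀ f, x (coord H f) = ev w t f := by
  let e := RingEquiv.ofBijective _ (coord_bijective htop)
  have h : ∀ f, ((ev w t).comp e.symm.toRingHom) (coord H f) = ev w t f := fun f => by
    change ev w t (e.symm (e f)) = _
    rw [e.symm_apply_apply]
  refine ⟨(ev w t).comp e.symm.toRingHom, fun a => ?_, fun i => ?_, h⟩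
  · rw [← coord_C (H := H), h, ev_C]
  · rw [← coord_X htop, h, ev_X I w ht]

/-- A point of `E₀` is determined by its height parameters. -/
theorem point_ext (htop : hI p H n = maximalIdeal (LTRing p n))
    {S : Type*} [CommRing S] (I : Ideal S)
    [IsHausdorff I S] {x y : LTRing p n →+* S} (hC : ∀ a, x (C a) = y (C a))
    (ha : ∀ i : Fin (n - 1), x (hc p H (i + 1)) = y (hc p H (i + 1)))
    (hr : ∀ i : Fin (n - 1), x (hc p H (i + 1)) ∈ I.radical) : x = y := by
  have h : x.comp (coord H) = y.comp (coord H) :=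
    hom_ext I (fun a => by simp [hC]) (fun i => by simp [coord_X htop, ha])
      (fun i => by simpa [coord_X htop] using hr i)
  ext1 f
  obtain ⟨g, rfl⟩ := (coord_bijective htop).2 f
  exact RingHom.congr_fun h g

/-- The stratum `E₀ / I_h ≅ k[[a_h, …, a_{n-1}]]`. -/
theorem exists_stratum (htop : hI p H n = maximalIdeal (LTRing p n))
    {h : ℕ} (h1 : 1 ≤ h) (hh : h ≤ n) :
    ∃ π : LTRing p n →+* MvPowerSeries (Fin (n - h)) (kk p n), Function.Surjective π ∧
      RingHom.ker π = hI p H h ∧ (∀ w, π (C w) = C (WittVector.constantCoeff w)) ∧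
      ∀ j : Fin (n - h), π (hc p H (h + j)) = X j := by
  let t : Fin (n - 1) → MvPowerSeries (Fin (n - h)) (WW p n) := fun i =>
    if hi : h ≤ i + 1 then X ⟨i + 1 - h, by omega⟩ else 0
  have ht : ∀ i, t i ∈ (XI (Fin (n - h)) (WW p n)).radical := fun i => by
    simp only [t]; split_ifs
    · exact X_mem_XI_radical _
    · exact Ideal.zero_mem _
  obtain ⟨κ, hκC, hκa, -⟩ := exists_point htop (XI _ _) C ht
  have hκ : ∀ j : Fin (n - h), κ (hc p H (h + j)) = X j := fun j => by
    have := hκa ⟨h + j - 1, by omega⟩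
    simp only [t, show h + j - 1 + 1 = h + j by omega, le_add_iff_nonneg_right, zero_le, dif_pos,
      Nat.add_sub_cancel_left] at this
    exact this
  have hm : ∀ j : Fin (n - h), hc p H (h + j) ∈ (maximalIdeal (LTRing p n)).radical := fun j =>
    Ideal.le_radical (hc_mem_of_top htop (by omega))
  let ι : MvPowerSeries (Fin (n - h)) (WW p n) →+* LTRing p n :=
    ev C fun j : Fin (n - h) => hc p H (h + j)
  have hιX : ∀ j, ι (X j) = hc p H (h + j) := ev_X (maximalIdeal _) C hm
  have hκι : κ.comp ι = RingHom.id _ := hom_ext (XI _ _) (fun w => by simp [ι, hκC])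
    (fun j => by simp [hιX, hκ]) (fun j => by simpa [hιX, hκ] using X_mem_XI_radical j)
  refine ⟨(map WittVector.constantCoeff).comp κ, fun y => ?_, le_antisymm (fun f hf => ?_) ?_,
    fun w => by simp [hκC], fun j => by simp [hκ]⟩
  · obtain ⟨g, rfl⟩ := exists_mvmap_eq WittVector.constantCoeff (f := y)
      (fun d => WittVector.constantCoeff_surjective p _)
    exact ⟨ι g, congrArg (map WittVector.constantCoeff) (RingHom.congr_fun hκι g)⟩
  · let π := Ideal.Quotient.mk (hI p H h)
    have := isAdicComplete_quotient _ _ (closedFor_of_isLocalRing (hI p H h))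
    have e : π = π.comp (ι.comp κ) := by
      refine point_ext htop ((maximalIdeal _).map π) (fun a => by simp [ι, hκC])
        (fun i => ?_) (fun i => Ideal.le_radical (Ideal.mem_map_of_mem _
          (hc_mem_of_top htop (by omega))))
      rw [RingHom.comp_apply, RingHom.comp_apply, hκa]
      simp only [t]
      split_ifs with hi
      · rw [hιX]; congr 2; simp; omega
      · rw [map_zero, map_zero, Ideal.Quotient.eq_zero_iff_mem]
        exact hc_mem_hI p H (by omega)
    have h2 : (C (p : WW p n) : MvPowerSeries (Fin (n - h)) (WW p n)) ∣ κ f := by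
      rw [C_dvd_iff]
      intro d
      rw [← Ideal.mem_span_singleton, ← WittVector.ker_constantCoeff, RingHom.mem_ker, ← coeff_map]
      exact congrArg (coeff d) ((RingHom.mem_ker).mp hf)
    obtain ⟨g, hg⟩ := h2
    rw [← Ideal.Quotient.eq_zero_iff_mem]
    change π f = 0
    rw [e, RingHom.comp_apply, RingHom.comp_apply, hg, map_mul, map_natCast, map_natCast, map_mul,
      (Ideal.Quotient.eq_zero_iff_mem).mpr (p_mem_hI p H h1), zero_mul]
  · rw [hI_le_iff]
    intro j hj
    rw [RingHom.mem_ker, RingHom.comp_apply]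
    rcases j with _ | j
    · rw [hc_zero, map_natCast, map_natCast, ← map_natCast C, CharP.cast_eq_zero, map_zero]
    · have := hκa ⟨j, by omega⟩
      simp only [t, show ¬ h ≤ j + 1 by omega, dif_neg, not_false_eq_true] at this
      rw [this, map_zero]

theorem hI_isPrime (htop : hI p H n = maximalIdeal (LTRing p n))
    {h : ℕ} (hh : h ≤ n) : (hI p H h).IsPrime := by
  rcases Nat.eq_zero_or_pos h with rfl | h1
  · rw [hI_zero]; exact Ideal.isPrime_bot
  · obtain ⟨π, -, hk, -⟩ := exists_stratum htop h1 hh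
    rw [← hk]; exact RingHom.ker_isPrime π

end Crest.Agent.R227
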