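import Crest.Agent.R227.Stab

/-!
# R227/Reduce: the theorem follows from the two statements on weakly stable primes (helper51)
-/

set_option autoImplicit false

namespace Crest.Agent.R227

open MvPowerSeries Crest.LubinTate IsLocalRing

variable {p : ℕ} [Fact p.Prime] {n : ℕ} {Γ : FormalGroup (kk p n)} {H : FormalGroup (LTRing p n)}

variable (Γ H) in
/-- Weakly stable primes of characteristic zero vanish. -/
def Char0Stmt : Prop :=
  ∀ (N₀ : ℕ) (P : Ideal (LTRing p n)), P.IsPrime → WStable Γ H N₀ P → (p : LTRing p n) ∉ P → P = ⊥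

variable (Γ H) in
/-- Weakly stable primes of generic height `h`, `1 ≤ h < n`, are the height ideals. -/
def CharPStmt : Prop :=
  ∀ (N₀ h : ℕ) (P : Ideal (LTRing p n)), P.IsPrime → WStable Γ H N₀ P → 1 ≤ h → h < n →
    hI p H h ≤ P → hc p H h ∉ P → P = hI p H h

theorem exists_eq_hI_of_wstable [H.IsComm] (hn : 1 ≤ n)
    (hΓ : mulSeries Γ p = PowerSeries.X ^ p ^ n) (hH : IsUniversalDeformation p n Γ H)
    (h0 : Char0Stmt Γ H) (h1 : CharPStmt Γ H) {N₀ : ℕ} {P : Ideal (LTRing p n)} (hP : P.IsPrime)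
    (hs : WStable Γ H N₀ P) : ∃ h, h ≤ n ∧ P = hI p H h := by
  classical
  have hex : hI p H 0 ≤ P := by rw [hI_zero]; exact bot_le
  let h := Nat.findGreatest (fun h => hI p H h ≤ P) n
  have hh : h ≤ n := Nat.findGreatest_le n
  have hle : hI p H h ≤ P := Nat.findGreatest_spec (P := fun h => hI p H h ≤ P) (Nat.zero_le n) hex
  refine ⟨h, hh, ?_⟩
  rcases hh.eq_or_lt with e | hlt
  · rw [e, hI_eq_maximalIdeal hn hΓ hH] at hle ⊢
    exact le_antisymm (le_maximalIdeal hP.ne_top) hle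
  have hnot : hc p H h ∉ P := fun hc => Nat.findGreatest_is_greatest
    (P := fun h => hI p H h ≤ P) (Nat.lt_succ_self h) hlt (by
      rw [hI_succ, sup_le_iff, Ideal.span_singleton_le_iff_mem]; exact ⟨hle, hc⟩)
  rcases Nat.eq_zero_or_pos h with e | hpos
  · rw [e] at hnot ⊢
    rw [hI_zero]; exact h0 N₀ P hP hs (by rwa [hc_zero] at hnot)
  · exact h1 N₀ h P hP hs hpos hlt hle hnot

/-- The minimal primes of a stable ideal are weakly stable. -/
theorem exists_wstable_minimalPrimes [Γ.IsComm] [H.IsComm] (hn : 1 ≤ n)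
    (hΓ : mulSeries Γ p = PowerSeries.X ^ p ^ n) (hH : IsUniversalDeformation p n Γ H)
    {M : ℕ} (hM : 1 ≤ M) {J : Ideal (LTRing p n)} (hJ : IsStableIdeal p n Γ H M J)
    {Q : Ideal (LTRing p n)} (hQ : Q ∈ J.minimalPrimes) : ∃ N₀, WStable Γ H N₀ Q := by
  have hfin := Ideal.finite_minimalPrimes_of_isNoetherianRing _ J
  have h1 : ∀ Q' ∈ J.minimalPrimes, ∃ K : ℕ, Q' ≤ Q ⊔ maximalIdeal _ ^ K → Q' = Q := by
    intro Q' hQ'
    by_contra h
    push Not at h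
    have : Q' ≤ Q := fun x hx => closedFor_of_isLocalRing Q x fun K => (h K).1 hx
    exact (h 0).2 (le_antisymm this (hQ.2 hQ'.1 this))
  choose! K hK using h1
  obtain ⟨K₀, hK₀⟩ := (hfin.image K).bddAbove
  refine ⟨max M K₀, fun N hN b hb φ hφ => ?_⟩
  have hcomap := comap_eq_of_isStable hΓ hn hM hJ (le_of_max_le_left hN) hb hφ
  have hu := (isFGAut_oneAdd hΓ hn (hM.trans (le_of_max_le_left hN)) hb).2
  have := hQ.1.1
  obtain ⟨Q', hQ', hle⟩ := Ideal.exists_minimalPrimes_le (I := J) (J := Q.comap φ.toRingHom)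
    (by rw [← hcomap]; exact Ideal.comap_mono hQ.1.2)
  have hKN : K Q' ≤ N + 1 :=
    (hK₀ ⟨Q', hQ', rfl⟩).trans ((le_of_max_le_right hN).trans (Nat.le_succ N))
  obtain rfl : Q' = Q := hK Q' hQ' fun x hx => by
    have hx' : φ x ∈ Q := hle hx
    have := Ideal.sub_mem _ (Ideal.mem_sup_left (T := maximalIdeal _ ^ K Q') hx')
      (Ideal.mem_sup_right (Ideal.pow_le_pow_right hKN
        (IsStabilizerMap.sub_mem_maximalIdeal_pow hH hb hu hφ x)))
    simpa using this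
  exact fun x hx => hle hx

theorem result_of [Γ.IsComm] [H.IsComm] (hn : 1 ≤ n)
    (hΓ : mulSeries Γ p = PowerSeries.X ^ p ^ n) (hH : IsUniversalDeformation p n Γ H)
    (h0 : Char0Stmt Γ H) (h1 : CharPStmt Γ H) (M : ℕ) (hM : 1 ≤ M) :
    (∀ P : Ideal (LTRing p n),
        (P.IsPrime ∧ IsStableIdeal p n Γ H M P) ↔ ∃ h : ℕ, h ≤ n ∧ P = heightIdeal p n H h) ∧
    (∀ J : Ideal (LTRing p n),
        (J.IsRadical ∧ IsStableIdeal p n Γ H M J) ↔
          (∃ h : ℕ, h ≤ n ∧ J = heightIdeal p n H h) ∨ J = ⊤) := by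
  simp_rw [heightIdeal_eq_hI]
  have key : ∀ J : Ideal (LTRing p n), IsStableIdeal p n Γ H M J → ∀ Q ∈ J.minimalPrimes,
      ∃ h, h ≤ n ∧ Q = hI p H h := fun J hJ Q hQ => by
    obtain ⟨N₀, hs⟩ := exists_wstable_minimalPrimes hn hΓ hH hM hJ hQ
    exact exists_eq_hI_of_wstable hn hΓ hH h0 h1 hQ.1.1 hs
  refine ⟨fun P => ⟨fun ⟨hP, hs⟩ => key P hs P (by
    rw [Ideal.minimalPrimes_eq_subsingleton_self]; rfl), ?_⟩, fun J => ⟨fun ⟨hJ, hs⟩ => ?_, ?_⟩⟩
  · rintro ⟨h, hh, rfl⟩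
    exact ⟨hI_isPrime (hI_eq_maximalIdeal hn hΓ hH) hh, hI_isStable hn hΓ hH M h⟩
  · by_cases ht : J = ⊤
    · exact Or.inr ht
    obtain ⟨Q, hQ⟩ := Ideal.nonempty_minimalPrimes ht
    obtain ⟨h, hh, rfl⟩ := key J hs Q hQ
    refine Or.inl ⟨h, hh, le_antisymm hQ.1.2 ?_⟩
    rw [← hJ.radical, ← Ideal.sInf_minimalPrimes, le_sInf_iff]
    intro Q' hQ'
    obtain ⟨h', -, rfl⟩ := key J hs Q' hQ'
    rcases le_total h h' with e | e
    · exact hI_mono p H e
    · exact hQ.2 hQ'.1 (hI_mono p H e)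
  · rintro (⟨h, hh, rfl⟩ | rfl)
    · exact ⟨(hI_isPrime (hI_eq_maximalIdeal hn hΓ hH) hh).isRadical, hI_isStable hn hΓ hH M h⟩
    · exact ⟨le_top, fun _ _ _ _ _ => Ideal.comap_top⟩

end Crest.Agent.R227
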